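import Mathlib

/-!
One-variable core of the step lemma for log-concavity of the volume of sections of boxes.
All statements concern functions of one variable `w` on the half line `w > 0`.
-/

namespace Vale.Agent.Lib.P227

open Set

theorem sub_le_of_hasDerivAt_nonpos {f f' : ℝ → ℝ} {a b : ℝ} (hab : a ≤ b)
    (h : ∀ x ∈ Icc a b, HasDerivAt f (f' x) x) (hn : ∀ x ∈ Icc a b, f' x ≤ 0) : f b ≤ f a := by
  have hc : ContinuousOn f (Icc a b) := fun x hx => (h x hx).continuousAt.continuousWithinAt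
  have hd : DifferentiableOn ℝ f (interior (Icc a b)) := fun x hx =>
    (h x (interior_subset hx)).differentiableAt.differentiableWithinAt
  have hanti := antitoneOn_of_deriv_nonpos (convex_Icc a b) hc hd (fun x hx => by
    rw [(h x (interior_subset hx)).deriv]; exact hn x (interior_subset hx))
  exact hanti (left_mem_Icc.2 hab) (right_mem_Icc.2 hab) hab

/-- The part of the data needed for the boundary inequality. -/
structure ABase (A A₁ A₂ : ℝ → ℝ) : Prop where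
  dA : ∀ w, 0 < w → HasDerivAt A (A₁ w) w
  dA₁ : ∀ w, 0 < w → HasDerivAt A₁ (A₂ w) w
  pos : ∀ w, 0 < w → 0 < A w
  S0 : ∀ w, 0 < w → 0 ≤ A₁ w
  S1 : ∀ w, 0 < w → w * A₁ w ≤ A w
  HCinf : ∀ w, 0 < w → A w * (A₂ w + A₁ w / w) ≤ A₁ w ^ 2

/-- `A ^ 2` is concave as a function of `w ^ 2`: the tangent line bound. -/
theorem ABase.tangent {A A₁ A₂ : ℝ → ℝ} (hb : ABase A A₁ A₂) {t u : ℝ} (ht : 0 < t) (htu : t ≤ u) :
    A u ^ 2 ≤ A t ^ 2 + A t * A₁ t * (u ^ 2 - t ^ 2) / t := by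
  -- the slope function `A A₁ / w` is antitone
  have hanti : ∀ x ∈ Icc t u, A x * A₁ x / x ≤ A t * A₁ t / t := by
    intro x hx
    have hx0 : 0 < x := lt_of_lt_of_le ht hx.1
    have := sub_le_of_hasDerivAt_nonpos (f := fun w => A w * A₁ w / w)
      (f' := fun w => ((A₁ w * A₁ w + A w * A₂ w) * w - A w * A₁ w * 1) / w ^ 2) hx.1
      (fun y hy => by
        have hy0 : 0 < y := lt_of_lt_of_le ht hy.1
        exact ((hb.dA y hy0).mul (hb.dA₁ y hy0)).div (hasDerivAt_id' y) hy0.ne')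
      (fun y hy => by
        have hy0 : 0 < y := lt_of_lt_of_le ht hy.1
        apply div_nonpos_of_nonpos_of_nonneg _ (by positivity)
        have h1 := hb.HCinf y hy0
        have h2 := hb.S0 y hy0
        have h3 := hb.S1 y hy0
        have h4 := hb.pos y hy0
        have h5 : A y * A₂ y ≤ A₁ y ^ 2 - A y * A₁ y / y := by
          have : A y * (A₂ y + A₁ y / y) = A y * A₂ y + A y * A₁ y / y := by ring
          linarith
        have h6 : (A y * A₂ y) * y ≤ A₁ y ^ 2 * y - A y * A₁ y := by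
          have := mul_le_mul_of_nonneg_right h5 hy0.le
          have h7 : (A₁ y ^ 2 - A y * A₁ y / y) * y = A₁ y ^ 2 * y - A y * A₁ y := by
            field_simp
          linarith
        have h8 : A₁ y * (A y - y * A₁ y) ≥ 0 := mul_nonneg h2 (by linarith)
        nlinarith)
    simpa using this
  have := sub_le_of_hasDerivAt_nonpos
    (f := fun w => A w ^ 2 - (A t ^ 2 + A t * A₁ t * (w ^ 2 - t ^ 2) / t))
    (f' := fun w => (2 * A w * A₁ w) - (A t * A₁ t * (2 * w) / t)) htu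
    (fun y hy => by
      have hy0 : 0 < y := lt_of_lt_of_le ht hy.1
      have h1 : HasDerivAt (fun w => A w ^ 2) (2 * A y * A₁ y) y := by
        have := (hb.dA y hy0).fun_pow 2
        simpa using this
      have h2 : HasDerivAt (fun w : ℝ => A t ^ 2 + A t * A₁ t * (w ^ 2 - t ^ 2) / t)
          (A t * A₁ t * (2 * y) / t) y := by
        have h3 : HasDerivAt (fun w : ℝ => w ^ 2 - t ^ 2) (2 * y) y := by
          have := (hasDerivAt_pow 2 y).sub_const (t ^ 2)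
          simpa using this
        have h4 := ((h3.const_mul (A t * A₁ t)).div_const t).const_add (A t ^ 2)
        exact h4
      exact h1.sub h2)
    (fun y hy => by
      have hy0 : 0 < y := lt_of_lt_of_le ht hy.1
      have h1 := hanti y hy
      have h2 : A y * A₁ y ≤ A t * A₁ t / t * y := by
        rwa [div_le_iff₀ hy0] at h1
      have h3 : A t * A₁ t * (2 * y) / t = 2 * (A t * A₁ t / t * y) := by ring
      rw [h3]
      linarith)
  simp only [sub_self, mul_zero, zero_div, add_zero] at this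
  linarith

theorem star_alg (H S a a₁ t ξ : ℝ) (ht : t ≠ 0) (hS : S ≠ 0) (hξ : ξ ≠ 0) (ha : a ≠ 0)
    (hSdef : S = H + a / t) :
    ((-2 / t ^ 3) * S - (1 / t ^ 2 - 1 / ξ ^ 2) * ((a₁ * t - a) / t ^ 2)) / S ^ 2 + 1 / (t ^ 2 * a)
      = (H ^ 2 - (a / t) ^ 2 + (1 / t ^ 2 - 1 / ξ ^ 2) * (a ^ 2 - t * a * a₁))
        / (S ^ 2 * (t ^ 2 * a)) := by
  have hH : H = S - a / t := by rw [hSdef]; ring
  subst hH
  clear hSdef
  field_simp
  ring

/-- The boundary inequality (star). -/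
theorem ABase.star {A A₁ A₂ Rt : ℝ → ℝ} (hb : ABase A A₁ A₂)
    (hR : ∀ t, 0 < t → HasDerivAt Rt (1 / (t ^ 2 * A t)) t) {η ξ : ℝ} (hη : 0 < η) (hηξ : η < ξ) :
    (A ξ / ξ + A η / η) * (Rt ξ - Rt η) ≤ 1 / η ^ 2 - 1 / ξ ^ 2 := by
  have hξ : 0 < ξ := hη.trans hηξ
  have hAξ := hb.pos ξ hξ
  have hAη := hb.pos η hη
  have hS : 0 < A ξ / ξ + A η / η := by positivity
  have key := sub_le_of_hasDerivAt_nonpos
    (f := fun t => (1 / t ^ 2 - 1 / ξ ^ 2) / (A ξ / ξ + A t / t) + Rt t)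
    (f' := fun t => ((-2 / t ^ 3) * (A ξ / ξ + A t / t)
        - (1 / t ^ 2 - 1 / ξ ^ 2) * ((A₁ t * t - A t) / t ^ 2)) / (A ξ / ξ + A t / t) ^ 2
        + 1 / (t ^ 2 * A t)) hηξ.le
    (fun t ht => by
      have ht0 : 0 < t := lt_of_lt_of_le hη ht.1
      have hAt := hb.pos t ht0
      have hSt : A ξ / ξ + A t / t ≠ 0 := by positivity
      have d1 : HasDerivAt (fun t : ℝ => 1 / t ^ 2 - 1 / ξ ^ 2) (-2 / t ^ 3) t := by
        have h := ((hasDerivAt_pow 2 t).fun_inv (by positivity)).sub_const (ξ ^ 2)⁻¹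
        have e : (-(((2 : ℕ) : ℝ) * t ^ (2 - 1)) / (t ^ 2) ^ 2) = -2 / t ^ 3 := by
          norm_num
          field_simp
        rw [e] at h
        simpa only [one_div] using h
      have d2 : HasDerivAt (fun t => A ξ / ξ + A t / t) ((A₁ t * t - A t) / t ^ 2) t := by
        have h := ((hb.dA t ht0).fun_div (hasDerivAt_id' t) ht0.ne').const_add (A ξ / ξ)
        simpa using h
      exact (d1.div d2 hSt).add (hR t ht0))
    (fun t ht => by
      have ht0 : 0 < t := lt_of_lt_of_le hη ht.1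
      have hAt := hb.pos t ht0
      have htξ : t ≤ ξ := ht.2
      set H := A ξ / ξ with hH
      have hJ : H ^ 2 - (A t / t) ^ 2
          + (1 / t ^ 2 - 1 / ξ ^ 2) * (A t ^ 2 - t * A t * A₁ t) ≤ 0 := by
        have h1 := hb.tangent ht0 htξ
        have h2 : H ^ 2 = A ξ ^ 2 / ξ ^ 2 := by rw [hH]; ring
        have h3 : H ^ 2 ≤ (A t ^ 2 + A t * A₁ t * (ξ ^ 2 - t ^ 2) / t) / ξ ^ 2 := by
          rw [h2]; gcongr
        have h4 : (A t ^ 2 + A t * A₁ t * (ξ ^ 2 - t ^ 2) / t) / ξ ^ 2 - (A t / t) ^ 2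
          + (1 / t ^ 2 - 1 / ξ ^ 2) * (A t ^ 2 - t * A t * A₁ t) = 0 := by
          field_simp
          ring
        linarith
      have hSpos : 0 < H + A t / t := by positivity
      have hEq : ((-2 / t ^ 3) * (H + A t / t)
          - (1 / t ^ 2 - 1 / ξ ^ 2) * ((A₁ t * t - A t) / t ^ 2)) / (H + A t / t) ^ 2
          + 1 / (t ^ 2 * A t)
          = (H ^ 2 - (A t / t) ^ 2 + (1 / t ^ 2 - 1 / ξ ^ 2) * (A t ^ 2 - t * A t * A₁ t))
            / ((H + A t / t) ^ 2 * (t ^ 2 * A t)) :=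
        star_alg H (H + A t / t) (A t) (A₁ t) t ξ ht0.ne' hSpos.ne' hξ.ne' hAt.ne' rfl
      rw [hEq]
      exact div_nonpos_of_nonpos_of_nonneg hJ (by positivity))
  have h0 : (1 / ξ ^ 2 - 1 / ξ ^ 2) / (A ξ / ξ + A ξ / ξ) = 0 := by simp
  simp only [h0, zero_add] at key
  have h1 : (A ξ / ξ + A η / η) * ((1 / η ^ 2 - 1 / ξ ^ 2) / (A ξ / ξ + A η / η))
      = 1 / η ^ 2 - 1 / ξ ^ 2 := by
    field_simp
  have h2 : Rt ξ - Rt η ≤ (1 / η ^ 2 - 1 / ξ ^ 2) / (A ξ / ξ + A η / η) := by linarith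
  calc (A ξ / ξ + A η / η) * (Rt ξ - Rt η)
      ≤ (A ξ / ξ + A η / η) * ((1 / η ^ 2 - 1 / ξ ^ 2) / (A ξ / ξ + A η / η)) := by gcongr
    _ = 1 / η ^ 2 - 1 / ξ ^ 2 := h1

/-- Antiderivative of a function continuous on the open half line. -/
theorem exists_antideriv {f : ℝ → ℝ} (hf : ContinuousOn f (Ioi 0)) :
    ∃ F : ℝ → ℝ, ∀ t, 0 < t → HasDerivAt F (f t) t := by
  refine ⟨fun t => ∫ u in (1 : ℝ)..t, f u, fun t ht => ?_⟩
  have hsub : uIcc 1 t ⊆ Ioi 0 := by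
    intro x hx
    rcases le_total 1 t with h | h
    · rw [uIcc_of_le h] at hx
      exact lt_of_lt_of_le one_pos hx.1
    · rw [uIcc_of_ge h] at hx
      exact lt_of_lt_of_le ht hx.1
  have hint : IntervalIntegrable f MeasureTheory.volume 1 t :=
    (hf.mono hsub).intervalIntegrable
  exact intervalIntegral.integral_hasDerivAt_right hint
    (hf.stronglyMeasurableAtFilter isOpen_Ioi t ht)
    (hf.continuousAt (Ioi_mem_nhds ht))

/-- The full one-variable data: `A = g`, `A₁ = g_u`, `A₂ = g_uu`, `B = g_s`, `B₁ = g_us`,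
`C = g_ss`, and `P₀, P₁, P₂` are antiderivatives of `A, B, C`. -/
structure Slice (A A₁ A₂ B B₁ C P₀ P₁ P₂ : ℝ → ℝ) : Prop where
  base : ABase A A₁ A₂
  dB : ∀ w, 0 < w → HasDerivAt B (B₁ w) w
  dP₀ : ∀ w, 0 < w → HasDerivAt P₀ (A w) w
  dP₁ : ∀ w, 0 < w → HasDerivAt P₁ (B w) w
  dP₂ : ∀ w, 0 < w → HasDerivAt P₂ (C w) w
  HC : ∀ w, 0 < w → ∀ z, A w * (C w + 2 * z * B₁ w + z ^ 2 * (A₂ w + A₁ w / w))
    ≤ (B w + z * A₁ w) ^ 2

/-- The pointwise inequality along the velocity field. -/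
theorem pointwise_alg (A A₁ A₂ B B₁ C w z z' κ c : ℝ) (hA : 0 < A) (hw : 0 < w)
    (hHC : A * (C + 2 * z * B₁ + z ^ 2 * (A₂ + A₁ / w)) ≤ (B + z * A₁) ^ 2)
    (hz : A * z' + z * A₁ = κ * A - B) :
    (2 * z * z' * (A₁ + A / w) + z ^ 2 * (A₂ + (A₁ * w - A) / w ^ 2) + 2 * (B₁ * z + B * z'))
      + 2 * c * (z' / w - z / w ^ 2) - κ ^ 2 * A + C - c ^ 2 * (1 / (w ^ 2 * A)) ≤ 0 := by
  have hB : B = κ * A - A * z' - z * A₁ := by linarith
  have hD : C + 2 * z * B₁ + z ^ 2 * (A₂ + A₁ / w) ≤ A * (κ - z') ^ 2 := by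
    have h1 : B + z * A₁ = A * (κ - z') := by rw [hB]; ring
    rw [h1] at hHC
    have h2 : (A * (κ - z')) ^ 2 = A * (A * (κ - z') ^ 2) := by ring
    rw [h2] at hHC
    exact le_of_mul_le_mul_left hHC hA
  have hEq : (2 * z * z' * (A₁ + A / w) + z ^ 2 * (A₂ + (A₁ * w - A) / w ^ 2)
        + 2 * (B₁ * z + B * z'))
      + 2 * c * (z' / w - z / w ^ 2) - κ ^ 2 * A + C - c ^ 2 * (1 / (w ^ 2 * A))
      = ((C + 2 * z * B₁ + z ^ 2 * (A₂ + A₁ / w)) - A * (κ - z') ^ 2)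
        - (A * (z' - z / w) - c / w) ^ 2 / A := by
    rw [hB]
    field_simp
    ring
  rw [hEq]
  have h3 : 0 ≤ (A * (z' - z / w) - c / w) ^ 2 / A := by positivity
  linarith

theorem const_alg (M S Δ p R : ℝ) (hS : 0 < S) (hΔ : 0 < Δ) (hM2 : M ^ 2 = p * Δ)
    (hstar : S * R ≤ Δ) : -2 * (M * S / Δ) * M + (M * S / Δ) ^ 2 * R + p * S ≤ 0 := by
  have e : (M * S / Δ) * M = p * S := by
    have : (M * S / Δ) * M = M ^ 2 * S / Δ := by ring
    rw [this, hM2]
    field_simp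
  have hR : R ≤ Δ / S := by
    rw [le_div_iff₀ hS]; linarith
  have h1 : (M * S / Δ) ^ 2 * R ≤ (M * S / Δ) ^ 2 * (Δ / S) :=
    mul_le_mul_of_nonneg_left hR (sq_nonneg _)
  have h2 : (M * S / Δ) ^ 2 * (Δ / S) = (M * S / Δ) * M := by
    field_simp
  have h3 : -2 * (M * S / Δ) * M = -2 * ((M * S / Δ) * M) := by ring
  rw [h3]
  rw [h2, e] at h1
  rw [e]
  linarith

/-- The key inequality. -/
theorem Slice.key {A A₁ A₂ B B₁ C P₀ P₁ P₂ : ℝ → ℝ} (hs : Slice A A₁ A₂ B B₁ C P₀ P₁ P₂)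
    {η ξ ξ₁ η₁ ξ₂ η₂ p : ℝ} (hη : 0 < η) (hηξ : η < ξ)
    (hξ₂ : ξ₂ * ξ - ξ₁ ^ 2 = p) (hη₂ : η₂ * η - η₁ ^ 2 = -p)
    (hM : (ξ₁ / ξ - η₁ / η) ^ 2 = p * (1 / η ^ 2 - 1 / ξ ^ 2)) :
    (P₀ ξ - P₀ η)
        * (A₁ ξ * ξ₁ ^ 2 + 2 * B ξ * ξ₁ + A ξ * ξ₂ - (A₁ η * η₁ ^ 2 + 2 * B η * η₁ + A η * η₂)
          + (P₂ ξ - P₂ η))
      ≤ (A ξ * ξ₁ - A η * η₁ + (P₁ ξ - P₁ η)) ^ 2 := by
  have hb := hs.base
  have hξ : 0 < ξ := hη.trans hηξ
  have hAξ := hb.pos ξ hξ
  have hAη := hb.pos η hη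
  have hmem : ∀ x ∈ Icc η ξ, 0 < x := fun x hx => lt_of_lt_of_le hη hx.1
  -- positivity of `I`
  have hI : 0 < P₀ ξ - P₀ η := by
    have hmono : StrictMonoOn P₀ (Icc η ξ) := by
      apply strictMonoOn_of_deriv_pos (convex_Icc η ξ)
        (fun x hx => (hs.dP₀ x (hmem x hx)).continuousAt.continuousWithinAt)
      intro x hx
      have hx' := interior_subset hx
      rw [(hs.dP₀ x (hmem x hx')).deriv]
      exact hb.pos x (hmem x hx')
    have := hmono (left_mem_Icc.2 hηξ.le) (right_mem_Icc.2 hηξ.le) hηξ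
    linarith
  set I := P₀ ξ - P₀ η with hIdef
  set I₁ := A ξ * ξ₁ - A η * η₁ + (P₁ ξ - P₁ η) with hI₁def
  set κ := I₁ / I with hκ
  have hκI : κ * I = I₁ := by rw [hκ]; field_simp
  -- the antiderivative of `1 / (w ^ 2 A)`
  have hcont : ContinuousOn (fun t => 1 / (t ^ 2 * A t)) (Ioi 0) := by
    intro t ht
    have ht0 : 0 < t := ht
    have hcA : ContinuousAt A t := (hb.dA t ht0).continuousAt
    have hne : t ^ 2 * A t ≠ 0 := (mul_pos (by positivity) (hb.pos t ht0)).ne'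
    exact (ContinuousAt.div continuousAt_const ((continuousAt_id.pow 2).mul hcA) hne).continuousWithinAt
  obtain ⟨Rt, hR⟩ := exists_antideriv hcont
  -- velocity field
  let Z : ℝ → ℝ := fun w => A η * η₁ + κ * (P₀ w - P₀ η) - (P₁ w - P₁ η)
  have hZd : ∀ w, 0 < w → HasDerivAt Z (κ * A w - B w) w := by
    intro w hw
    have h1 := ((hs.dP₀ w hw).sub_const (P₀ η)).const_mul κ
    have h2 := (hs.dP₁ w hw).sub_const (P₁ η)
    have h3 := (h1.const_add (A η * η₁)).sub h2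
    exact h3
  let z : ℝ → ℝ := fun w => Z w / A w
  let z' : ℝ → ℝ := fun w => (κ * A w - B w - z w * A₁ w) / A w
  have hzd : ∀ w, 0 < w → HasDerivAt z (z' w) w := by
    intro w hw
    have hAw := hb.pos w hw
    have h := (hZd w hw).fun_div (hb.dA w hw) hAw.ne'
    refine h.congr_deriv ?_
    simp only [z', z]
    field_simp
  have hzrel : ∀ w, 0 < w → A w * z' w + z w * A₁ w = κ * A w - B w := by
    intro w hw
    have hAw := hb.pos w hw
    simp only [z']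
    field_simp
    ring
  -- the boundary values
  have hzη : z η = η₁ := by
    simp only [z, Z, sub_self, mul_zero, add_zero, sub_zero]
    field_simp
  have hzξ : z ξ = ξ₁ := by
    have : Z ξ = A ξ * ξ₁ := by
      simp only [Z]
      have h1 : κ * (P₀ ξ - P₀ η) = I₁ := hκI
      rw [h1, hI₁def]
      ring
    simp only [z, this]
    field_simp
  -- constants
  set S := A ξ / ξ + A η / η with hSdef
  have hS : 0 < S := by positivity
  set Δ := 1 / η ^ 2 - 1 / ξ ^ 2 with hΔdef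
  have hΔ : 0 < Δ := by
    have : 1 / ξ ^ 2 < 1 / η ^ 2 := by
      apply one_div_lt_one_div_of_lt (by positivity)
      exact pow_lt_pow_left₀ hηξ hη.le (by norm_num)
    rw [hΔdef]; linarith
  set M := ξ₁ / ξ - η₁ / η with hMdef
  set c := M * S / Δ with hc
  set R := Rt ξ - Rt η with hRdef
  have hstar : S * R ≤ Δ := hb.star hR hη hηξ
  -- the potential
  let Ψ : ℝ → ℝ := fun w => z w ^ 2 * (A₁ w + A w / w) + 2 * (B w * z w)
  let W : ℝ → ℝ := fun w => Ψ w + 2 * c * (z w / w) - κ ^ 2 * P₀ w + P₂ w - c ^ 2 * Rt w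
  have hWle : W ξ ≤ W η := by
    refine sub_le_of_hasDerivAt_nonpos (f := W)
      (f' := fun w => (2 * z w * z' w * (A₁ w + A w / w)
        + z w ^ 2 * (A₂ w + (A₁ w * w - A w) / w ^ 2) + 2 * (B₁ w * z w + B w * z' w))
        + 2 * c * (z' w / w - z w / w ^ 2) - κ ^ 2 * A w + C w - c ^ 2 * (1 / (w ^ 2 * A w)))
      hηξ.le ?_ ?_
    · intro w hx
      have hw := hmem w hx
      have hz := hzd w hw
      have hAw := hb.dA w hw
      have hA₁w := hb.dA₁ w hw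
      have hBw := hs.dB w hw
      have hAdiv : HasDerivAt (fun w => A w / w) ((A₁ w * w - A w) / w ^ 2) w := by
        have h := hAw.fun_div (hasDerivAt_id' w) hw.ne'
        simpa using h
      have hzdiv : HasDerivAt (fun w => z w / w) (z' w / w - z w / w ^ 2) w := by
        have h := hz.fun_div (hasDerivAt_id' w) hw.ne'
        refine h.congr_deriv ?_
        field_simp
      have hzsq : HasDerivAt (fun w => z w ^ 2) (2 * z w * z' w) w := by
        have h := hz.fun_pow 2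
        simpa using h
      have hΨ : HasDerivAt Ψ
          (2 * z w * z' w * (A₁ w + A w / w)
            + z w ^ 2 * (A₂ w + (A₁ w * w - A w) / w ^ 2) + 2 * (B₁ w * z w + B w * z' w)) w := by
        have h1 := hzsq.mul (hA₁w.add hAdiv)
        have h2 := (hBw.mul hz).const_mul 2
        exact h1.add h2
      have h1 := hzdiv.const_mul (2 * c)
      have h2 := (hs.dP₀ w hw).const_mul (κ ^ 2)
      have h3 := hs.dP₂ w hw
      have h4 := (hR w hw).const_mul (c ^ 2)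
      exact ((hΨ.add h1).sub h2).add h3 |>.sub h4
    · intro w hx
      have hw := hmem w hx
      exact pointwise_alg (A w) (A₁ w) (A₂ w) (B w) (B₁ w) (C w) w (z w) (z' w) κ c
        (hb.pos w hw) hw (hs.HC w hw (z w)) (hzrel w hw)
  -- unpacking
  simp only [W, Ψ, hzξ, hzη] at hWle
  have hfinal : (A₁ ξ * ξ₁ ^ 2 + 2 * B ξ * ξ₁ + A ξ * ξ₂ - (A₁ η * η₁ ^ 2 + 2 * B η * η₁ + A η * η₂)
          + (P₂ ξ - P₂ η)) ≤ κ ^ 2 * I := by
    have h1 : A ξ * ξ₂ = ξ₁ ^ 2 * (A ξ / ξ) + p * (A ξ / ξ) := by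
      rw [← hξ₂]; field_simp; ring
    have h2 : A η * η₂ = η₁ ^ 2 * (A η / η) - p * (A η / η) := by
      have : p = η₁ ^ 2 - η₂ * η := by linarith
      rw [this]; field_simp; ring
    have h3 : -2 * c * M + c ^ 2 * R + p * S ≤ 0 := const_alg M S Δ p R hS hΔ hM hstar
    have hMexp : M = ξ₁ / ξ - η₁ / η := rfl
    have hSexp : S = A ξ / ξ + A η / η := rfl
    have hIexp : I = P₀ ξ - P₀ η := rfl
    have hRexp : R = Rt ξ - Rt η := rfl
    rw [hIexp, h1, h2]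
    rw [hSexp, hMexp, hRexp] at h3
    clear_value c κ
    linarith [hWle, h3]
  calc I * (A₁ ξ * ξ₁ ^ 2 + 2 * B ξ * ξ₁ + A ξ * ξ₂ - (A₁ η * η₁ ^ 2 + 2 * B η * η₁ + A η * η₂)
          + (P₂ ξ - P₂ η))
      ≤ I * (κ ^ 2 * I) := mul_le_mul_of_nonneg_left hfinal hI.le
    _ = (κ * I) ^ 2 := by ring
    _ = I₁ ^ 2 := by rw [hκI]

end Vale.Agent.Lib.P227
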