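import Mathlib

/-!
Partial derivatives of smooth functions on the plane, and the second derivative along a curve.
-/

namespace Vale.Agent.Lib.P227

open scoped ContDiff

/-- Partial derivative in the first variable. -/
noncomputable def D₁ (f : ℝ × ℝ → ℝ) (p : ℝ × ℝ) : ℝ := fderiv ℝ f p (1, 0)

/-- Partial derivative in the second variable. -/
noncomputable def D₂ (f : ℝ × ℝ → ℝ) (p : ℝ × ℝ) : ℝ := fderiv ℝ f p (0, 1)

theorem smooth_D₁ {f : ℝ × ℝ → ℝ} (hf : ContDiff ℝ ∞ f) : ContDiff ℝ ∞ (D₁ f) := by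
  have h : ContDiff ℝ ∞ (fderiv ℝ f) := hf.fderiv_right (m := ∞) (by simp)
  exact h.clm_apply contDiff_const

theorem smooth_D₂ {f : ℝ × ℝ → ℝ} (hf : ContDiff ℝ ∞ f) : ContDiff ℝ ∞ (D₂ f) := by
  have h : ContDiff ℝ ∞ (fderiv ℝ f) := hf.fderiv_right (m := ∞) (by simp)
  exact h.clm_apply contDiff_const

theorem hasFDerivAt_of_smooth {f : ℝ × ℝ → ℝ} (hf : ContDiff ℝ ∞ f) (p : ℝ × ℝ) :
    HasFDerivAt f (fderiv ℝ f p) p :=
  (hf.differentiable (by simp) p).hasFDerivAt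

theorem curve_first {f : ℝ × ℝ → ℝ} (hf : ContDiff ℝ ∞ f) {u v : ℝ → ℝ} {u₁ v₁ σ : ℝ}
    (hu : HasDerivAt u u₁ σ) (hv : HasDerivAt v v₁ σ) :
    HasDerivAt (fun σ => f (u σ, v σ)) (D₁ f (u σ, v σ) * u₁ + D₂ f (u σ, v σ) * v₁) σ := by
  have h1 := hasFDerivAt_of_smooth hf (u σ, v σ)
  have h2 : HasDerivAt (fun σ => (u σ, v σ)) (u₁, v₁) σ := hu.prodMk hv
  have h3 := h1.comp_hasDerivAt σ h2
  refine h3.congr_deriv ?_
  have e : ((u₁, v₁) : ℝ × ℝ) = u₁ • ((1 : ℝ), (0 : ℝ)) + v₁ • ((0 : ℝ), (1 : ℝ)) := by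
    ext <;> simp
  rw [e, map_add, map_smul, map_smul]
  simp [D₁, D₂, mul_comm]

theorem partial_fst {f : ℝ × ℝ → ℝ} (hf : ContDiff ℝ ∞ f) (x s : ℝ) :
    HasDerivAt (fun x => f (x, s)) (D₁ f (x, s)) x := by
  have h := curve_first hf (hasDerivAt_id' x) (hasDerivAt_const x s)
  simpa using h

theorem partial_snd {f : ℝ × ℝ → ℝ} (hf : ContDiff ℝ ∞ f) (x s : ℝ) :
    HasDerivAt (fun s => f (x, s)) (D₂ f (x, s)) s := by
  have h := curve_first hf (hasDerivAt_const s x) (hasDerivAt_id' s)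
  simpa using h

/-- Symmetry of mixed partial derivatives. -/
theorem D₁_D₂_comm {f : ℝ × ℝ → ℝ} (hf : ContDiff ℝ ∞ f) (p : ℝ × ℝ) :
    D₁ (D₂ f) p = D₂ (D₁ f) p := by
  have hsymm : IsSymmSndFDerivAt ℝ f p :=
    (hf.contDiffAt).isSymmSndFDerivAt (by
      simp only [minSmoothness_of_isRCLikeNormedField]
      norm_cast)
  have hdiff : HasFDerivAt (fderiv ℝ f) (fderiv ℝ (fderiv ℝ f) p) p := by
    have h : ContDiff ℝ ∞ (fderiv ℝ f) := hf.fderiv_right (m := ∞) (by simp)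
    exact (h.differentiable (by simp) p).hasFDerivAt
  have h1 : ∀ v w : ℝ × ℝ, fderiv ℝ (fun q => fderiv ℝ f q w) p v = fderiv ℝ (fderiv ℝ f) p v w := by
    intro v w
    have := hdiff.clm_apply (hasFDerivAt_const w p)
    rw [this.fderiv]
    simp
  have e1 : D₁ (D₂ f) p = fderiv ℝ (fderiv ℝ f) p (1, 0) (0, 1) := h1 (1, 0) (0, 1)
  have e2 : D₂ (D₁ f) p = fderiv ℝ (fderiv ℝ f) p (0, 1) (1, 0) := h1 (0, 1) (1, 0)
  rw [e1, e2]
  exact hsymm _ _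

/-- First and second derivative along the curve `σ ↦ (u σ, s + σ)`. -/
theorem curve_second {f : ℝ × ℝ → ℝ} (hf : ContDiff ℝ ∞ f) {u u₁ u₂ : ℝ → ℝ} (s σ : ℝ)
    (h1 : ∀ σ, HasDerivAt u (u₁ σ) σ) (h2 : ∀ σ, HasDerivAt u₁ (u₂ σ) σ) :
    HasDerivAt (fun σ => D₁ f (u σ, s + σ) * u₁ σ + D₂ f (u σ, s + σ))
      (D₁ (D₁ f) (u σ, s + σ) * u₁ σ ^ 2 + 2 * (D₁ (D₂ f) (u σ, s + σ) * u₁ σ)
        + D₂ (D₂ f) (u σ, s + σ) + D₁ f (u σ, s + σ) * u₂ σ) σ := by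
  have hv : HasDerivAt (fun σ => s + σ) 1 σ := (hasDerivAt_id' σ).const_add s
  have a1 := curve_first (smooth_D₁ hf) (h1 σ) hv
  have a2 := curve_first (smooth_D₂ hf) (h1 σ) hv
  have a3 := (a1.mul (h2 σ)).add a2
  refine a3.congr_deriv ?_
  rw [← D₁_D₂_comm hf]
  ring

theorem curve_first' {f : ℝ × ℝ → ℝ} (hf : ContDiff ℝ ∞ f) {u u₁ : ℝ → ℝ} (s σ : ℝ)
    (h1 : ∀ σ, HasDerivAt u (u₁ σ) σ) :
    HasDerivAt (fun σ => f (u σ, s + σ)) (D₁ f (u σ, s + σ) * u₁ σ + D₂ f (u σ, s + σ)) σ := by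
  have hv : HasDerivAt (fun σ => s + σ) 1 σ := (hasDerivAt_id' σ).const_add s
  have a := curve_first hf (h1 σ) hv
  simpa using a

end Vale.Agent.Lib.P227
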