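import Mathlib
import Vale.Agent.Lib.P227.Key
import Vale.Agent.Lib.P227.Partials

/-!
The class of functions preserved by the averaging step.
-/

namespace Vale.Agent.Lib.P227

open scoped ContDiff
open Set

/-- A tower of successive antiderivatives in the first variable with alternating parity. -/
structure Tower (T : ℕ → ℝ × ℝ → ℝ) : Prop where
  smooth : ∀ j, ContDiff ℝ ∞ (T j)
  d1 : ∀ j p, D₁ (T (j + 1)) p = T j p
  parity : ∀ j u s, T j (-u, s) = (-1) ^ (j + 1) * T j (u, s)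

/-- The class: positivity, the slope bounds and the Hessian condition. -/
structure Good (g : ℝ × ℝ → ℝ) : Prop where
  pos : ∀ u s, 0 < u → 0 < g (u, s)
  S0 : ∀ u s, 0 < u → 0 ≤ D₁ g (u, s)
  S1 : ∀ u s, 0 < u → u * D₁ g (u, s) ≤ g (u, s)
  HC : ∀ u s, 0 < u → ∀ z, g (u, s) * (D₂ (D₂ g) (u, s) + 2 * z * D₁ (D₂ g) (u, s)
      + z ^ 2 * (D₁ (D₁ g) (u, s) + D₁ g (u, s) / u)) ≤ (D₂ g (u, s) + z * D₁ g (u, s)) ^ 2

/-- The averaging step with half width `b₀ * exp (τ s)`. -/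
noncomputable def step (T : ℕ → ℝ × ℝ → ℝ) (b₀ τ : ℝ) (j : ℕ) (p : ℝ × ℝ) : ℝ :=
  T (j + 1) (p.1 + b₀ * Real.exp (τ * p.2), p.2) - T (j + 1) (p.1 - b₀ * Real.exp (τ * p.2), p.2)

theorem quad_leading {α β γ : ℝ} (h : ∀ z : ℝ, α * z ^ 2 + β * z + γ ≤ 0) : α ≤ 0 := by
  by_contra hα
  push Not at hα
  have h1 := h (Real.sqrt ((|γ| + 1) / α))
  have h2 := h (-Real.sqrt ((|γ| + 1) / α))
  have h3 : Real.sqrt ((|γ| + 1) / α) ^ 2 = (|γ| + 1) / α :=
    Real.sq_sqrt (by positivity)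
  have h4 : α * ((|γ| + 1) / α) = |γ| + 1 := by field_simp
  have h5 := neg_abs_le γ
  nlinarith

theorem Good.HCinf {g : ℝ × ℝ → ℝ} (hG : Good g) (u s : ℝ) (hu : 0 < u) :
    g (u, s) * (D₁ (D₁ g) (u, s) + D₁ g (u, s) / u) ≤ D₁ g (u, s) ^ 2 := by
  have h := quad_leading (α := g (u, s) * (D₁ (D₁ g) (u, s) + D₁ g (u, s) / u) - D₁ g (u, s) ^ 2)
    (β := 2 * g (u, s) * D₁ (D₂ g) (u, s) - 2 * D₂ g (u, s) * D₁ g (u, s))
    (γ := g (u, s) * D₂ (D₂ g) (u, s) - D₂ g (u, s) ^ 2) (fun z => by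
      have := hG.HC u s hu z
      nlinarith)
  linarith

theorem Good.D₁D₁_nonpos {g : ℝ × ℝ → ℝ} (hG : Good g) (u s : ℝ) (hu : 0 < u) :
    D₁ (D₁ g) (u, s) ≤ 0 := by
  have h1 := hG.HCinf u s hu
  have h2 := hG.S0 u s hu
  have h3 := hG.S1 u s hu
  have h4 := hG.pos u s hu
  by_contra hc
  push Not at hc
  have h5 : D₁ g (u, s) ≤ g (u, s) / u := by
    rw [le_div_iff₀ hu]; linarith
  have h6 : g (u, s) * (D₁ g (u, s) / u) = D₁ g (u, s) * (g (u, s) / u) := by ring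
  have h7 : D₁ g (u, s) ^ 2 ≤ D₁ g (u, s) * (g (u, s) / u) := by
    rw [sq]; exact mul_le_mul_of_nonneg_left h5 h2
  have h8 : 0 < g (u, s) * D₁ (D₁ g) (u, s) := mul_pos h4 hc
  nlinarith

section Facts

variable {T : ℕ → ℝ × ℝ → ℝ}

theorem Tower.T0_zero (hT : Tower T) (s : ℝ) : T 0 (0, s) = 0 := by
  have h := hT.parity 0 0 s
  simp at h
  linarith

theorem Tower.T0_odd (hT : Tower T) (u s : ℝ) : T 0 (-u, s) = - T 0 (u, s) := by
  have h := hT.parity 0 u s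
  simpa using h

theorem Tower.T1_even (hT : Tower T) (u s : ℝ) : T 1 (-u, s) = T 1 (u, s) := by
  have h := hT.parity 1 u s
  simpa using h

theorem Tower.D₁T0_even (hT : Tower T) (u s : ℝ) : D₁ (T 0) (-u, s) = D₁ (T 0) (u, s) := by
  have h1 := partial_fst (hT.smooth 0) (-u) s
  have h2 : HasDerivAt (fun x => T 0 (-x, s)) (D₁ (T 0) (-u, s) * (-1)) u :=
    HasDerivAt.comp (h₂ := fun x => T 0 (x, s)) u h1 (hasDerivAt_neg u)
  have h3 : HasDerivAt (fun x => T 0 (-x, s)) (- D₁ (T 0) (u, s)) u := by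
    have h4 := (partial_fst (hT.smooth 0) u s).neg
    refine h4.congr_of_eventuallyEq (Filter.Eventually.of_forall fun x => ?_)
    exact hT.T0_odd x s
  have := h2.unique h3
  linarith

/-- The first antiderivative is strictly increasing on the nonnegative half line. -/
theorem Tower.T1_strictMono (hT : Tower T) (hG : Good (T 0)) (s : ℝ) :
    StrictMonoOn (fun x => T 1 (x, s)) (Ici 0) := by
  have hd : ∀ x, HasDerivAt (fun x => T 1 (x, s)) (T 0 (x, s)) x := fun x => by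
    have h := partial_fst (hT.smooth 1) x s
    rwa [hT.d1 0 (x, s)] at h
  apply strictMonoOn_of_deriv_pos (convex_Ici 0)
    (fun x _ => (hd x).continuousAt.continuousWithinAt)
  intro x hx
  rw [interior_Ici] at hx
  rw [(hd x).deriv]
  exact hG.pos x s hx

/-- The base function is nondecreasing on the nonnegative half line. -/
theorem Tower.T0_mono (hT : Tower T) (hG : Good (T 0)) (s : ℝ) :
    MonotoneOn (fun x => T 0 (x, s)) (Ici 0) := by
  have hd : ∀ x, HasDerivAt (fun x => T 0 (x, s)) (D₁ (T 0) (x, s)) x := fun x =>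
    partial_fst (hT.smooth 0) x s
  apply monotoneOn_of_deriv_nonneg (convex_Ici 0)
    (fun x _ => (hd x).continuousAt.continuousWithinAt)
    (fun x _ => (hd x).differentiableAt.differentiableWithinAt)
  intro x hx
  rw [interior_Ici] at hx
  rw [(hd x).deriv]
  exact hG.S0 x s hx

/-- The derivative of the base function is nonincreasing on the nonnegative half line. -/
theorem Tower.D₁T0_anti (hT : Tower T) (hG : Good (T 0)) (s : ℝ) :
    AntitoneOn (fun x => D₁ (T 0) (x, s)) (Ici 0) := by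
  have hd : ∀ x, HasDerivAt (fun x => D₁ (T 0) (x, s)) (D₁ (D₁ (T 0)) (x, s)) x := fun x =>
    partial_fst (smooth_D₁ (hT.smooth 0)) x s
  apply antitoneOn_of_deriv_nonpos (convex_Ici 0)
    (fun x _ => (hd x).continuousAt.continuousWithinAt)
    (fun x _ => (hd x).differentiableAt.differentiableWithinAt)
  intro x hx
  rw [interior_Ici] at hx
  rw [(hd x).deriv]
  exact hG.D₁D₁_nonpos x s hx

theorem step_smooth (hT : Tower T) (b₀ τ : ℝ) (j : ℕ) : ContDiff ℝ ∞ (step T b₀ τ j) := by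
  unfold step
  have hc : ContDiff ℝ ∞ (fun p : ℝ × ℝ => b₀ * Real.exp (τ * p.2)) := by fun_prop
  exact ((hT.smooth (j + 1)).comp ((contDiff_fst.add hc).prodMk contDiff_snd)).sub
    ((hT.smooth (j + 1)).comp ((contDiff_fst.sub hc).prodMk contDiff_snd))

/-- The derivative of a level of the step in the first variable. -/
theorem step_partial (hT : Tower T) (b₀ τ : ℝ) (j : ℕ) (r s : ℝ) :
    HasDerivAt (fun x => step T b₀ τ j (x, s))
      (T j (r + b₀ * Real.exp (τ * s), s) - T j (r - b₀ * Real.exp (τ * s), s)) r := by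
  have h1 := partial_fst (hT.smooth (j + 1)) (r + b₀ * Real.exp (τ * s)) s
  have h2 := partial_fst (hT.smooth (j + 1)) (r - b₀ * Real.exp (τ * s)) s
  rw [hT.d1] at h1 h2
  have h3 := h1.comp_add_const r (b₀ * Real.exp (τ * s))
  have h4 := h2.comp_sub_const r (b₀ * Real.exp (τ * s))
  exact h3.sub h4

theorem step_D₁ (hT : Tower T) (b₀ τ : ℝ) (j : ℕ) (r s : ℝ) :
    D₁ (step T b₀ τ j) (r, s)
      = T j (r + b₀ * Real.exp (τ * s), s) - T j (r - b₀ * Real.exp (τ * s), s) :=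
  (partial_fst (step_smooth hT b₀ τ j) r s).unique (step_partial hT b₀ τ j r s)

theorem step_tower (hT : Tower T) (b₀ τ : ℝ) : Tower (step T b₀ τ) where
  smooth j := step_smooth hT b₀ τ j
  d1 j p := by
    obtain ⟨r, s⟩ := p
    rw [step_D₁ hT]
    simp [step]
  parity j u s := by
    simp only [step]
    have h1 := hT.parity (j + 1) (u - b₀ * Real.exp (τ * s)) s
    have h2 := hT.parity (j + 1) (u + b₀ * Real.exp (τ * s)) s
    have e1 : -u + b₀ * Real.exp (τ * s) = -(u - b₀ * Real.exp (τ * s)) := by ring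
    have e2 : -u - b₀ * Real.exp (τ * s) = -(u + b₀ * Real.exp (τ * s)) := by ring
    rw [e1, e2, h1, h2]
    ring

theorem step_pos (hT : Tower T) (hG : Good (T 0)) {b₀ : ℝ} (hb₀ : 0 < b₀) (τ r s : ℝ)
    (hr : 0 < r) : 0 < step T b₀ τ 0 (r, s) := by
  have hb : 0 < b₀ * Real.exp (τ * s) := by positivity
  set b := b₀ * Real.exp (τ * s) with hbdef
  simp only [step, ← hbdef]
  have hmono := hT.T1_strictMono hG s
  have h1 : T 1 (r - b, s) = T 1 (|r - b|, s) := by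
    rcases abs_cases (r - b) with ⟨h, _⟩ | ⟨h, _⟩
    · rw [h]
    · rw [h, hT.T1_even]
  have h2 : |r - b| < r + b := by
    rw [abs_lt]; constructor <;> linarith
  have h3 := hmono (mem_Ici.2 (abs_nonneg (r - b))) (mem_Ici.2 (by positivity)) h2
  simp only at h3
  show 0 < T (0 + 1) (r + b, s) - T (0 + 1) (r - b, s)
  simp only [zero_add]
  rw [h1]
  linarith

theorem step_S0 (hT : Tower T) (hG : Good (T 0)) {b₀ : ℝ} (hb₀ : 0 < b₀) (τ r s : ℝ)
    (hr : 0 < r) : 0 ≤ D₁ (step T b₀ τ 0) (r, s) := by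
  rw [step_D₁ hT]
  have hb : 0 < b₀ * Real.exp (τ * s) := by positivity
  set b := b₀ * Real.exp (τ * s) with hbdef
  have hmono := hT.T0_mono hG s
  rcases le_total b r with h | h
  · have := hmono (mem_Ici.2 (by linarith : (0 : ℝ) ≤ r - b))
      (mem_Ici.2 (by positivity : (0 : ℝ) ≤ r + b)) (by linarith)
    simp only at this
    linarith
  · have h1 : T 0 (r - b, s) = - T 0 (b - r, s) := by
      have := hT.T0_odd (b - r) s
      rwa [neg_sub] at this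
    have h2 : 0 ≤ T 0 (b - r, s) := by
      have := hmono (mem_Ici.2 (le_refl 0)) (mem_Ici.2 (by linarith : (0 : ℝ) ≤ b - r))
        (by linarith)
      simp only at this
      rwa [hT.T0_zero] at this
    have h3 : 0 ≤ T 0 (r + b, s) := by
      have := hmono (mem_Ici.2 (le_refl 0)) (mem_Ici.2 (by positivity : (0 : ℝ) ≤ r + b))
        (by positivity)
      simp only at this
      rwa [hT.T0_zero] at this
    rw [h1]
    linarith

theorem step_S1 (hT : Tower T) (hG : Good (T 0)) {b₀ : ℝ} (hb₀ : 0 < b₀) (τ r s : ℝ)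
    (hr : 0 < r) : r * D₁ (step T b₀ τ 0) (r, s) ≤ step T b₀ τ 0 (r, s) := by
  have hb : 0 < b₀ * Real.exp (τ * s) := by positivity
  have hanti := hT.D₁T0_anti hG s
  set b := b₀ * Real.exp (τ * s) with hbdef
  have key := sub_le_of_hasDerivAt_nonpos
    (f := fun x => x * (T 0 (x + b, s) - T 0 (x - b, s)) - step T b₀ τ 0 (x, s))
    (f' := fun x => x * (D₁ (T 0) (x + b, s) - D₁ (T 0) (x - b, s)))
    (a := 0) (b := r) hr.le
    (fun x _ => by
      have h1 := (partial_fst (hT.smooth 0) (x + b) s).comp_add_const x b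
      have h2 := (partial_fst (hT.smooth 0) (x - b) s).comp_sub_const x b
      have h3 := (hasDerivAt_id' x).mul (h1.sub h2)
      have h4 := h3.sub (step_partial hT b₀ τ 0 x s)
      refine h4.congr_deriv ?_
      simp only [Pi.sub_apply, ← hbdef]
      ring)
    (fun x hx => by
      have hx0 : 0 ≤ x := hx.1
      apply mul_nonpos_of_nonneg_of_nonpos hx0
      have h1 : D₁ (T 0) (x - b, s) = D₁ (T 0) (|x - b|, s) := by
        rcases abs_cases (x - b) with ⟨h, _⟩ | ⟨h, _⟩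
        · rw [h]
        · rw [h, hT.D₁T0_even]
      have h2 : |x - b| ≤ x + b := by
        rw [abs_le]; constructor <;> linarith
      have h3 := hanti (mem_Ici.2 (abs_nonneg (x - b))) (mem_Ici.2 (by positivity)) h2
      simp only at h3
      rw [h1]
      linarith)
  simp only [zero_mul] at key
  rw [step_D₁ hT, ← hbdef]
  have h0 : step T b₀ τ 0 (0, s) = 0 := by
    have := (step_tower hT b₀ τ).T0_zero s
    exact this
  rw [h0] at key
  linarith

/-- The slice of a tower at a fixed value of the second variable. -/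
theorem slice_of_tower (hT : Tower T) (hG : Good (T 0)) (s : ℝ) :
    Slice (fun w => T 0 (w, s)) (fun w => D₁ (T 0) (w, s)) (fun w => D₁ (D₁ (T 0)) (w, s))
      (fun w => D₂ (T 0) (w, s)) (fun w => D₁ (D₂ (T 0)) (w, s)) (fun w => D₂ (D₂ (T 0)) (w, s))
      (fun w => T 1 (w, s)) (fun w => D₂ (T 1) (w, s)) (fun w => D₂ (D₂ (T 1)) (w, s)) := by
  have h0 := hT.smooth 0
  have h1 := hT.smooth 1
  have hD : D₁ (T 1) = T 0 := funext (hT.d1 0)
  have hP₁ : D₁ (D₂ (T 1)) = D₂ (T 0) := by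
    funext p
    rw [D₁_D₂_comm h1, hD]
  have hP₂ : D₁ (D₂ (D₂ (T 1))) = D₂ (D₂ (T 0)) := by
    funext p
    rw [D₁_D₂_comm (smooth_D₂ h1), hP₁]
  refine ⟨⟨fun w _ => partial_fst h0 w s, fun w _ => partial_fst (smooth_D₁ h0) w s,
    fun w hw => hG.pos w s hw, fun w hw => hG.S0 w s hw, fun w hw => hG.S1 w s hw,
    fun w hw => hG.HCinf w s hw⟩,
    fun w _ => partial_fst (smooth_D₂ h0) w s, fun w _ => ?_, fun w _ => ?_, fun w _ => ?_,
    fun w hw z => hG.HC w s hw z⟩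
  · have := partial_fst h1 w s
    rwa [hD] at this
  · have := partial_fst (smooth_D₂ h1) w s
    rwa [hP₁] at this
  · have := partial_fst (smooth_D₂ (smooth_D₂ h1)) w s
    rwa [hP₂] at this

/-- The key inequality transported to a function given as a difference along two curves. -/
theorem hc_of_curves (hT : Tower T) (hG : Good (T 0)) {G : ℝ × ℝ → ℝ} (hsm : ContDiff ℝ ∞ G)
    (u u₁ u₂ ξ ξ₁ ξ₂ η η₁ η₂ : ℝ → ℝ) (s p : ℝ)
    (hu1 : ∀ σ, HasDerivAt u (u₁ σ) σ) (hu2 : ∀ σ, HasDerivAt u₁ (u₂ σ) σ)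
    (hξ1 : ∀ σ, HasDerivAt ξ (ξ₁ σ) σ) (hξ2 : ∀ σ, HasDerivAt ξ₁ (ξ₂ σ) σ)
    (hη1 : ∀ σ, HasDerivAt η (η₁ σ) σ) (hη2 : ∀ σ, HasDerivAt η₁ (η₂ σ) σ)
    (hid : ∀ σ, G (u σ, s + σ) = T 1 (ξ σ, s + σ) - T 1 (η σ, s + σ))
    (hη0 : 0 < η 0) (hηξ : η 0 < ξ 0)
    (hpξ : ξ₂ 0 * ξ 0 - ξ₁ 0 ^ 2 = p) (hpη : η₂ 0 * η 0 - η₁ 0 ^ 2 = -p)
    (hM : (ξ₁ 0 / ξ 0 - η₁ 0 / η 0) ^ 2 = p * (1 / η 0 ^ 2 - 1 / ξ 0 ^ 2)) :
    G (u 0, s) * (D₁ (D₁ G) (u 0, s) * u₁ 0 ^ 2 + 2 * (D₁ (D₂ G) (u 0, s) * u₁ 0)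
        + D₂ (D₂ G) (u 0, s) + D₁ G (u 0, s) * u₂ 0)
      ≤ (D₁ G (u 0, s) * u₁ 0 + D₂ G (u 0, s)) ^ 2 := by
  have h1 := hT.smooth 1
  have hD : D₁ (T 1) = T 0 := funext (hT.d1 0)
  have hD₂ : D₁ (D₂ (T 1)) = D₂ (T 0) := by
    funext p
    rw [D₁_D₂_comm h1, hD]
  have hI : ∀ σ, HasDerivAt (fun σ => G (u σ, s + σ))
      (D₁ G (u σ, s + σ) * u₁ σ + D₂ G (u σ, s + σ)) σ := fun σ => curve_first' hsm s σ hu1
  have hIξ : ∀ σ, HasDerivAt (fun σ => T 1 (ξ σ, s + σ))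
      (D₁ (T 1) (ξ σ, s + σ) * ξ₁ σ + D₂ (T 1) (ξ σ, s + σ)) σ := fun σ => curve_first' h1 s σ hξ1
  have hIη : ∀ σ, HasDerivAt (fun σ => T 1 (η σ, s + σ))
      (D₁ (T 1) (η σ, s + σ) * η₁ σ + D₂ (T 1) (η σ, s + σ)) σ := fun σ => curve_first' h1 s σ hη1
  have heq1 : (fun σ => D₁ G (u σ, s + σ) * u₁ σ + D₂ G (u σ, s + σ))
      = fun σ => (D₁ (T 1) (ξ σ, s + σ) * ξ₁ σ + D₂ (T 1) (ξ σ, s + σ))
        - (D₁ (T 1) (η σ, s + σ) * η₁ σ + D₂ (T 1) (η σ, s + σ)) := by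
    funext σ
    apply (hI σ).unique
    have hf : (fun σ => G (u σ, s + σ)) = fun σ => T 1 (ξ σ, s + σ) - T 1 (η σ, s + σ) :=
      funext hid
    rw [hf]
    exact (hIξ σ).sub (hIη σ)
  have hJ := curve_second hsm s 0 hu1 hu2
  have hJξ := curve_second h1 s 0 hξ1 hξ2
  have hJη := curve_second h1 s 0 hη1 hη2
  have heq2 : D₁ (D₁ G) (u 0, s + 0) * u₁ 0 ^ 2 + 2 * (D₁ (D₂ G) (u 0, s + 0) * u₁ 0)
        + D₂ (D₂ G) (u 0, s + 0) + D₁ G (u 0, s + 0) * u₂ 0
      = (D₁ (D₁ (T 1)) (ξ 0, s + 0) * ξ₁ 0 ^ 2 + 2 * (D₁ (D₂ (T 1)) (ξ 0, s + 0) * ξ₁ 0)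
        + D₂ (D₂ (T 1)) (ξ 0, s + 0) + D₁ (T 1) (ξ 0, s + 0) * ξ₂ 0)
      - (D₁ (D₁ (T 1)) (η 0, s + 0) * η₁ 0 ^ 2 + 2 * (D₁ (D₂ (T 1)) (η 0, s + 0) * η₁ 0)
        + D₂ (D₂ (T 1)) (η 0, s + 0) + D₁ (T 1) (η 0, s + 0) * η₂ 0) := by
    apply hJ.unique
    rw [heq1]
    exact hJξ.sub hJη
  have heq0 := congrFun heq1 0
  have hid0 := hid 0
  have hk := (slice_of_tower hT hG s).key hη0 hηξ hpξ hpη hM
  simp only [add_zero] at heq2 heq0 hid0
  simp only [hD, hD₂] at heq2 heq0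
  beta_reduce at hk heq0
  rw [hid0, heq0, heq2]
  refine le_trans (le_of_eq ?_) (le_trans hk (le_of_eq ?_))
  · ring
  · ring

/-- The Hessian condition for the step away from the diagonal. -/
theorem step_HC_ne (hT : Tower T) (hG : Good (T 0)) {b₀ : ℝ} (hb₀ : 0 < b₀) (τ r s z : ℝ)
    (hr : 0 < r) (hne : r ≠ b₀ * Real.exp (τ * s)) :
    step T b₀ τ 0 (r, s) * (D₂ (D₂ (step T b₀ τ 0)) (r, s) + 2 * z * D₁ (D₂ (step T b₀ τ 0)) (r, s)
      + z ^ 2 * (D₁ (D₁ (step T b₀ τ 0)) (r, s) + D₁ (step T b₀ τ 0) (r, s) / r))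
      ≤ (D₂ (step T b₀ τ 0) (r, s) + z * D₁ (step T b₀ τ 0) (r, s)) ^ 2 := by
  have hsm := step_smooth hT b₀ τ 0
  -- the curves
  set ν := z / r with hν
  have hνr : ν * r = z := by rw [hν]; field_simp
  let u : ℝ → ℝ := fun σ => r * Real.exp (ν * σ)
  let c : ℝ → ℝ := fun σ => b₀ * Real.exp (τ * (s + σ))
  have hu1 : ∀ σ, HasDerivAt u (ν * u σ) σ := fun σ => by
    have h := ((hasDerivAt_id' σ).const_mul ν).exp.const_mul r
    refine h.congr_deriv ?_
    simp only [u]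
    ring
  have hu2 : ∀ σ, HasDerivAt (fun σ => ν * u σ) (ν * (ν * u σ)) σ := fun σ =>
    (hu1 σ).const_mul ν
  have hc1 : ∀ σ, HasDerivAt c (τ * c σ) σ := fun σ => by
    have h := ((((hasDerivAt_id' σ).const_add s).const_mul τ).exp).const_mul b₀
    refine h.congr_deriv ?_
    simp only [c]
    ring
  have hc2 : ∀ σ, HasDerivAt (fun σ => τ * c σ) (τ * (τ * c σ)) σ := fun σ =>
    (hc1 σ).const_mul τ
  have hu0 : u 0 = r := by simp [u]
  have hc0 : c 0 = b₀ * Real.exp (τ * s) := by simp [c]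
  set b := b₀ * Real.exp (τ * s) with hbdef
  have hb : 0 < b := by positivity
  -- the sign
  obtain ⟨ε, hε, hεpos, hεlt⟩ : ∃ ε : ℝ, (ε = 1 ∨ ε = -1) ∧ 0 < ε * (r - b) ∧ ε * (r - b) < r + b := by
    rcases lt_or_gt_of_ne hne with h | h
    · exact ⟨-1, Or.inr rfl, by linarith, by linarith⟩
    · exact ⟨1, Or.inl rfl, by linarith, by linarith⟩
  have hε2 : ε ^ 2 = 1 := by
    rcases hε with h | h <;> rw [h] <;> norm_num
  have hev : ∀ x y, T 1 (ε * x, y) = T 1 (x, y) := by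
    intro x y
    rcases hε with h | h
    · rw [h, one_mul]
    · rw [h]
      simpa using hT.T1_even x y
  have hrb : r - b ≠ 0 := sub_ne_zero.2 hne
  have hrb' : r + b ≠ 0 := by positivity
  have hε0 : ε ≠ 0 := by
    rcases hε with h | h <;> rw [h] <;> norm_num
  have key := hc_of_curves hT hG hsm u (fun σ => ν * u σ) (fun σ => ν * (ν * u σ))
    (fun σ => u σ + c σ) (fun σ => ν * u σ + τ * c σ) (fun σ => ν * (ν * u σ) + τ * (τ * c σ))
    (fun σ => ε * (u σ - c σ)) (fun σ => ε * (ν * u σ - τ * c σ))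
    (fun σ => ε * (ν * (ν * u σ) - τ * (τ * c σ))) s (r * b * (ν - τ) ^ 2)
    hu1 hu2 (fun σ => (hu1 σ).add (hc1 σ)) (fun σ => (hu2 σ).add (hc2 σ))
    (fun σ => ((hu1 σ).sub (hc1 σ)).const_mul ε) (fun σ => ((hu2 σ).sub (hc2 σ)).const_mul ε)
    (fun σ => by
      rw [hev]
      simp [step, u, c])
    (by simp only [hu0, hc0]; exact hεpos)
    (by simp only [hu0, hc0]; exact hεlt)
    (by simp only [hu0, hc0]; ring)
    (by
      simp only [hu0, hc0]
      have : ε * (ν * (ν * r) - τ * (τ * b)) * (ε * (r - b)) - (ε * (ν * r - τ * b)) ^ 2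
          = ε ^ 2 * ((ν * (ν * r) - τ * (τ * b)) * (r - b) - (ν * r - τ * b) ^ 2) := by ring
      rw [this, hε2]
      ring)
    (by
      simp only [hu0, hc0]
      have e1 : ε * (ν * r - τ * b) / (ε * (r - b)) = (ν * r - τ * b) / (r - b) :=
        mul_div_mul_left _ _ hε0
      have e2 : (ε * (r - b)) ^ 2 = (r - b) ^ 2 := by
        rw [mul_pow, hε2, one_mul]
      rw [e1, e2]
      field_simp
      ring)
  simp only [hu0] at key
  have e1 : ν * r = z := hνr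
  have e2 : ν * z = z ^ 2 / r := by
    rw [hν]; field_simp
  rw [e1, e2] at key
  refine le_trans (le_of_eq ?_) (le_trans key (le_of_eq ?_))
  · ring
  · ring

/-- The Hessian condition for the step. -/
theorem step_HC (hT : Tower T) (hG : Good (T 0)) {b₀ : ℝ} (hb₀ : 0 < b₀) (τ r s z : ℝ)
    (hr : 0 < r) :
    step T b₀ τ 0 (r, s) * (D₂ (D₂ (step T b₀ τ 0)) (r, s) + 2 * z * D₁ (D₂ (step T b₀ τ 0)) (r, s)
      + z ^ 2 * (D₁ (D₁ (step T b₀ τ 0)) (r, s) + D₁ (step T b₀ τ 0) (r, s) / r))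
      ≤ (D₂ (step T b₀ τ 0) (r, s) + z * D₁ (step T b₀ τ 0) (r, s)) ^ 2 := by
  by_cases hne : r = b₀ * Real.exp (τ * s)
  · have hsm := step_smooth hT b₀ τ 0
    set g := step T b₀ τ 0 with hg
    have hc : ∀ F : ℝ × ℝ → ℝ, ContDiff ℝ ∞ F → ContinuousAt (fun x => F (x, s)) r := fun F hF =>
      (hF.continuous.comp (continuous_id.prodMk continuous_const)).continuousAt
    have hL : ContinuousAt (fun x => g (x, s) * (D₂ (D₂ g) (x, s) + 2 * z * D₁ (D₂ g) (x, s)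
        + z ^ 2 * (D₁ (D₁ g) (x, s) + D₁ g (x, s) / x))) r := by
      refine (hc g hsm).mul (((hc _ (smooth_D₂ (smooth_D₂ hsm))).add
        (continuousAt_const.mul (hc _ (smooth_D₁ (smooth_D₂ hsm))))).add
        (continuousAt_const.mul ((hc _ (smooth_D₁ (smooth_D₁ hsm))).add
          ((hc _ (smooth_D₁ hsm)).div continuousAt_id hr.ne'))))
    have hR : ContinuousAt (fun x => (D₂ g (x, s) + z * D₁ g (x, s)) ^ 2) r :=
      ((hc _ (smooth_D₂ hsm)).add (continuousAt_const.mul (hc _ (smooth_D₁ hsm)))).pow 2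
    have hev : ∀ᶠ x in nhdsWithin r {r}ᶜ, g (x, s) * (D₂ (D₂ g) (x, s) + 2 * z * D₁ (D₂ g) (x, s)
        + z ^ 2 * (D₁ (D₁ g) (x, s) + D₁ g (x, s) / x)) ≤ (D₂ g (x, s) + z * D₁ g (x, s)) ^ 2 := by
      filter_upwards [self_mem_nhdsWithin, mem_nhdsWithin_of_mem_nhds (Ioi_mem_nhds hr)]
        with x hx hx0
      refine step_HC_ne hT hG hb₀ τ x s z hx0 ?_
      rw [← hne]
      exact hx
    exact le_of_tendsto_of_tendsto (hL.tendsto.mono_left nhdsWithin_le_nhds)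
      (hR.tendsto.mono_left nhdsWithin_le_nhds) hev
  · exact step_HC_ne hT hG hb₀ τ r s z hr hne

/-- The class is preserved by the step. -/
theorem step_good (hT : Tower T) (hG : Good (T 0)) {b₀ : ℝ} (hb₀ : 0 < b₀) (τ : ℝ) :
    Good (step T b₀ τ 0) where
  pos u s hu := step_pos hT hG hb₀ τ u s hu
  S0 u s hu := step_S0 hT hG hb₀ τ u s hu
  S1 u s hu := step_S1 hT hG hb₀ τ u s hu
  HC u s hu z := step_HC hT hG hb₀ τ u s z hu

end Facts

end Vale.Agent.Lib.P227
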