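import Mathlib
import Vale.Agent.Lib.P227.Step

/-!
Primitives with a parameter, and the tower of primitives of a smooth odd function.
-/

namespace Vale.Agent.Lib.P227

open scoped ContDiff Convolution
open Set MeasureTheory

/-- Smoothness of an integral over the unit interval with respect to a parameter. -/
theorem param_integral_smooth {K : ℝ × ℝ → ℝ → ℝ}
    (hK : ContDiff ℝ ∞ (fun q : (ℝ × ℝ) × ℝ => K q.1 q.2)) :
    ContDiff ℝ ∞ (fun p => ∫ t in (0 : ℝ)..1, K p t) := by
  let χ : ContDiffBump (0 : ℝ) := ⟨2, 3, by norm_num, by norm_num⟩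
  let g : ℝ × ℝ → ℝ → ℝ := fun p y => χ y * K p (-y)
  let f : ℝ → ℝ := (Icc (0 : ℝ) 1).indicator (fun _ => 1)
  have hf : LocallyIntegrable f volume :=
    (locallyIntegrable_const (1 : ℝ)).indicator measurableSet_Icc
  have hg : ContDiffOn ℝ ((⊤ : ℕ∞) : WithTop ℕ∞) (Function.uncurry g) (univ ×ˢ univ) := by
    apply ContDiff.contDiffOn
    have h1 : ContDiff ℝ ∞ (fun q : (ℝ × ℝ) × ℝ => χ q.2) := χ.contDiff.comp contDiff_snd
    have h2 : ContDiff ℝ ∞ (fun q : (ℝ × ℝ) × ℝ => K q.1 (-q.2)) :=
      hK.comp (contDiff_fst.prodMk contDiff_snd.neg)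
    exact h1.mul h2
  have hgs : ∀ p, ∀ x, p ∈ (univ : Set (ℝ × ℝ)) → x ∉ Metric.closedBall (0 : ℝ) 3 → g p x = 0 := by
    intro p x _ hx
    have : χ x = 0 := by
      apply χ.zero_of_le_dist
      simp only [Metric.mem_closedBall, not_le] at hx
      exact hx.le
    simp [g, this]
  have key := contDiffOn_convolution_right_with_param_comp (μ := volume) (𝕜 := ℝ)
    (ContinuousLinearMap.lsmul ℝ ℝ) (s := univ) (v := fun _ : ℝ × ℝ => (0 : ℝ))
    (n := ⊤) contDiffOn_const (f := f) (g := g) (k := Metric.closedBall (0 : ℝ) 3)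
    isOpen_univ (isCompact_closedBall 0 3) hgs hf hg
  rw [contDiffOn_univ] at key
  convert key using 2 with p
  have hint : ∀ t, ((ContinuousLinearMap.lsmul ℝ ℝ) (f t)) (g p (0 - t))
      = (Icc (0 : ℝ) 1).indicator (K p) t := by
    intro t
    by_cases ht : t ∈ Icc (0 : ℝ) 1
    · have h1 : χ (0 - t) = 1 := by
        apply χ.one_of_mem_closedBall
        simp only [Metric.mem_closedBall, dist_zero_right, Real.norm_eq_abs, zero_sub, abs_neg]
        rw [abs_of_nonneg ht.1]
        have := ht.2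
        show t ≤ 2
        linarith
      simp only [f, g, indicator_of_mem ht, h1]
      simp
    · simp [f, indicator_of_notMem ht]
  rw [convolution_def]
  simp only [hint]
  rw [integral_indicator measurableSet_Icc, integral_Icc_eq_integral_Ioc,
    intervalIntegral.integral_of_le zero_le_one]

/-- Primitive in the first variable, vanishing on the line `x = 0`. -/
noncomputable def prim (G : ℝ × ℝ → ℝ) (p : ℝ × ℝ) : ℝ := ∫ x in (0 : ℝ)..p.1, G (x, p.2)

theorem prim_eq (G : ℝ × ℝ → ℝ) (p : ℝ × ℝ) :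
    prim G p = p.1 * ∫ t in (0 : ℝ)..1, G (p.1 * t, p.2) := by
  unfold prim
  by_cases h : p.1 = 0
  · simp [h]
  · have := intervalIntegral.integral_comp_mul_left (a := (0 : ℝ)) (b := 1)
      (fun x => G (x, p.2)) h
    simp only [mul_zero, mul_one, smul_eq_mul] at this
    rw [this]
    field_simp

theorem prim_smooth {G : ℝ × ℝ → ℝ} (hG : ContDiff ℝ ∞ G) : ContDiff ℝ ∞ (prim G) := by
  have h : prim G = fun p => p.1 * ∫ t in (0 : ℝ)..1, G (p.1 * t, p.2) := funext (prim_eq G)
  rw [h]
  refine contDiff_fst.mul (param_integral_smooth ?_)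
  exact hG.comp ((contDiff_fst.fst.mul contDiff_snd).prodMk contDiff_fst.snd)

theorem prim_D₁ {G : ℝ × ℝ → ℝ} (hG : ContDiff ℝ ∞ G) (p : ℝ × ℝ) : D₁ (prim G) p = G p := by
  obtain ⟨x, s⟩ := p
  have hc : Continuous fun x => G (x, s) := hG.continuous.comp (by fun_prop)
  refine (partial_fst (prim_smooth hG) x s).unique ?_
  exact intervalIntegral.integral_hasDerivAt_right (hc.intervalIntegrable _ _)
      (hc.stronglyMeasurableAtFilter _ _) hc.continuousAt

/-- The tower of primitives. -/
noncomputable def towerOf (g : ℝ × ℝ → ℝ) : ℕ → ℝ × ℝ → ℝ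
  | 0 => g
  | j + 1 => prim (towerOf g j)

theorem towerOf_smooth {g : ℝ × ℝ → ℝ} (hg : ContDiff ℝ ∞ g) (j : ℕ) :
    ContDiff ℝ ∞ (towerOf g j) := by
  induction j with
  | zero => exact hg
  | succ j ih => exact prim_smooth ih

theorem towerOf_parity {g : ℝ × ℝ → ℝ} (hodd : ∀ u s, g (-u, s) = - g (u, s)) (j : ℕ) (u s : ℝ) :
    towerOf g j (-u, s) = (-1) ^ (j + 1) * towerOf g j (u, s) := by
  induction j generalizing u with
  | zero => simpa [towerOf] using hodd u s
  | succ j ih =>
    show prim (towerOf g j) (-u, s) = (-1) ^ (j + 1 + 1) * prim (towerOf g j) (u, s)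
    simp only [prim]
    have h1 : (∫ t in (0 : ℝ)..(-u), towerOf g j (t, s)) = - ∫ t in (0 : ℝ)..u, towerOf g j (-t, s) := by
      have := intervalIntegral.integral_comp_neg (a := (0 : ℝ)) (b := u)
        (fun t => towerOf g j (t, s))
      simp only [neg_zero] at this
      rw [this, intervalIntegral.integral_symm]
    rw [h1]
    simp only [ih, intervalIntegral.integral_const_mul]
    ring

/-- The tower of primitives of a smooth odd function is a tower. -/
theorem towerOf_tower {g : ℝ × ℝ → ℝ} (hg : ContDiff ℝ ∞ g) (hodd : ∀ u s, g (-u, s) = - g (u, s)) :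
    Tower (towerOf g) where
  smooth j := towerOf_smooth hg j
  d1 j p := prim_D₁ (towerOf_smooth hg j) p
  parity j u s := towerOf_parity hodd j u s

end Vale.Agent.Lib.P227
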