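import Mathlib
import Vale.Agent.Lib.P227.Step

/-!
The seed tower: iterated antiderivatives of `x / √(x ^ 2 + w ^ 2)`.
-/

namespace Vale.Agent.Lib.P227

open scoped ContDiff
open Set

/-- Soft sign function. -/
noncomputable def softSign (w x : ℝ) : ℝ := x / Real.sqrt (x ^ 2 + w ^ 2)

/-- Iterated antiderivatives of the soft sign function. -/
noncomputable def seedFun (w : ℝ) : ℕ → ℝ → ℝ
  | 0 => softSign w
  | j + 1 => fun x => ∫ t in (0 : ℝ)..x, seedFun w j t

section

variable {w : ℝ} (hw : 0 < w)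
include hw

theorem rad_ne (x : ℝ) : x ^ 2 + w ^ 2 ≠ 0 := by positivity

theorem softSign_smooth : ContDiff ℝ ∞ (softSign w) := by
  unfold softSign
  refine contDiff_id.div (ContDiff.sqrt (by fun_prop) (rad_ne hw)) ?_
  intro x
  exact (Real.sqrt_pos.2 (by positivity)).ne'

theorem seedFun_smooth_and_deriv (j : ℕ) :
    ContDiff ℝ ∞ (seedFun w j) ∧ ∀ x, HasDerivAt (seedFun w (j + 1)) (seedFun w j x) x := by
  induction j with
  | zero =>
    have h0 : ContDiff ℝ ∞ (seedFun w 0) := softSign_smooth hw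
    refine ⟨h0, fun x => ?_⟩
    exact intervalIntegral.integral_hasDerivAt_right (h0.continuous.intervalIntegrable _ _)
      (h0.continuous.stronglyMeasurableAtFilter _ _) h0.continuous.continuousAt
  | succ j ih =>
    have h0 : ContDiff ℝ ∞ (seedFun w (j + 1)) := by
      rw [contDiff_infty_iff_deriv]
      refine ⟨fun x => (ih.2 x).differentiableAt, ?_⟩
      have : deriv (seedFun w (j + 1)) = seedFun w j := funext fun x => (ih.2 x).deriv
      rw [this]
      exact ih.1
    refine ⟨h0, fun x => ?_⟩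
    exact intervalIntegral.integral_hasDerivAt_right (h0.continuous.intervalIntegrable _ _)
      (h0.continuous.stronglyMeasurableAtFilter _ _) h0.continuous.continuousAt

omit hw in
theorem seedFun_parity (j : ℕ) (u : ℝ) : seedFun w j (-u) = (-1) ^ (j + 1) * seedFun w j u := by
  induction j generalizing u with
  | zero =>
    simp [seedFun, softSign, neg_div]
  | succ j ih =>
    show (∫ t in (0 : ℝ)..(-u), seedFun w j t) = (-1) ^ (j + 1 + 1) * ∫ t in (0 : ℝ)..u, seedFun w j t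
    have h1 : (∫ t in (0 : ℝ)..(-u), seedFun w j t) = - ∫ t in (0 : ℝ)..u, seedFun w j (-t) := by
      have := intervalIntegral.integral_comp_neg (a := (0 : ℝ)) (b := u) (seedFun w j)
      simp only [neg_zero] at this
      rw [this, intervalIntegral.integral_symm]
    rw [h1]
    have h2 : (fun t => seedFun w j (-t)) = fun t => (-1) ^ (j + 1) * seedFun w j t := funext ih
    simp only [h2, intervalIntegral.integral_const_mul]
    ring

/-- The seed tower. -/
theorem seed_tower : Tower (fun j p => seedFun w j p.1) where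
  smooth j := (seedFun_smooth_and_deriv hw j).1.comp contDiff_fst
  d1 j p := by
    obtain ⟨x, s⟩ := p
    have hsm : ContDiff ℝ ∞ (fun p : ℝ × ℝ => seedFun w (j + 1) p.1) :=
      (seedFun_smooth_and_deriv hw (j + 1)).1.comp contDiff_fst
    exact (partial_fst hsm x s).unique ((seedFun_smooth_and_deriv hw j).2 x)
  parity j u s := seedFun_parity j u

theorem softSign_d1 (x : ℝ) : HasDerivAt (softSign w)
    (w ^ 2 / Real.sqrt (x ^ 2 + w ^ 2) ^ 3) x := by
  set R := Real.sqrt (x ^ 2 + w ^ 2) with hR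
  have hRpos : 0 < R := Real.sqrt_pos.2 (by positivity)
  have hR2 : R ^ 2 = x ^ 2 + w ^ 2 := Real.sq_sqrt (by positivity)
  have h1 : HasDerivAt (fun x : ℝ => x ^ 2 + w ^ 2) (2 * x) x := by
    have := (hasDerivAt_pow 2 x).add_const (w ^ 2)
    simpa using this
  have h2 := h1.sqrt (rad_ne hw x)
  have h3 := (hasDerivAt_id' x).fun_div h2 hRpos.ne'
  refine h3.congr_deriv ?_
  rw [← hR]
  field_simp
  nlinarith

theorem softSign_d2 (x : ℝ) : HasDerivAt (fun x => w ^ 2 / Real.sqrt (x ^ 2 + w ^ 2) ^ 3)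
    (-3 * x * w ^ 2 / Real.sqrt (x ^ 2 + w ^ 2) ^ 5) x := by
  set R := Real.sqrt (x ^ 2 + w ^ 2) with hR
  have hRpos : 0 < R := Real.sqrt_pos.2 (by positivity)
  have h1 : HasDerivAt (fun x : ℝ => x ^ 2 + w ^ 2) (2 * x) x := by
    have := (hasDerivAt_pow 2 x).add_const (w ^ 2)
    simpa using this
  have h2 := h1.sqrt (rad_ne hw x)
  have h3 := h2.fun_pow 3
  have hne : R ^ 3 ≠ 0 := by positivity
  have h4 := (hasDerivAt_const x (w ^ 2)).fun_div h3 hne
  refine h4.congr_deriv ?_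
  rw [← hR]
  field_simp
  norm_num
  ring

/-- The seed function belongs to the class. -/
theorem seed_good : Good (fun p => seedFun w 0 p.1) := by
  have hsm : ContDiff ℝ ∞ (fun p : ℝ × ℝ => seedFun w 0 p.1) :=
    (seedFun_smooth_and_deriv hw 0).1.comp contDiff_fst
  set g : ℝ × ℝ → ℝ := fun p => seedFun w 0 p.1 with hg
  have hD₁ : ∀ x s, D₁ g (x, s) = w ^ 2 / Real.sqrt (x ^ 2 + w ^ 2) ^ 3 := fun x s =>
    (partial_fst hsm x s).unique (softSign_d1 hw x)
  have hD₁f : D₁ g = fun p => w ^ 2 / Real.sqrt (p.1 ^ 2 + w ^ 2) ^ 3 := by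
    funext p
    obtain ⟨x, s⟩ := p
    exact hD₁ x s
  have hD₁₁ : ∀ x s, D₁ (D₁ g) (x, s) = -3 * x * w ^ 2 / Real.sqrt (x ^ 2 + w ^ 2) ^ 5 := by
    intro x s
    refine (partial_fst (smooth_D₁ hsm) x s).unique ?_
    rw [hD₁f]
    exact softSign_d2 hw x
  have hD₂ : D₂ g = fun _ => 0 := by
    funext p
    obtain ⟨x, s⟩ := p
    exact (partial_snd hsm x s).unique (hasDerivAt_const s (seedFun w 0 x))
  have hD₂0 : D₂ (fun _ : ℝ × ℝ => (0 : ℝ)) = fun _ => 0 := by
    funext p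
    simp [D₂]
  have hD₁0 : D₁ (fun _ : ℝ × ℝ => (0 : ℝ)) = fun _ => 0 := by
    funext p
    simp [D₁]
  have hg0 : ∀ x s, g (x, s) = x / Real.sqrt (x ^ 2 + w ^ 2) := fun x s => rfl
  refine ⟨fun u s hu => ?_, fun u s hu => ?_, fun u s hu => ?_, fun u s hu z => ?_⟩
  · rw [hg0]
    have : 0 < Real.sqrt (u ^ 2 + w ^ 2) := Real.sqrt_pos.2 (by positivity)
    positivity
  · rw [hD₁]
    positivity
  · rw [hD₁, hg0]
    set R := Real.sqrt (u ^ 2 + w ^ 2) with hR
    have hRpos : 0 < R := Real.sqrt_pos.2 (by positivity)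
    have hR2 : R ^ 2 = u ^ 2 + w ^ 2 := Real.sq_sqrt (by positivity)
    have e : u / R - u * (w ^ 2 / R ^ 3) = u * (u ^ 2 / R ^ 3) := by
      field_simp
      nlinarith
    have : 0 ≤ u * (u ^ 2 / R ^ 3) := by positivity
    linarith
  · rw [hD₂, hD₂0, hD₁0, hD₁₁, hD₁, hg0]
    set R := Real.sqrt (u ^ 2 + w ^ 2) with hR
    have hRpos : 0 < R := Real.sqrt_pos.2 (by positivity)
    have hR2 : R ^ 2 = u ^ 2 + w ^ 2 := Real.sq_sqrt (by positivity)
    simp only [mul_zero, add_zero, zero_add]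
    have e : (z * (w ^ 2 / R ^ 3)) ^ 2 - u / R * (z ^ 2 * (-3 * u * w ^ 2 / R ^ 5 + w ^ 2 / R ^ 3 / u))
        = z ^ 2 * w ^ 2 * (2 * u ^ 2) / R ^ 6 := by
      have hw2 : w ^ 2 = R ^ 2 - u ^ 2 := by linarith
      rw [hw2]
      field_simp
      ring
    have : 0 ≤ z ^ 2 * w ^ 2 * (2 * u ^ 2) / R ^ 6 := by positivity
    linarith

end

end Vale.Agent.Lib.P227
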