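import Mathlib
import Vale.Agent.Lib.P227.Seed

/-!
Iterating the step: log-concavity along lines for the smoothed functions.
-/

namespace Vale.Agent.Lib.P227

open scoped ContDiff
open Set

/-- The iterated tower. -/
noncomputable def tow (w : ℝ) (a τ : ℕ → ℝ) : ℕ → ℕ → ℝ × ℝ → ℝ
  | 0 => fun j p => seedFun w j p.1
  | n + 1 => step (tow w a τ n) (a n) (τ n)

theorem tow_spec {w : ℝ} (hw : 0 < w) {a : ℕ → ℝ} (ha : ∀ i, 0 < a i) (τ : ℕ → ℝ) (n : ℕ) :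
    Tower (tow w a τ n) ∧ Good (tow w a τ n 0) := by
  induction n with
  | zero => exact ⟨seed_tower hw, seed_good hw⟩
  | succ n ih => exact ⟨step_tower ih.1 _ _, step_good ih.1 ih.2 (ha n) _⟩

/-- A function in the class is log-concave along the lines of the plane in logarithmic
coordinates. -/
theorem good_line {g : ℝ × ℝ → ℝ} (hsm : ContDiff ℝ ∞ g) (hG : Good g) {b : ℝ} (hb : 0 < b)
    (τ₀ : ℝ) : ConcaveOn ℝ univ (fun σ => Real.log (g (b * Real.exp (τ₀ * σ), σ))) := by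
  let u : ℝ → ℝ := fun σ => b * Real.exp (τ₀ * σ)
  have hupos : ∀ σ, 0 < u σ := fun σ => by positivity
  have hu1 : ∀ σ, HasDerivAt u (τ₀ * u σ) σ := fun σ => by
    have h := ((hasDerivAt_id' σ).const_mul τ₀).exp.const_mul b
    refine h.congr_deriv ?_
    simp only [u]
    ring
  have hu2 : ∀ σ, HasDerivAt (fun σ => τ₀ * u σ) (τ₀ * (τ₀ * u σ)) σ := fun σ =>
    (hu1 σ).const_mul τ₀
  have hψ1 : ∀ σ, HasDerivAt (fun σ => g (u σ, σ))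
      (D₁ g (u σ, σ) * (τ₀ * u σ) + D₂ g (u σ, σ)) σ := fun σ => by
    have h := curve_first' hsm 0 σ hu1
    simpa only [zero_add] using h
  have hψ2 : ∀ σ, HasDerivAt (fun σ => D₁ g (u σ, σ) * (τ₀ * u σ) + D₂ g (u σ, σ))
      (D₁ (D₁ g) (u σ, σ) * (τ₀ * u σ) ^ 2 + 2 * (D₁ (D₂ g) (u σ, σ) * (τ₀ * u σ))
        + D₂ (D₂ g) (u σ, σ) + D₁ g (u σ, σ) * (τ₀ * (τ₀ * u σ))) σ := fun σ => by
    have h := curve_second hsm 0 σ hu1 hu2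
    simpa only [zero_add] using h
  have hpos : ∀ σ, 0 < g (u σ, σ) := fun σ => hG.pos _ _ (hupos σ)
  have hlog : ∀ σ, HasDerivAt (fun σ => Real.log (g (u σ, σ)))
      ((D₁ g (u σ, σ) * (τ₀ * u σ) + D₂ g (u σ, σ)) / g (u σ, σ)) σ := fun σ =>
    (hψ1 σ).log (hpos σ).ne'
  refine concaveOn_of_hasDerivWithinAt2_nonpos convex_univ
    (f' := fun σ => (D₁ g (u σ, σ) * (τ₀ * u σ) + D₂ g (u σ, σ)) / g (u σ, σ))
    (f'' := fun σ => ((D₁ (D₁ g) (u σ, σ) * (τ₀ * u σ) ^ 2 + 2 * (D₁ (D₂ g) (u σ, σ) * (τ₀ * u σ))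
        + D₂ (D₂ g) (u σ, σ) + D₁ g (u σ, σ) * (τ₀ * (τ₀ * u σ))) * g (u σ, σ)
        - (D₁ g (u σ, σ) * (τ₀ * u σ) + D₂ g (u σ, σ))
          * (D₁ g (u σ, σ) * (τ₀ * u σ) + D₂ g (u σ, σ))) / g (u σ, σ) ^ 2)
    (fun σ _ => (hlog σ).continuousAt.continuousWithinAt)
    (fun σ _ => (hlog σ).hasDerivWithinAt)
    (fun σ _ => ((hψ2 σ).fun_div (hψ1 σ) (hpos σ).ne').hasDerivWithinAt)
    (fun σ _ => ?_)
  apply div_nonpos_of_nonpos_of_nonneg _ (sq_nonneg _)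
  have hHC := hG.HC (u σ) σ (hupos σ) (τ₀ * u σ)
  have hU := hupos σ
  have e : (τ₀ * u σ) ^ 2 * (D₁ g (u σ, σ) / u σ) = D₁ g (u σ, σ) * (τ₀ * (τ₀ * u σ)) := by
    field_simp
  have e2 : (D₁ (D₁ g) (u σ, σ) * (τ₀ * u σ) ^ 2 + 2 * (D₁ (D₂ g) (u σ, σ) * (τ₀ * u σ))
        + D₂ (D₂ g) (u σ, σ) + D₁ g (u σ, σ) * (τ₀ * (τ₀ * u σ))) * g (u σ, σ)
      = g (u σ, σ) * (D₂ (D₂ g) (u σ, σ) + 2 * (τ₀ * u σ) * D₁ (D₂ g) (u σ, σ)
        + (τ₀ * u σ) ^ 2 * (D₁ (D₁ g) (u σ, σ) + D₁ g (u σ, σ) / u σ)) := by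
    rw [mul_add ((τ₀ * u σ) ^ 2), e]
    ring
  have e3 : (D₁ g (u σ, σ) * (τ₀ * u σ) + D₂ g (u σ, σ)) * (D₁ g (u σ, σ) * (τ₀ * u σ) + D₂ g (u σ, σ))
      = (D₂ g (u σ, σ) + τ₀ * u σ * D₁ g (u σ, σ)) ^ 2 := by ring
  rw [e2, e3]
  linarith

/-- Log-concavity of the smoothed function along a line, in multiplicative form. -/
theorem tow_logconcave {w : ℝ} (hw : 0 < w) {a : ℕ → ℝ} (ha : ∀ i, 0 < a i) (τ : ℕ → ℝ) (n : ℕ)
    {b : ℝ} (hb : 0 < b) (τ₀ lam : ℝ) (h0 : 0 ≤ lam) (h1 : lam ≤ 1) :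
    tow w a τ n 0 (b, 0) ^ (1 - lam) * tow w a τ n 0 (b * Real.exp τ₀, 1) ^ lam
      ≤ tow w a τ n 0 (b * Real.exp (τ₀ * lam), lam) := by
  obtain ⟨hT, hG⟩ := tow_spec hw ha τ n
  have hc := good_line (hT.smooth 0) hG hb τ₀
  have h := hc.2 (mem_univ (0 : ℝ)) (mem_univ (1 : ℝ)) (sub_nonneg.2 h1) h0 (by ring)
  simp only [smul_eq_mul, mul_zero, mul_one, add_zero, zero_add, Real.exp_zero] at h
  set g := tow w a τ n 0 with hg
  have p0 : 0 < g (b, 0) := hG.pos _ _ hb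
  have p1 : 0 < g (b * Real.exp τ₀, 1) := hG.pos _ _ (by positivity)
  have p2 : 0 < g (b * Real.exp (τ₀ * lam), lam) := hG.pos _ _ (by positivity)
  calc g (b, 0) ^ (1 - lam) * g (b * Real.exp τ₀, 1) ^ lam
      = Real.exp (Real.log (g (b, 0)) * (1 - lam) + Real.log (g (b * Real.exp τ₀, 1)) * lam) := by
        rw [Real.rpow_def_of_pos p0, Real.rpow_def_of_pos p1, ← Real.exp_add]
    _ ≤ Real.exp (Real.log (g (b * Real.exp (τ₀ * lam), lam))) :=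
        Real.exp_le_exp.2 (by linarith)
    _ = g (b * Real.exp (τ₀ * lam), lam) := Real.exp_log p2

end Vale.Agent.Lib.P227
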