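import Mathlib
import Vale.Agent.Lib.P227.Prim
import Vale.Agent.Lib.P227.Tow

/-!
The class without smoothness: concave functions in logarithmic coordinates, mollification,
and passage to the smooth class.
-/

namespace Vale.Agent.Lib.P227

open scoped ContDiff Convolution Topology
open Set Filter MeasureTheory

/-- Concavity and slope bounds in logarithmic coordinates. -/
structure LC (f : ℝ × ℝ → ℝ) : Prop where
  conc : ConcaveOn ℝ univ f
  s0 : ∀ {ρ₁ ρ₂ : ℝ} (θ : ℝ), ρ₁ ≤ ρ₂ → f (ρ₁, θ) ≤ f (ρ₂, θ)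
  s1 : ∀ {ρ₁ ρ₂ : ℝ} (θ : ℝ), ρ₁ ≤ ρ₂ → f (ρ₂, θ) ≤ f (ρ₁, θ) + (ρ₂ - ρ₁)

theorem LC.continuous {f : ℝ × ℝ → ℝ} (hf : LC f) : Continuous f :=
  continuousOn_univ.1 (hf.conc.continuousOn isOpen_univ)

theorem LC.lip {f : ℝ × ℝ → ℝ} (hf : LC f) (ρ₁ ρ₂ θ : ℝ) :
    |f (ρ₁, θ) - f (ρ₂, θ)| ≤ |ρ₁ - ρ₂| := by
  rcases le_total ρ₁ ρ₂ with h | h
  · have h1 := hf.s0 θ h
    have h2 := hf.s1 θ h
    rw [abs_le, abs_of_nonpos (by linarith : ρ₁ - ρ₂ ≤ 0)]
    constructor <;> linarith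
  · have h1 := hf.s0 θ h
    have h2 := hf.s1 θ h
    rw [abs_le, abs_of_nonneg (by linarith : 0 ≤ ρ₁ - ρ₂)]
    constructor <;> linarith

/-- Mollification preserves the class. -/
theorem LC.mollify {f : ℝ × ℝ → ℝ} (hf : LC f) :
    ∃ F : ℕ → ℝ × ℝ → ℝ, (∀ k, ContDiff ℝ ∞ (F k)) ∧ (∀ k, LC (F k)) ∧
      ∀ p, Tendsto (fun k => F k p) atTop (𝓝 (f p)) := by
  have hfc := hf.continuous
  let φ : ℕ → ContDiffBump (0 : ℝ × ℝ) := fun k =>
    ⟨1 / ((k : ℝ) + 2), 1 / ((k : ℝ) + 1), by positivity, by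
      apply one_div_lt_one_div_of_lt (by positivity)
      linarith⟩
  let κ : ℕ → ℝ × ℝ → ℝ := fun k => (φ k).normed volume
  have hκc : ∀ k, Continuous (κ k) := fun k => (φ k).continuous_normed
  have hκs : ∀ k, HasCompactSupport (κ k) := fun k => (φ k).hasCompactSupport_normed
  have hκn : ∀ k t, 0 ≤ κ k t := fun k t => (φ k).nonneg_normed t
  have hκi : ∀ k, ∫ t, κ k t = 1 := fun k => (φ k).integral_normed
  let F : ℕ → ℝ × ℝ → ℝ := fun k => κ k ⋆[ContinuousLinearMap.lsmul ℝ ℝ, volume] f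
  have hF : ∀ k p, F k p = ∫ t, κ k t * f (p - t) := by
    intro k p
    simp [F, convolution_def]
  have hint : ∀ (k : ℕ) (g : ℝ × ℝ → ℝ), Continuous g → Integrable (fun t => κ k t * g t) := by
    intro k g hg
    exact ((hκc k).mul hg).integrable_of_hasCompactSupport ((hκs k).mul_right)
  refine ⟨F, fun k => ?_, fun k => ⟨⟨convex_univ, ?_⟩, ?_, ?_⟩, fun p => ?_⟩
  · exact (hκs k).contDiff_convolution_left _ (φ k).contDiff_normed hfc.locallyIntegrable
  · intro p _ q _ a b ha hb hab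
    simp only [smul_eq_mul, hF]
    have h1 := hint k (fun t => f (p - t)) (by fun_prop)
    have h2 := hint k (fun t => f (q - t)) (by fun_prop)
    have h3 := hint k (fun t => f (a • p + b • q - t)) (by fun_prop)
    rw [← integral_const_mul, ← integral_const_mul, ← integral_add (h1.const_mul a) (h2.const_mul b)]
    refine integral_mono ((h1.const_mul a).add (h2.const_mul b)) h3 fun t => ?_
    have e : a • p + b • q - t = a • (p - t) + b • (q - t) := by
      have : t = (a + b) • t := by rw [hab, one_smul]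
      nth_rewrite 1 [this]
      rw [add_smul, smul_sub, smul_sub]
      abel
    have hconc := hf.conc.2 (mem_univ (p - t)) (mem_univ (q - t)) ha hb hab
    simp only [smul_eq_mul] at hconc
    simp only [e]
    have hk := hκn k t
    calc a * (κ k t * f (p - t)) + b * (κ k t * f (q - t))
        = κ k t * (a * f (p - t) + b * f (q - t)) := by ring
      _ ≤ κ k t * f (a • (p - t) + b • (q - t)) := mul_le_mul_of_nonneg_left hconc hk
  · intro ρ₁ ρ₂ θ h
    simp only [hF]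
    refine integral_mono (hint k _ (by fun_prop)) (hint k _ (by fun_prop)) fun t => ?_
    refine mul_le_mul_of_nonneg_left ?_ (hκn k t)
    obtain ⟨t₁, t₂⟩ := t
    exact hf.s0 (θ - t₂) (by linarith)
  · intro ρ₁ ρ₂ θ h
    simp only [hF]
    have h1 := hint k (fun t => f ((ρ₁, θ) - t)) (by fun_prop)
    have h2 := hint k (fun t => f ((ρ₂, θ) - t)) (by fun_prop)
    have h3 : ∫ t, κ k t * (ρ₂ - ρ₁) = ρ₂ - ρ₁ := by
      rw [integral_mul_const, hκi, one_mul]
    have h4 : Integrable (fun t => κ k t * (ρ₂ - ρ₁)) :=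
      hint k (fun _ => ρ₂ - ρ₁) continuous_const
    rw [← h3, ← integral_add h1 h4]
    refine integral_mono h2 (h1.add h4) fun t => ?_
    have h5 : f ((ρ₂, θ) - t) ≤ f ((ρ₁, θ) - t) + (ρ₂ - ρ₁) := by
      obtain ⟨t₁, t₂⟩ := t
      have := hf.s1 (ρ₁ := ρ₁ - t₁) (ρ₂ := ρ₂ - t₁) (θ - t₂) (by linarith)
      simpa using this
    have := mul_le_mul_of_nonneg_left h5 (hκn k t)
    linarith
  · refine ContDiffBump.convolution_tendsto_right_of_continuous ?_ hfc p
    exact tendsto_one_div_add_atTop_nhds_zero_nat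

/-- The class for functions of a radial variable `w > 0` and a parameter `θ`. -/
structure HG (g : ℝ → ℝ → ℝ) : Prop where
  pos : ∀ w θ, 0 < w → 0 < g w θ
  lc : LC (fun p => Real.log (g (Real.exp p.1) p.2))

theorem HG.mono {g : ℝ → ℝ → ℝ} (hg : HG g) {w₁ w₂ : ℝ} (θ : ℝ) (h₁ : 0 < w₁) (h : w₁ ≤ w₂) :
    g w₁ θ ≤ g w₂ θ := by
  have h₂ : 0 < w₂ := lt_of_lt_of_le h₁ h
  have := hg.lc.s0 θ (Real.log_le_log h₁ h)
  simp only [Real.exp_log h₁, Real.exp_log h₂] at this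
  exact (Real.log_le_log_iff (hg.pos _ _ h₁) (hg.pos _ _ h₂)).1 this

theorem HG.sub {g : ℝ → ℝ → ℝ} (hg : HG g) {w₁ w₂ : ℝ} (θ : ℝ) (h₁ : 0 < w₁) (h : w₁ ≤ w₂) :
    w₁ * g w₂ θ ≤ w₂ * g w₁ θ := by
  have h₂ : 0 < w₂ := lt_of_lt_of_le h₁ h
  have := hg.lc.s1 θ (Real.log_le_log h₁ h)
  simp only [Real.exp_log h₁, Real.exp_log h₂] at this
  have p1 := hg.pos w₁ θ h₁
  have p2 := hg.pos w₂ θ h₂
  have e1 : Real.log (w₁ * g w₂ θ) = Real.log w₁ + Real.log (g w₂ θ) :=
    Real.log_mul h₁.ne' p2.ne'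
  have e2 : Real.log (w₂ * g w₁ θ) = Real.log w₂ + Real.log (g w₁ θ) :=
    Real.log_mul h₂.ne' p1.ne'
  apply (Real.log_le_log_iff (by positivity) (by positivity)).1
  rw [e1, e2]
  linarith

/-- A class member has a log-concave restriction to each line. -/
theorem LC.line {f : ℝ × ℝ → ℝ} (hf : LC f) (ρ₀ ν θ₀ κ : ℝ) :
    ConcaveOn ℝ univ (fun σ => f (ρ₀ + ν * σ, θ₀ + κ * σ)) := by
  refine ⟨convex_univ, ?_⟩
  intro x _ y _ a b ha hb hab
  have h := hf.conc.2 (mem_univ (ρ₀ + ν * x, θ₀ + κ * x)) (mem_univ (ρ₀ + ν * y, θ₀ + κ * y))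
    ha hb hab
  simp only [smul_eq_mul] at h ⊢
  have e : a • (ρ₀ + ν * x, θ₀ + κ * x) + b • (ρ₀ + ν * y, θ₀ + κ * y)
      = (ρ₀ + ν * (a * x + b * y), θ₀ + κ * (a * x + b * y)) := by
    have hb' : b = 1 - a := by linarith
    ext <;> simp <;> rw [hb'] <;> ring
  rw [e] at h
  exact h

theorem acc_Ioi {x : ℝ} (hx : 0 < x) : AccPt x (Filter.principal (Ioi 0)) := by
  have h := ((PerfectSpace.univ_preperfect (α := ℝ)).open_inter (isOpen_Ioi (a := (0 : ℝ))))
    x ⟨hx, mem_univ x⟩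
  rwa [inter_univ] at h

/-- A smooth member of the class belongs to the smooth class. -/
theorem good_of_smooth {g : ℝ × ℝ → ℝ} (hsm : ContDiff ℝ ∞ g) (hg : HG (fun w θ => g (w, θ))) :
    Good g := by
  have hpos : ∀ u s, 0 < u → 0 < g (u, s) := hg.pos
  refine ⟨hpos, fun u s hu => ?_, fun u s hu => ?_, fun u s hu z => ?_⟩
  · have hd := (partial_fst hsm u s).hasDerivWithinAt (s := Ioi 0)
    refine hd.nonneg_of_monotoneOn (acc_Ioi hu) ?_
    intro x hx y _ hxy
    exact hg.mono s hx hxy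
  · have hd := (partial_fst hsm u s).fun_div (hasDerivAt_id' u) hu.ne'
    have h := (hd.hasDerivWithinAt (s := Ioi 0)).nonpos_of_antitoneOn (acc_Ioi hu) (by
      intro x hx y hy hxy
      have hx0 : 0 < x := hx
      have hy0 : 0 < y := hy
      have := hg.sub s hx0 hxy
      simp only
      rw [div_le_div_iff₀ hy0 hx0]
      linarith)
    have h2 : D₁ g (u, s) * u - g (u, s) * 1 ≤ 0 := by
      by_contra hc
      push Not at hc
      have : 0 < (D₁ g (u, s) * u - g (u, s) * 1) / u ^ 2 := by positivity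
      linarith
    linarith
  · set ν := z / u with hν
    have hνu : ν * u = z := by rw [hν]; field_simp
    let U : ℝ → ℝ := fun σ => u * Real.exp (ν * σ)
    have hUpos : ∀ σ, 0 < U σ := fun σ => by positivity
    have hu1 : ∀ σ, HasDerivAt U (ν * U σ) σ := fun σ => by
      have h := ((hasDerivAt_id' σ).const_mul ν).exp.const_mul u
      refine h.congr_deriv ?_
      simp only [U]
      ring
    have hu2 : ∀ σ, HasDerivAt (fun σ => ν * U σ) (ν * (ν * U σ)) σ := fun σ =>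
      (hu1 σ).const_mul ν
    have hU0 : U 0 = u := by simp [U]
    have hψ0 : ∀ σ, 0 < g (U σ, s + σ) := fun σ => hpos _ _ (hUpos σ)
    have hψ1 := fun σ => curve_first' hsm s σ hu1
    have hψ2 := curve_second hsm s 0 hu1 hu2
    have hlog : ∀ σ, HasDerivAt (fun σ => Real.log (g (U σ, s + σ)))
        ((D₁ g (U σ, s + σ) * (ν * U σ) + D₂ g (U σ, s + σ)) / g (U σ, s + σ)) σ := fun σ =>
      (hψ1 σ).log (hψ0 σ).ne'
    have hconc : ConcaveOn ℝ univ (fun σ => Real.log (g (U σ, s + σ))) := by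
      have h := hg.lc.line (Real.log u) ν s 1
      refine h.congr ?_
      intro σ _
      simp only [one_mul, U]
      rw [Real.exp_add, Real.exp_log hu]
    have hanti : AntitoneOn (deriv (fun σ => Real.log (g (U σ, s + σ)))) univ :=
      hconc.antitoneOn_deriv (fun σ _ => (hlog σ).differentiableAt)
    have hderiv : deriv (fun σ => Real.log (g (U σ, s + σ))) = fun σ =>
        (D₁ g (U σ, s + σ) * (ν * U σ) + D₂ g (U σ, s + σ)) / g (U σ, s + σ) :=
      funext fun σ => (hlog σ).deriv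
    rw [hderiv] at hanti
    have hd2 := (hψ2.fun_div (hψ1 0) (hψ0 0).ne').hasDerivWithinAt (s := univ)
    have hsign := hd2.nonpos_of_antitoneOn
      (PerfectSpace.univ_preperfect (α := ℝ) 0 (mem_univ 0)) hanti
    simp only [add_zero, hU0] at hsign
    rw [hνu] at hsign
    have hp := hpos u s hu
    have e2 : ν * z = z ^ 2 / u := by
      rw [hν]; field_simp
    rw [e2] at hsign
    have h3 : (D₁ (D₁ g) (u, s) * z ^ 2 + 2 * (D₁ (D₂ g) (u, s) * z) + D₂ (D₂ g) (u, s)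
        + D₁ g (u, s) * (z ^ 2 / u)) * g (u, s)
        - (D₁ g (u, s) * z + D₂ g (u, s)) * (D₁ g (u, s) * z + D₂ g (u, s)) ≤ 0 := by
      by_contra hc
      push Not at hc
      have := div_pos hc (by positivity : 0 < g (u, s) ^ 2)
      linarith
    have e3 : g (u, s) * (D₂ (D₂ g) (u, s) + 2 * z * D₁ (D₂ g) (u, s)
          + z ^ 2 * (D₁ (D₁ g) (u, s) + D₁ g (u, s) / u))
        = (D₁ (D₁ g) (u, s) * z ^ 2 + 2 * (D₁ (D₂ g) (u, s) * z) + D₂ (D₂ g) (u, s)
        + D₁ g (u, s) * (z ^ 2 / u)) * g (u, s) := by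
      ring
    rw [e3]
    nlinarith

end Vale.Agent.Lib.P227
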