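import Mathlib
import Vale.Agent.Lib.P227.Hard1

/-!
Regularization near the origin, smooth approximants of a class member, and the averaging step
for the nonsmooth class.
-/

namespace Vale.Agent.Lib.P227

open scoped ContDiff Topology
open Set Filter MeasureTheory

/-- The logarithm of `√(w ^ 2 + δ ^ 2)` as a function of `log w`. -/
noncomputable def capP (δ ρ : ℝ) : ℝ := (1 / 2) * Real.log (Real.exp ρ ^ 2 + δ ^ 2)

section capP

variable {δ : ℝ} (hδ : 0 < δ)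
include hδ

theorem capP_deriv (ρ : ℝ) :
    HasDerivAt (capP δ) (Real.exp ρ ^ 2 / (Real.exp ρ ^ 2 + δ ^ 2)) ρ := by
  have h1 : HasDerivAt (fun ρ => Real.exp ρ ^ 2 + δ ^ 2) (2 * Real.exp ρ ^ 2) ρ := by
    have := ((Real.hasDerivAt_exp ρ).fun_pow 2).add_const (δ ^ 2)
    refine this.congr_deriv ?_
    norm_num
    ring
  have h2 := (h1.log (by positivity)).const_mul (1 / 2 : ℝ)
  refine h2.congr_deriv ?_
  field_simp

theorem capP_convex : ConvexOn ℝ univ (capP δ) := by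
  apply MonotoneOn.convexOn_of_deriv convex_univ
  · exact fun ρ _ => (capP_deriv hδ ρ).continuousAt.continuousWithinAt
  · exact fun ρ _ => (capP_deriv hδ ρ).differentiableAt.differentiableWithinAt
  · have hd : deriv (capP δ) = fun ρ => Real.exp ρ ^ 2 / (Real.exp ρ ^ 2 + δ ^ 2) :=
      funext fun ρ => (capP_deriv hδ ρ).deriv
    rw [hd]
    intro x _ y _ hxy
    simp only
    have hx : Real.exp x ≤ Real.exp y := Real.exp_le_exp.2 hxy
    have hx0 := Real.exp_pos x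
    rw [div_le_div_iff₀ (by positivity) (by positivity)]
    have : Real.exp x ^ 2 ≤ Real.exp y ^ 2 := pow_le_pow_left₀ hx0.le hx 2
    nlinarith [sq_nonneg δ]

theorem capP_mono {ρ₁ ρ₂ : ℝ} (h : ρ₁ ≤ ρ₂) : capP δ ρ₁ ≤ capP δ ρ₂ := by
  unfold capP
  have hx : Real.exp ρ₁ ≤ Real.exp ρ₂ := Real.exp_le_exp.2 h
  have h2 : Real.exp ρ₁ ^ 2 ≤ Real.exp ρ₂ ^ 2 := pow_le_pow_left₀ (Real.exp_pos _).le hx 2
  have := Real.log_le_log (by positivity : 0 < Real.exp ρ₁ ^ 2 + δ ^ 2)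
    (by linarith : Real.exp ρ₁ ^ 2 + δ ^ 2 ≤ Real.exp ρ₂ ^ 2 + δ ^ 2)
  linarith

theorem capP_lip {ρ₁ ρ₂ : ℝ} (h : ρ₁ ≤ ρ₂) : capP δ ρ₂ ≤ capP δ ρ₁ + (ρ₂ - ρ₁) := by
  unfold capP
  have e : Real.exp ρ₂ ^ 2 = Real.exp (2 * (ρ₂ - ρ₁)) * Real.exp ρ₁ ^ 2 := by
    rw [← Real.exp_nat_mul, ← Real.exp_nat_mul, ← Real.exp_add]
    congr 1
    push_cast
    ring
  have h1 : 1 ≤ Real.exp (2 * (ρ₂ - ρ₁)) := Real.one_le_exp (by linarith)
  have h2 : Real.exp ρ₂ ^ 2 + δ ^ 2 ≤ Real.exp (2 * (ρ₂ - ρ₁)) * (Real.exp ρ₁ ^ 2 + δ ^ 2) := by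
    rw [e, mul_add]
    nlinarith [sq_nonneg δ]
  have h3 := Real.log_le_log (by positivity) h2
  rw [Real.log_mul (Real.exp_pos _).ne' (by positivity), Real.log_exp] at h3
  linarith

end capP

/-- Regularized function in logarithmic coordinates. -/
noncomputable def regF (F : ℝ × ℝ → ℝ) (δ : ℝ) (p : ℝ × ℝ) : ℝ :=
  p.1 - capP δ p.1 + F (capP δ p.1, p.2)

theorem regF_LC {F : ℝ × ℝ → ℝ} (hF : LC F) {δ : ℝ} (hδ : 0 < δ) : LC (regF F δ) := by
  refine ⟨⟨convex_univ, ?_⟩, ?_, ?_⟩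
  · intro p _ q _ a b ha hb hab
    simp only [smul_eq_mul, regF, Prod.fst_add, Prod.smul_fst, Prod.snd_add, Prod.smul_snd]
    have hc := (capP_convex hδ).2 (mem_univ p.1) (mem_univ q.1) ha hb hab
    simp only [smul_eq_mul] at hc
    set P := capP δ (a * p.1 + b * q.1) with hP
    set P₁ := capP δ p.1 with hP₁
    set P₂ := capP δ q.1 with hP₂
    have h1 := hF.s1 (a * q.2 * 0 + (a * p.2 + b * q.2)) hc
    have hmix := hF.conc.2 (mem_univ (P₁, p.2)) (mem_univ (P₂, q.2)) ha hb hab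
    simp only [smul_eq_mul] at hmix
    have e : a • (P₁, p.2) + b • (P₂, q.2) = (a * P₁ + b * P₂, a * p.2 + b * q.2) := by
      ext <;> simp
    rw [e] at hmix
    simp only [mul_zero, zero_add] at h1
    have e2 : a * p.1 + b * q.1 - P = a * p.1 + b * q.1 - (a * P₁ + b * P₂) + ((a * P₁ + b * P₂) - P) := by
      ring
    nlinarith
  · intro ρ₁ ρ₂ θ h
    simp only [regF]
    have h1 := capP_lip hδ h
    have h2 := hF.s0 θ (capP_mono hδ h)
    linarith
  · intro ρ₁ ρ₂ θ h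
    simp only [regF]
    have h1 := capP_mono hδ h
    have h2 := hF.s1 θ h1
    linarith

/-- The smooth odd function attached to a smooth member of the class in logarithmic coordinates. -/
noncomputable def gReg (F : ℝ × ℝ → ℝ) (δ : ℝ) (p : ℝ × ℝ) : ℝ :=
  p.1 / Real.sqrt (p.1 ^ 2 + δ ^ 2) * Real.exp (F ((1 / 2) * Real.log (p.1 ^ 2 + δ ^ 2), p.2))

theorem gReg_smooth {F : ℝ × ℝ → ℝ} (hF : ContDiff ℝ ∞ F) {δ : ℝ} (hδ : 0 < δ) :
    ContDiff ℝ ∞ (gReg F δ) := by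
  have hne : ∀ p : ℝ × ℝ, p.1 ^ 2 + δ ^ 2 ≠ 0 := fun p => by positivity
  have h0 : ContDiff ℝ ∞ (fun p : ℝ × ℝ => p.1 ^ 2 + δ ^ 2) := by fun_prop
  have h1 : ContDiff ℝ ∞ (fun p : ℝ × ℝ => Real.sqrt (p.1 ^ 2 + δ ^ 2)) := h0.sqrt hne
  have h2 : ContDiff ℝ ∞ (fun p : ℝ × ℝ => Real.log (p.1 ^ 2 + δ ^ 2)) := h0.log hne
  unfold gReg
  refine (contDiff_fst.div h1 fun p => (Real.sqrt_pos.2 (by positivity)).ne').mul ?_
  refine Real.contDiff_exp.comp (hF.comp ?_)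
  exact (contDiff_const.mul h2).prodMk contDiff_snd

theorem gReg_odd (F : ℝ × ℝ → ℝ) (δ u s : ℝ) : gReg F δ (-u, s) = - gReg F δ (u, s) := by
  simp [gReg, neg_div]

theorem gReg_log (F : ℝ × ℝ → ℝ) {δ : ℝ} (hδ : 0 < δ) (p : ℝ × ℝ) :
    Real.log (gReg F δ (Real.exp p.1, p.2)) = regF F δ p := by
  obtain ⟨ρ, θ⟩ := p
  simp only [gReg, regF, capP]
  have hR : 0 < Real.exp ρ ^ 2 + δ ^ 2 := by positivity
  rw [Real.log_mul (by positivity) (Real.exp_pos _).ne', Real.log_exp,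
    Real.log_div (Real.exp_pos _).ne' (Real.sqrt_pos.2 hR).ne', Real.log_exp,
    Real.log_sqrt hR.le]
  ring

theorem gReg_HG {F : ℝ × ℝ → ℝ} (hF : LC F) {δ : ℝ} (hδ : 0 < δ) :
    HG (fun w θ => gReg F δ (w, θ)) := by
  refine ⟨fun w θ hw => ?_, ?_⟩
  · have : 0 < Real.sqrt (w ^ 2 + δ ^ 2) := Real.sqrt_pos.2 (by positivity)
    simp only [gReg]
    positivity
  · have h : (fun p : ℝ × ℝ => Real.log (gReg F δ (Real.exp p.1, p.2))) = regF F δ :=
      funext (gReg_log F hδ)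
    rw [h]
    exact regF_LC hF hδ

/-- Smooth approximants of a member of the class. -/
theorem HG.approx {g : ℝ → ℝ → ℝ} (hg : HG g) :
    ∃ G : ℕ → ℝ × ℝ → ℝ, (∀ k, ContDiff ℝ ∞ (G k)) ∧ (∀ k u s, G k (-u, s) = - G k (u, s)) ∧
      (∀ k, HG (fun w θ => G k (w, θ))) ∧
      ∀ w θ, 0 < w → Tendsto (fun k => G k (w, θ)) atTop (𝓝 (g w θ)) := by
  obtain ⟨F, hFs, hFl, hFt⟩ := hg.lc.mollify
  have hδ : ∀ k : ℕ, 0 < 1 / ((k : ℝ) + 1) := fun k => by positivity
  refine ⟨fun k => gReg (F k) (1 / ((k : ℝ) + 1)), fun k => gReg_smooth (hFs k) (hδ k),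
    fun k u s => gReg_odd _ _ u s, fun k => gReg_HG (hFl k) (hδ k), fun w θ hw => ?_⟩
  have h0 : Tendsto (fun k : ℕ => 1 / ((k : ℝ) + 1)) atTop (𝓝 0) :=
    tendsto_one_div_add_atTop_nhds_zero_nat
  have hw2 : (0 : ℝ) < w ^ 2 + 0 ^ 2 := by positivity
  -- the first factor
  have h1 : Tendsto (fun k : ℕ => w / Real.sqrt (w ^ 2 + (1 / ((k : ℝ) + 1)) ^ 2)) atTop
      (𝓝 (w / Real.sqrt (w ^ 2 + 0 ^ 2))) := by
    have hc : ContinuousAt (fun δ : ℝ => w / Real.sqrt (w ^ 2 + δ ^ 2)) 0 := by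
      apply ContinuousAt.div continuousAt_const
      · fun_prop
      · exact (Real.sqrt_pos.2 hw2).ne'
    exact hc.tendsto.comp h0
  have e1 : w / Real.sqrt (w ^ 2 + 0 ^ 2) = 1 := by
    have : w ^ 2 + (0 : ℝ) ^ 2 = w ^ 2 := by ring
    rw [this, Real.sqrt_sq hw.le, div_self hw.ne']
  rw [e1] at h1
  -- the argument
  have h2 : Tendsto (fun k : ℕ => (1 / 2) * Real.log (w ^ 2 + (1 / ((k : ℝ) + 1)) ^ 2)) atTop
      (𝓝 ((1 / 2) * Real.log (w ^ 2 + 0 ^ 2))) := by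
    have hc : ContinuousAt (fun δ : ℝ => (1 / 2) * Real.log (w ^ 2 + δ ^ 2)) 0 := by
      apply ContinuousAt.mul continuousAt_const
      apply ContinuousAt.log
      · fun_prop
      · exact hw2.ne'
    exact hc.tendsto.comp h0
  have e2 : (1 / 2) * Real.log (w ^ 2 + 0 ^ 2) = Real.log w := by
    have : w ^ 2 + (0 : ℝ) ^ 2 = w ^ 2 := by ring
    rw [this, Real.log_pow]
    push_cast
    ring
  rw [e2] at h2
  -- convergence of the exponent
  have h3 : Tendsto (fun k : ℕ => F k ((1 / 2) * Real.log (w ^ 2 + (1 / ((k : ℝ) + 1)) ^ 2), θ))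
      atTop (𝓝 (Real.log (g (Real.exp (Real.log w)) θ))) := by
    have ht := hFt (Real.log w, θ)
    have hdiff : Tendsto (fun k : ℕ => F k ((1 / 2) * Real.log (w ^ 2 + (1 / ((k : ℝ) + 1)) ^ 2), θ)
        - F k (Real.log w, θ)) atTop (𝓝 0) := by
      apply squeeze_zero_norm (a := fun k : ℕ =>
        |(1 / 2) * Real.log (w ^ 2 + (1 / ((k : ℝ) + 1)) ^ 2) - Real.log w|)
      · intro k
        exact (hFl k).lip _ _ θ
      · have := (h2.sub_const (Real.log w)).abs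
        simpa using this
    have := hdiff.add ht
    simpa using this
  rw [Real.exp_log hw, ] at h3
  have h4 := h1.mul (Real.continuous_exp.tendsto _ |>.comp h3)
  rw [Real.exp_log (hg.pos w θ hw), one_mul] at h4
  exact h4

/-- The averaging operator on the class. -/
noncomputable def stepOp (g : ℝ → ℝ → ℝ) (b₀ τ r θ : ℝ) : ℝ :=
  ∫ w in |r - b₀ * Real.exp (τ * θ)|..(r + b₀ * Real.exp (τ * θ)), g w θ

/-- Members of the class are integrable on bounded intervals of the half line. -/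
theorem HG.intervalIntegrable {g : ℝ → ℝ → ℝ} (hg : HG g) (θ : ℝ) {a b : ℝ} (ha : 0 ≤ a)
    (hab : a ≤ b) : IntervalIntegrable (fun w => g w θ) volume a b := by
  rw [intervalIntegrable_iff_integrableOn_Ioc_of_le hab]
  by_cases hb : b ≤ 0
  · have : Ioc a b = ∅ := Ioc_eq_empty (by linarith)
    rw [this]
    exact integrableOn_empty
  push Not at hb
  have hmono : MonotoneOn (fun w => g w θ) (Ioc a b) := by
    intro x hx y hy hxy
    exact hg.mono θ (lt_of_le_of_lt ha hx.1) hxy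
  have hmeas := aemeasurable_restrict_of_monotoneOn (μ := volume) measurableSet_Ioc hmono
  refine Integrable.of_bound hmeas.aestronglyMeasurable (g b θ) ?_
  refine (ae_restrict_iff' measurableSet_Ioc).2 (Eventually.of_forall fun x hx => ?_)
  have hx0 : 0 < x := lt_of_le_of_lt ha hx.1
  rw [Real.norm_eq_abs, abs_of_pos (hg.pos x θ hx0)]
  exact hg.mono θ hx0 hx.2

theorem stepOp_pos {g : ℝ → ℝ → ℝ} (hg : HG g) {b₀ : ℝ} (hb₀ : 0 < b₀) (τ r θ : ℝ) (hr : 0 < r) :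
    0 < stepOp g b₀ τ r θ := by
  have hb : 0 < b₀ * Real.exp (τ * θ) := by positivity
  set b := b₀ * Real.exp (τ * θ) with hbd
  have hlt : |r - b| < r + b := by
    rw [abs_lt]; constructor <;> linarith
  unfold stepOp
  rw [← hbd]
  apply intervalIntegral.intervalIntegral_pos_of_pos_on (hg.intervalIntegrable θ (abs_nonneg _) hlt.le)
    _ hlt
  intro x hx
  exact hg.pos x θ (lt_of_le_of_lt (abs_nonneg _) hx.1)

/-- The smooth step as an integral. -/
theorem step_towerOf_eq {G : ℝ × ℝ → ℝ} (hG : ContDiff ℝ ∞ G) (hodd : ∀ u s, G (-u, s) = - G (u, s))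
    (b₀ τ r θ : ℝ) :
    step (towerOf G) b₀ τ 0 (r, θ)
      = ∫ w in |r - b₀ * Real.exp (τ * θ)|..(r + b₀ * Real.exp (τ * θ)), G (w, θ) := by
  have hT := towerOf_tower hG hodd
  set b := b₀ * Real.exp (τ * θ) with hbd
  have hc : Continuous fun x => G (x, θ) := hG.continuous.comp (by fun_prop)
  have h1 : towerOf G 1 (r - b, θ) = towerOf G 1 (|r - b|, θ) := by
    rcases abs_cases (r - b) with ⟨h, _⟩ | ⟨h, _⟩
    · rw [h]
    · rw [h, hT.T1_even]
  simp only [step, ← hbd, zero_add]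
  rw [h1]
  show (∫ x in (0 : ℝ)..(r + b), G (x, θ)) - ∫ x in (0 : ℝ)..|r - b|, G (x, θ) = _
  exact intervalIntegral.integral_interval_sub_left (hc.intervalIntegrable _ _)
    (hc.intervalIntegrable _ _)

/-- Convergence of the smooth steps. -/
theorem step_tendsto {g : ℝ → ℝ → ℝ} {G : ℕ → ℝ × ℝ → ℝ} (hG : ∀ k, ContDiff ℝ ∞ (G k))
    (hodd : ∀ k u s, G k (-u, s) = - G k (u, s)) (hGg : ∀ k, HG (fun w θ => G k (w, θ)))
    (hlim : ∀ w θ, 0 < w → Tendsto (fun k => G k (w, θ)) atTop (𝓝 (g w θ)))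
    {b₀ : ℝ} (hb₀ : 0 < b₀) (τ r θ : ℝ) (hr : 0 < r) :
    Tendsto (fun k => step (towerOf (G k)) b₀ τ 0 (r, θ)) atTop (𝓝 (stepOp g b₀ τ r θ)) := by
  simp only [fun k => step_towerOf_eq (hG k) (hodd k) b₀ τ r θ]
  unfold stepOp
  have hb : 0 < b₀ * Real.exp (τ * θ) := by positivity
  set b := b₀ * Real.exp (τ * θ) with hbd
  have hlt : |r - b| ≤ r + b := by
    rw [abs_le]; constructor <;> linarith
  have hξ : 0 < r + b := by positivity
  obtain ⟨C, hC⟩ := (hlim (r + b) θ hξ).bddAbove_range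
  have hC' : ∀ k, G k (r + b, θ) ≤ C := fun k => hC ⟨k, rfl⟩
  refine intervalIntegral.tendsto_integral_filter_of_dominated_convergence (fun _ => C) ?_ ?_ ?_ ?_
  · exact Eventually.of_forall fun k =>
      ((hG k).continuous.comp (by fun_prop : Continuous fun x => (x, θ))).aestronglyMeasurable
  · refine Eventually.of_forall fun k => Eventually.of_forall fun x hx => ?_
    rw [uIoc_of_le hlt] at hx
    have hx0 : 0 < x := lt_of_le_of_lt (abs_nonneg _) hx.1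
    have h1 := (hGg k).pos x θ hx0
    have h2 := (hGg k).mono θ hx0 hx.2
    rw [Real.norm_eq_abs, abs_of_pos h1]
    exact h2.trans (hC' k)
  · exact intervalIntegrable_const
  · refine Eventually.of_forall fun x hx => ?_
    rw [uIoc_of_le hlt] at hx
    exact hlim x θ (lt_of_le_of_lt (abs_nonneg _) hx.1)

end Vale.Agent.Lib.P227
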