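import Mathlib
import Vale.Agent.Lib.P227.Hard2

/-!
The nonsmooth class is preserved by the averaging step and by truncation.
-/

namespace Vale.Agent.Lib.P227

open scoped ContDiff Topology
open Set Filter MeasureTheory

theorem Good.mono_sub {g : ℝ × ℝ → ℝ} (hsm : ContDiff ℝ ∞ g) (hG : Good g) (θ : ℝ) {r₁ r₂ : ℝ}
    (h₁ : 0 < r₁) (h : r₁ ≤ r₂) : g (r₁, θ) ≤ g (r₂, θ) ∧ r₁ * g (r₂, θ) ≤ r₂ * g (r₁, θ) := by
  have hmem : ∀ x ∈ Icc r₁ r₂, 0 < x := fun x hx => lt_of_lt_of_le h₁ hx.1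
  constructor
  · have := sub_le_of_hasDerivAt_nonpos (f := fun x => - g (x, θ))
      (f' := fun x => - D₁ g (x, θ)) h (fun x _ => (partial_fst hsm x θ).neg)
      (fun x hx => by
        have := hG.S0 x θ (hmem x hx)
        linarith)
    linarith
  · have := sub_le_of_hasDerivAt_nonpos (f := fun x => g (x, θ) / x)
      (f' := fun x => (D₁ g (x, θ) * x - g (x, θ) * 1) / x ^ 2) h
      (fun x hx => (partial_fst hsm x θ).fun_div (hasDerivAt_id' x) (hmem x hx).ne')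
      (fun x hx => by
        have := hG.S1 x θ (hmem x hx)
        apply div_nonpos_of_nonpos_of_nonneg _ (sq_nonneg _)
        linarith)
    have h₂ : 0 < r₂ := lt_of_lt_of_le h₁ h
    rw [div_le_div_iff₀ h₂ h₁] at this
    linarith

/-- The steps of the smooth approximants satisfy the smooth class conditions. -/
theorem step_approx_good {G : ℝ × ℝ → ℝ} (hG : ContDiff ℝ ∞ G)
    (hodd : ∀ u s, G (-u, s) = - G (u, s)) (hGg : HG (fun w θ => G (w, θ))) {b₀ : ℝ}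
    (hb₀ : 0 < b₀) (τ : ℝ) :
    ContDiff ℝ ∞ (step (towerOf G) b₀ τ 0) ∧ Good (step (towerOf G) b₀ τ 0) := by
  have hT := towerOf_tower hG hodd
  have hgood : Good (towerOf G 0) := good_of_smooth hG hGg
  exact ⟨step_smooth hT b₀ τ 0, step_good hT hgood hb₀ τ⟩

theorem stepOp_mono_sub {g : ℝ → ℝ → ℝ} (hg : HG g) {b₀ : ℝ} (hb₀ : 0 < b₀) (τ θ : ℝ) {r₁ r₂ : ℝ}
    (h₁ : 0 < r₁) (h : r₁ ≤ r₂) :
    stepOp g b₀ τ r₁ θ ≤ stepOp g b₀ τ r₂ θ
      ∧ r₁ * stepOp g b₀ τ r₂ θ ≤ r₂ * stepOp g b₀ τ r₁ θ := by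
  obtain ⟨G, hGs, hGo, hGg, hGl⟩ := hg.approx
  have h₂ : 0 < r₂ := lt_of_lt_of_le h₁ h
  have t1 := step_tendsto hGs hGo hGg hGl hb₀ τ r₁ θ h₁
  have t2 := step_tendsto hGs hGo hGg hGl hb₀ τ r₂ θ h₂
  have key := fun k => (step_approx_good (hGs k) (hGo k) (hGg k) hb₀ τ)
  constructor
  · exact le_of_tendsto_of_tendsto' t1 t2 fun k =>
      (Good.mono_sub (key k).1 (key k).2 θ h₁ h).1
  · exact le_of_tendsto_of_tendsto' (t2.const_mul r₁) (t1.const_mul r₂) fun k =>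
      (Good.mono_sub (key k).1 (key k).2 θ h₁ h).2

/-- Log-concavity of the averaged function along lines. -/
theorem stepOp_line {g : ℝ → ℝ → ℝ} (hg : HG g) {b₀ : ℝ} (hb₀ : 0 < b₀) (τ : ℝ) {r₀ : ℝ}
    (hr₀ : 0 < r₀) (ν : ℝ) :
    ConcaveOn ℝ univ (fun σ => Real.log (stepOp g b₀ τ (r₀ * Real.exp (ν * σ)) σ)) := by
  obtain ⟨G, hGs, hGo, hGg, hGl⟩ := hg.approx
  have key := fun k => (step_approx_good (hGs k) (hGo k) (hGg k) hb₀ τ)
  have hconc := fun k => good_line (key k).1 (key k).2 hr₀ ν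
  refine ⟨convex_univ, ?_⟩
  intro x _ y _ a b ha hb hab
  simp only [smul_eq_mul]
  have hS : ∀ σ, Tendsto (fun k => Real.log (step (towerOf (G k)) b₀ τ 0 (r₀ * Real.exp (ν * σ), σ)))
      atTop (𝓝 (Real.log (stepOp g b₀ τ (r₀ * Real.exp (ν * σ)) σ))) := fun σ =>
    (step_tendsto hGs hGo hGg hGl hb₀ τ _ σ (by positivity)).log
      (stepOp_pos hg hb₀ τ _ σ (by positivity)).ne'
  refine le_of_tendsto_of_tendsto' (((hS x).const_mul a).add ((hS y).const_mul b))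
    (hS (a * x + b * y)) fun k => ?_
  have h := (hconc k).2 (mem_univ x) (mem_univ y) ha hb hab
  simpa only [smul_eq_mul] using h

theorem HG.reparam {g : ℝ → ℝ → ℝ} (hg : HG g) (θ₀ κ : ℝ) : HG (fun w σ => g w (θ₀ + κ * σ)) := by
  refine ⟨fun w σ hw => hg.pos w _ hw, ⟨convex_univ, ?_⟩, fun σ h => hg.lc.s0 (θ₀ + κ * σ) h,
    fun σ h => hg.lc.s1 (θ₀ + κ * σ) h⟩
  intro p _ q _ a b ha hb hab
  have h := hg.lc.conc.2 (mem_univ (p.1, θ₀ + κ * p.2)) (mem_univ (q.1, θ₀ + κ * q.2)) ha hb hab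
  simp only [smul_eq_mul] at h ⊢
  have e1 : a • (p.1, θ₀ + κ * p.2) + b • (q.1, θ₀ + κ * q.2)
      = ((a • p + b • q).1, θ₀ + κ * (a • p + b • q).2) := by
    have hb' : b = 1 - a := by linarith
    ext <;> simp <;> rw [hb'] <;> ring
  rw [e1] at h
  exact h

theorem stepOp_reparam (g : ℝ → ℝ → ℝ) (b₀ τ θ₀ κ r σ : ℝ) :
    stepOp (fun w σ => g w (θ₀ + κ * σ)) (b₀ * Real.exp (τ * θ₀)) (τ * κ) r σ
      = stepOp g b₀ τ r (θ₀ + κ * σ) := by
  have e : b₀ * Real.exp (τ * θ₀) * Real.exp (τ * κ * σ) = b₀ * Real.exp (τ * (θ₀ + κ * σ)) := by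
    rw [mul_assoc, ← Real.exp_add]
    congr 2
    ring
  simp only [stepOp, e]

/-- The class is preserved by the averaging step. -/
theorem stepOp_HG {g : ℝ → ℝ → ℝ} (hg : HG g) {b₀ : ℝ} (hb₀ : 0 < b₀) (τ : ℝ) :
    HG (stepOp g b₀ τ) := by
  refine ⟨fun w θ hw => stepOp_pos hg hb₀ τ w θ hw, ⟨convex_univ, ?_⟩, fun θ h => ?_, fun θ h => ?_⟩
  · intro p _ q _ a b ha hb hab
    have hbt : 0 < b₀ * Real.exp (τ * p.2) := by positivity
    have hline := stepOp_line (hg.reparam p.2 (q.2 - p.2)) hbt (τ * (q.2 - p.2))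
      (Real.exp_pos p.1) (q.1 - p.1)
    have h := hline.2 (mem_univ (0 : ℝ)) (mem_univ (1 : ℝ)) ha hb hab
    simp only [smul_eq_mul, stepOp_reparam, mul_zero, add_zero, mul_one, Real.exp_zero] at h ⊢
    have hb' : a = 1 - b := by linarith
    have e1 : Real.exp p.1 * Real.exp (q.1 - p.1) = Real.exp q.1 := by
      rw [← Real.exp_add]; congr 1; ring
    have e2 : p.2 + (q.2 - p.2) = q.2 := by ring
    have e3 : Real.exp p.1 * Real.exp ((q.1 - p.1) * b) = Real.exp ((a • p + b • q).1) := by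
      rw [← Real.exp_add]
      congr 1
      simp only [Prod.fst_add, Prod.smul_fst, smul_eq_mul]
      rw [hb']
      ring
    have e4 : p.2 + (q.2 - p.2) * b = (a • p + b • q).2 := by
      simp only [Prod.snd_add, Prod.smul_snd, smul_eq_mul]
      rw [hb']
      ring
    simp only [zero_add, e1, e2, e3, e4] at h
    exact h
  · rename_i ρ₁ ρ₂
    have hr₁ := Real.exp_pos ρ₁
    have hle : Real.exp ρ₁ ≤ Real.exp ρ₂ := Real.exp_le_exp.2 h
    exact Real.log_le_log (stepOp_pos hg hb₀ τ _ θ hr₁) (stepOp_mono_sub hg hb₀ τ θ hr₁ hle).1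
  · rename_i ρ₁ ρ₂
    have hr₁ := Real.exp_pos ρ₁
    have hr₂ := Real.exp_pos ρ₂
    have hle : Real.exp ρ₁ ≤ Real.exp ρ₂ := Real.exp_le_exp.2 h
    have hs := (stepOp_mono_sub hg hb₀ τ θ hr₁ hle).2
    have p1 := stepOp_pos hg hb₀ τ _ θ hr₁
    have p2 := stepOp_pos hg hb₀ τ _ θ hr₂
    have h3 := Real.log_le_log (by positivity) hs
    rw [Real.log_mul hr₁.ne' p2.ne', Real.log_mul hr₂.ne' p1.ne', Real.log_exp, Real.log_exp] at h3
    linarith

/-- The truncation operator. -/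
noncomputable def truncOp (g : ℝ → ℝ → ℝ) (c₀ κ w θ : ℝ) : ℝ := g (min w (c₀ * Real.exp (κ * θ))) θ

theorem truncOp_HG {g : ℝ → ℝ → ℝ} (hg : HG g) {c₀ : ℝ} (hc₀ : 0 < c₀) (κ : ℝ) :
    HG (truncOp g c₀ κ) := by
  have hlog : ∀ ρ θ, Real.log (truncOp g c₀ κ (Real.exp ρ) θ)
      = Real.log (g (Real.exp (min ρ (Real.log c₀ + κ * θ))) θ) := by
    intro ρ θ
    simp only [truncOp]
    congr 2
    rcases le_total ρ (Real.log c₀ + κ * θ) with h | h
    · rw [min_eq_left h, min_eq_left]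
      calc Real.exp ρ ≤ Real.exp (Real.log c₀ + κ * θ) := Real.exp_le_exp.2 h
        _ = c₀ * Real.exp (κ * θ) := by rw [Real.exp_add, Real.exp_log hc₀]
    · rw [min_eq_right h, min_eq_right, Real.exp_add, Real.exp_log hc₀]
      calc c₀ * Real.exp (κ * θ) = Real.exp (Real.log c₀ + κ * θ) := by
            rw [Real.exp_add, Real.exp_log hc₀]
        _ ≤ Real.exp ρ := Real.exp_le_exp.2 h
  refine ⟨fun w θ hw => ?_, ⟨convex_univ, ?_⟩, fun θ h => ?_, fun θ h => ?_⟩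
  · exact hg.pos _ _ (lt_min hw (by positivity))
  · intro p _ q _ a b ha hb hab
    simp only [smul_eq_mul, hlog]
    set f := fun p : ℝ × ℝ => Real.log (g (Real.exp p.1) p.2) with hf
    have hconc := hg.lc.conc.2 (mem_univ (min p.1 (Real.log c₀ + κ * p.2), p.2))
      (mem_univ (min q.1 (Real.log c₀ + κ * q.2), q.2)) ha hb hab
    simp only [smul_eq_mul] at hconc
    refine hconc.trans ?_
    have e : a • (min p.1 (Real.log c₀ + κ * p.2), p.2) + b • (min q.1 (Real.log c₀ + κ * q.2), q.2)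
        = (a * min p.1 (Real.log c₀ + κ * p.2) + b * min q.1 (Real.log c₀ + κ * q.2),
            (a • p + b • q).2) := by
      ext <;> simp
    rw [e]
    refine hg.lc.s0 (a • p + b • q).2 ?_
    apply le_min
    · have h1 := min_le_left p.1 (Real.log c₀ + κ * p.2)
      have h2 := min_le_left q.1 (Real.log c₀ + κ * q.2)
      simp only [Prod.fst_add, Prod.smul_fst, smul_eq_mul]
      nlinarith
    · have h1 := min_le_right p.1 (Real.log c₀ + κ * p.2)
      have h2 := min_le_right q.1 (Real.log c₀ + κ * q.2)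
      simp only [Prod.snd_add, Prod.smul_snd, smul_eq_mul]
      have hb' : a = 1 - b := by linarith
      have h3 : a * min p.1 (Real.log c₀ + κ * p.2) ≤ a * (Real.log c₀ + κ * p.2) :=
        mul_le_mul_of_nonneg_left h1 ha
      have h4 : b * min q.1 (Real.log c₀ + κ * q.2) ≤ b * (Real.log c₀ + κ * q.2) :=
        mul_le_mul_of_nonneg_left h2 hb
      have e2 : a * (Real.log c₀ + κ * p.2) + b * (Real.log c₀ + κ * q.2)
          = Real.log c₀ + κ * (a * p.2 + b * q.2) := by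
        rw [hb']; ring
      linarith
  · rename_i ρ₁ ρ₂
    simp only [hlog]
    exact hg.lc.s0 θ (min_le_min_right _ h)
  · rename_i ρ₁ ρ₂
    simp only [hlog]
    have h1 : min ρ₁ (Real.log c₀ + κ * θ) ≤ min ρ₂ (Real.log c₀ + κ * θ) := min_le_min_right _ h
    have h2 := hg.lc.s1 θ h1
    have h3 : min ρ₂ (Real.log c₀ + κ * θ) - min ρ₁ (Real.log c₀ + κ * θ) ≤ ρ₂ - ρ₁ := by
      rcases le_total ρ₁ (Real.log c₀ + κ * θ) with h4 | h4
      · rw [min_eq_left h4]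
        have := min_le_left ρ₂ (Real.log c₀ + κ * θ)
        linarith
      · rw [min_eq_right h4, min_eq_right (h4.trans h)]
        linarith
    linarith

end Vale.Agent.Lib.P227
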