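import Mathlib
import Vale.Agent.Lib.P227.Tow

/-!
From the tower to the volume of sections of boxes.
-/

namespace Vale.Agent.Lib.P227

open MeasureTheory Set Filter Topology

/-- The box with half widths `c i`. -/
def box (n : ℕ) (c : ℕ → ℝ) : Set (Fin n → ℝ) := Set.pi univ (fun i => Icc (-c i) (c i))

theorem mem_box {n : ℕ} {c : ℕ → ℝ} {x : Fin n → ℝ} : x ∈ box n c ↔ ∀ i : Fin n, |x i| ≤ c i := by
  simp only [box, Set.mem_pi, mem_univ, forall_true_left, mem_Icc, abs_le]

theorem box_compact (n : ℕ) (c : ℕ → ℝ) : IsCompact (box n c) :=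
  isCompact_univ_pi fun _ => isCompact_Icc

theorem box_fubini (n : ℕ) (c : ℕ → ℝ) (F : ℝ → ℝ) (hF : Continuous F) (hc : 0 ≤ c n) :
    ∫ x in box (n + 1) c, F (∑ i, x i) = ∫ y in (-c n)..(c n), ∫ x in box n c, F (y + ∑ i, x i) := by
  let e := MeasurableEquiv.piFinSuccAbove (fun _ : Fin (n + 1) => ℝ) (Fin.last n)
  have hmp : MeasurePreserving e volume volume :=
    volume_preserving_piFinSuccAbove (fun _ : Fin (n + 1) => ℝ) (Fin.last n)
  let g : ℝ × (Fin n → ℝ) → ℝ := fun z => F (z.1 + ∑ i, z.2 i)
  have hset : box (n + 1) c = e ⁻¹' (Icc (-c n) (c n) ×ˢ box n c) := by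
    ext x
    simp only [mem_box, mem_preimage, mem_prod, mem_Icc, ← abs_le]
    constructor
    · intro h
      refine ⟨h (Fin.last n), fun i => ?_⟩
      have := h (Fin.castSucc i)
      simpa [e, MeasurableEquiv.piFinSuccAbove_apply, Fin.insertNthEquiv, Fin.init] using this
    · rintro ⟨h1, h2⟩ i
      refine Fin.lastCases ?_ (fun j => ?_) i
      · exact h1
      · have := h2 j
        simpa [e, MeasurableEquiv.piFinSuccAbove_apply, Fin.insertNthEquiv, Fin.init] using this
  have hg : ∀ x : Fin (n + 1) → ℝ, F (∑ i, x i) = g (e x) := by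
    intro x
    simp only [g]
    congr 1
    rw [Fin.sum_univ_castSucc, add_comm]
    simp [e, MeasurableEquiv.piFinSuccAbove_apply, Fin.insertNthEquiv, Fin.init]
  have hgc : Continuous g := by
    simp only [g]
    fun_prop
  have hint : IntegrableOn g (Icc (-c n) (c n) ×ˢ box n c) (volume.prod volume) :=
    hgc.continuousOn.integrableOn_compact (isCompact_Icc.prod (box_compact n c))
  calc ∫ x in box (n + 1) c, F (∑ i, x i)
      = ∫ x in e ⁻¹' (Icc (-c n) (c n) ×ˢ box n c), g (e x) := by
        rw [hset]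
        simp only [hg]
    _ = ∫ z in Icc (-c n) (c n) ×ˢ box n c, g z :=
        hmp.setIntegral_preimage_emb e.measurableEmbedding g _
    _ = ∫ y in Icc (-c n) (c n), ∫ x in box n c, g (y, x) := setIntegral_prod g hint
    _ = ∫ y in (-c n)..(c n), ∫ x in box n c, F (y + ∑ i, x i) := by
        rw [integral_Icc_eq_integral_Ioc, intervalIntegral.integral_of_le (by linarith)]

theorem softSign_continuous {w : ℝ} (hw : 0 < w) : Continuous (softSign w) :=
  (softSign_smooth hw).continuous

/-- The smoothed function is an average over the box. -/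
theorem tow_eq_integral {w : ℝ} (hw : 0 < w) {a : ℕ → ℝ} (ha : ∀ i, 0 < a i) (τ : ℕ → ℝ) (n : ℕ)
    (r s : ℝ) :
    tow w a τ n 0 (r, s)
      = ∫ x in box n (fun i => a i * Real.exp (τ i * s)), softSign w (r + ∑ i, x i) := by
  induction n generalizing r with
  | zero =>
    simp [tow, seedFun, box, measureReal_def, Real.volume_Icc_pi]
  | succ n ih =>
    obtain ⟨hT, hG⟩ := tow_spec hw ha τ n
    set C := a n * Real.exp (τ n * s) with hC
    have hCpos : 0 < C := mul_pos (ha n) (Real.exp_pos _)
    have hstep : tow w a τ (n + 1) 0 (r, s)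
        = tow w a τ n 1 (r + C, s) - tow w a τ n 1 (r - C, s) := rfl
    have hd : ∀ y ∈ uIcc (-C) C, HasDerivAt (fun y => tow w a τ n 1 (r + y, s))
        (tow w a τ n 0 (r + y, s)) y := by
      intro y _
      have h1 := partial_fst (hT.smooth 1) (r + y) s
      rw [hT.d1 0] at h1
      have h2 := h1.comp_const_add r y
      exact h2
    have hcont : Continuous (fun y => tow w a τ n 0 (r + y, s)) :=
      (hT.smooth 0).continuous.comp (by fun_prop)
    have hftc := intervalIntegral.integral_eq_sub_of_hasDerivAt hd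
      (hcont.intervalIntegrable _ _)
    have e1 : r + -C = r - C := by ring
    rw [e1] at hftc
    rw [hstep, ← hftc]
    have hfub := box_fubini n (fun i => a i * Real.exp (τ i * s)) (fun t => softSign w (r + t))
      ((softSign_continuous hw).comp (by fun_prop)) hCpos.le
    rw [hfub]
    apply intervalIntegral.integral_congr
    intro y _
    simp only
    rw [ih (r + y)]
    simp only [add_assoc]

theorem softSign_odd (w t : ℝ) : softSign w (-t) = - softSign w t := by
  simp [softSign, neg_div]

theorem softSign_abs_le {w : ℝ} (hw : 0 < w) (t : ℝ) : |softSign w t| ≤ 1 := by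
  unfold softSign
  have hR : 0 < Real.sqrt (t ^ 2 + w ^ 2) := Real.sqrt_pos.2 (by positivity)
  rw [abs_div, abs_of_pos hR, div_le_one hR]
  rw [← Real.sqrt_sq_eq_abs]
  apply Real.sqrt_le_sqrt
  nlinarith [sq_nonneg w]

theorem softSign_tendsto_pos {t : ℝ} (ht : 0 < t) :
    Tendsto (fun k : ℕ => softSign (1 / ((k : ℝ) + 1)) t) atTop (𝓝 1) := by
  have h0 : Tendsto (fun k : ℕ => 1 / ((k : ℝ) + 1)) atTop (𝓝 0) :=
    tendsto_one_div_add_atTop_nhds_zero_nat
  have hc : ContinuousAt (fun w : ℝ => t / Real.sqrt (t ^ 2 + w ^ 2)) 0 := by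
    apply ContinuousAt.div continuousAt_const
    · fun_prop
    · have h1 : (0 : ℝ) < t ^ 2 + 0 ^ 2 := by positivity
      exact (Real.sqrt_pos.2 h1).ne'
  have := hc.tendsto.comp h0
  have e : t / Real.sqrt (t ^ 2 + 0 ^ 2) = 1 := by
    have : t ^ 2 + (0 : ℝ) ^ 2 = t ^ 2 := by ring
    rw [this, Real.sqrt_sq ht.le, div_self ht.ne']
  rw [e] at this
  exact this

theorem softSign_tendsto_neg {t : ℝ} (ht : t < 0) :
    Tendsto (fun k : ℕ => softSign (1 / ((k : ℝ) + 1)) t) atTop (𝓝 (-1)) := by
  have h := (softSign_tendsto_pos (t := -t) (by linarith)).neg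
  refine h.congr fun k => ?_
  rw [softSign_odd, neg_neg]

/-- A level set of the sum of coordinates at a nonzero level is a null set. -/
theorem sum_level_null (n : ℕ) {r : ℝ} (hr : r ≠ 0) :
    volume {x : Fin n → ℝ | ∑ i, x i = r} = 0 := by
  cases n with
  | zero =>
    have : {x : Fin 0 → ℝ | ∑ i, x i = r} = ∅ := by
      ext x
      simp [hr.symm]
    rw [this]
    simp
  | succ n =>
    let L : (Fin (n + 1) → ℝ) →ₗ[ℝ] ℝ := ∑ i, LinearMap.proj i
    have hL : ∀ x, L x = ∑ i, x i := by
      intro x
      simp [L]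
    let x₀ : Fin (n + 1) → ℝ := Pi.single 0 r
    have hx₀ : L x₀ = r := by
      rw [hL]
      simp [x₀]
    have htop : LinearMap.ker L ≠ ⊤ := by
      intro h
      have h1 : x₀ ∈ LinearMap.ker L := by rw [h]; trivial
      rw [LinearMap.mem_ker, hx₀] at h1
      exact hr h1
    have h0 := Measure.addHaar_submodule (volume : Measure (Fin (n + 1) → ℝ)) (LinearMap.ker L) htop
    have hset : {x : Fin (n + 1) → ℝ | ∑ i, x i = r}
        = (fun x => x + (-x₀)) ⁻¹' (LinearMap.ker L : Set (Fin (n + 1) → ℝ)) := by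
      ext x
      have h1 : L (x + -x₀) = ∑ i, x i - r := by
        rw [map_add, map_neg, hx₀, hL]
        ring
      simp only [Set.mem_ofPred_eq, mem_preimage, SetLike.mem_coe, LinearMap.mem_ker, h1]
      constructor
      · intro h; rw [h]; ring
      · intro h; linarith
    rw [hset, measure_preimage_add_right]
    exact h0

theorem box_neg {n : ℕ} {c : ℕ → ℝ} : Neg.neg ⁻¹' box n c = box n c := by
  ext x
  simp only [mem_preimage, mem_box, Pi.neg_apply, abs_neg]

theorem integral_sym (n : ℕ) (c : ℕ → ℝ) (f : ℝ → ℝ) :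
    ∫ x in box n c, f (∑ i, x i) = ∫ x in box n c, f (- ∑ i, x i) := by
  have hmp : MeasurePreserving (Neg.neg : (Fin n → ℝ) → (Fin n → ℝ)) volume volume :=
    Measure.measurePreserving_neg volume
  have he : MeasurableEmbedding (Neg.neg : (Fin n → ℝ) → (Fin n → ℝ)) :=
    (MeasurableEquiv.neg (Fin n → ℝ)).measurableEmbedding
  have h := hmp.setIntegral_preimage_emb he (fun x => f (∑ i, x i)) (box n c)
  rw [box_neg] at h
  rw [← h]
  simp

/-- The integrals of the soft sign function over the box converge to the volume of the section. -/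
theorem tendsto_box_integral (n : ℕ) (c : ℕ → ℝ) {b : ℝ} (hb : 0 < b) :
    Tendsto (fun k : ℕ => ∫ x in box n c, softSign (1 / ((k : ℝ) + 1)) (b + ∑ i, x i)) atTop
      (𝓝 (volume (box n c ∩ {x | |∑ i, x i| ≤ b})).toReal) := by
  have hfin : volume (box n c) < ⊤ := (box_compact n c).measure_lt_top
  have : IsFiniteMeasure (volume.restrict (box n c)) := ⟨by simpa using hfin⟩
  have hbox : MeasurableSet (box n c) := (box_compact n c).isClosed.measurableSet
  have hwpos : ∀ k : ℕ, 0 < 1 / ((k : ℝ) + 1) := fun k => by positivity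
  have hset : MeasurableSet {x : Fin n → ℝ | |∑ i, x i| ≤ b} :=
    (isClosed_le (by fun_prop) continuous_const).measurableSet
  -- symmetrization
  have hsym : ∀ k : ℕ, ∫ x in box n c, softSign (1 / ((k : ℝ) + 1)) (b + ∑ i, x i)
      = ∫ x in box n c, (1 / 2) * (softSign (1 / ((k : ℝ) + 1)) (b + ∑ i, x i)
          + softSign (1 / ((k : ℝ) + 1)) (b - ∑ i, x i)) := by
    intro k
    have hcont : ∀ f : (Fin n → ℝ) → ℝ, Continuous f →
        IntegrableOn f (box n c) volume := fun f hf =>
      hf.continuousOn.integrableOn_compact (box_compact n c)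
    have h1 := hcont (fun x => softSign (1 / ((k : ℝ) + 1)) (b + ∑ i, x i))
      ((softSign_continuous (hwpos k)).comp (by fun_prop))
    have h2 := hcont (fun x => softSign (1 / ((k : ℝ) + 1)) (b - ∑ i, x i))
      ((softSign_continuous (hwpos k)).comp (by fun_prop))
    rw [integral_const_mul, integral_add h1 h2]
    have h3 := integral_sym n c (fun t => softSign (1 / ((k : ℝ) + 1)) (b + t))
    simp only [← sub_eq_add_neg] at h3
    rw [← h3]
    ring
  simp only [hsym]
  -- the limit
  have hlim : (volume (box n c ∩ {x | |∑ i, x i| ≤ b})).toReal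
      = ∫ x in box n c, ({x : Fin n → ℝ | |∑ i, x i| ≤ b}.indicator (fun _ => (1 : ℝ))) x := by
    rw [setIntegral_indicator hset, setIntegral_const]
    simp [measureReal_def]
  rw [hlim]
  refine tendsto_integral_of_dominated_convergence (fun _ => (1 : ℝ)) ?_ (integrable_const _) ?_ ?_
  · intro k
    refine Continuous.aestronglyMeasurable ?_
    have h1 := softSign_continuous (hwpos k)
    fun_prop
  · intro k
    refine Eventually.of_forall fun x => ?_
    have h1 := softSign_abs_le (hwpos k) (b + ∑ i, x i)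
    have h2 := softSign_abs_le (hwpos k) (b - ∑ i, x i)
    rw [Real.norm_eq_abs, abs_mul, abs_of_pos (by norm_num : (0 : ℝ) < 1 / 2)]
    have h3 := abs_add_le (softSign (1 / ((k : ℝ) + 1)) (b + ∑ i, x i))
      (softSign (1 / ((k : ℝ) + 1)) (b - ∑ i, x i))
    linarith
  · have hnull : ∀ᵐ x : Fin n → ℝ, ∑ i, x i ≠ b ∧ ∑ i, x i ≠ -b := by
      have h1 : ∀ᵐ x : Fin n → ℝ, ∑ i, x i ≠ b := by
        rw [ae_iff]
        simpa using sum_level_null n hb.ne'
      have h2 : ∀ᵐ x : Fin n → ℝ, ∑ i, x i ≠ -b := by
        rw [ae_iff]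
        simpa using sum_level_null n (r := -b) (by linarith [hb] : -b < 0).ne
      filter_upwards [h1, h2] with x h1 h2 using ⟨h1, h2⟩
    refine ae_restrict_of_ae ?_
    filter_upwards [hnull] with x hx
    set S := ∑ i, x i with hS
    by_cases h : |S| ≤ b
    · have hval : ({x : Fin n → ℝ | |∑ i, x i| ≤ b}.indicator (fun _ => (1 : ℝ))) x = 1 := by
        rw [indicator_of_mem]
        exact h
      rw [hval]
      obtain ⟨h1, h2⟩ := abs_le.1 h
      have h3 : -b < S := lt_of_le_of_ne h1 (Ne.symm hx.2)
      have h4 : S < b := lt_of_le_of_ne h2 hx.1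
      have hp1 := softSign_tendsto_pos (t := b + S) (by linarith)
      have hp2 := softSign_tendsto_pos (t := b - S) (by linarith)
      have := (hp1.add hp2).const_mul (1 / 2 : ℝ)
      convert this using 2
      norm_num
    · have hval : ({x : Fin n → ℝ | |∑ i, x i| ≤ b}.indicator (fun _ => (1 : ℝ))) x = 0 := by
        rw [indicator_of_notMem]
        exact h
      rw [hval]
      push Not at h
      rcases lt_abs.1 h with h1 | h1
      · have hp1 := softSign_tendsto_pos (t := b + S) (by linarith)
        have hp2 := softSign_tendsto_neg (t := b - S) (by linarith)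
        have := (hp1.add hp2).const_mul (1 / 2 : ℝ)
        convert this using 2
        norm_num
      · have hp1 := softSign_tendsto_neg (t := b + S) (by linarith)
        have hp2 := softSign_tendsto_pos (t := b - S) (by linarith)
        have := (hp1.add hp2).const_mul (1 / 2 : ℝ)
        convert this using 2
        norm_num

end Vale.Agent.Lib.P227
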