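import Mathlib
import Vale.Agent.Lib.P227.Vol

/-!
Log-concavity of the volume of sections of boxes in the logarithms of the half widths.
-/

namespace Vale.Agent.Lib.P227

open MeasureTheory Set Filter Topology

/-- Log-concavity with sequences of half widths and exponential interpolation. -/
theorem vol_logconcave_seq (n : ℕ) {a : ℕ → ℝ} (ha : ∀ i, 0 < a i) (τ : ℕ → ℝ) {b : ℝ} (hb : 0 < b)
    (τ₀ lam : ℝ) (h0 : 0 ≤ lam) (h1 : lam ≤ 1) :
    (volume (box n a ∩ {x | |∑ i, x i| ≤ b})).toReal ^ (1 - lam)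
        * (volume (box n (fun i => a i * Real.exp (τ i))
            ∩ {x | |∑ i, x i| ≤ b * Real.exp τ₀})).toReal ^ lam
      ≤ (volume (box n (fun i => a i * Real.exp (τ i * lam))
            ∩ {x | |∑ i, x i| ≤ b * Real.exp (τ₀ * lam)})).toReal := by
  have hwpos : ∀ k : ℕ, 0 < 1 / ((k : ℝ) + 1) := fun k => by positivity
  have h00 : (fun i => a i * Real.exp (τ i * 0)) = a := by
    funext i; simp
  have h11 : (fun i => a i * Real.exp (τ i * 1)) = fun i => a i * Real.exp (τ i) := by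
    funext i; simp
  have t0 := tendsto_box_integral n (fun i => a i * Real.exp (τ i * 0)) hb
  have t1 := tendsto_box_integral n (fun i => a i * Real.exp (τ i * 1))
    (b := b * Real.exp τ₀) (by positivity)
  have t2 := tendsto_box_integral n (fun i => a i * Real.exp (τ i * lam))
    (b := b * Real.exp (τ₀ * lam)) (by positivity)
  rw [h00] at t0
  rw [h11] at t1
  have hkey : ∀ k : ℕ,
      (∫ x in box n (fun i => a i * Real.exp (τ i * 0)),
          softSign (1 / ((k : ℝ) + 1)) (b + ∑ i, x i)) ^ (1 - lam)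
        * (∫ x in box n (fun i => a i * Real.exp (τ i * 1)),
          softSign (1 / ((k : ℝ) + 1)) (b * Real.exp τ₀ + ∑ i, x i)) ^ lam
      ≤ ∫ x in box n (fun i => a i * Real.exp (τ i * lam)),
          softSign (1 / ((k : ℝ) + 1)) (b * Real.exp (τ₀ * lam) + ∑ i, x i) := by
    intro k
    have h := tow_logconcave (hwpos k) ha τ n hb τ₀ lam h0 h1
    rw [tow_eq_integral (hwpos k) ha, tow_eq_integral (hwpos k) ha,
      tow_eq_integral (hwpos k) ha] at h
    exact h
  rw [h00, h11] at hkey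
  exact le_of_tendsto_of_tendsto' ((t0.rpow_const (Or.inr (sub_nonneg.2 h1))).mul
    (t1.rpow_const (Or.inr h0))) t2 hkey

/-- The section of the box with half widths `a i` by the slab `|∑ x i| ≤ b`. -/
def boxSection {n : ℕ} (a : Fin n → ℝ) (b : ℝ) : Set (Fin n → ℝ) :=
  {x | (∀ i, |x i| ≤ a i) ∧ |∑ i, x i| ≤ b}

theorem exp_interp {x y : ℝ} (hx : 0 < x) (hy : 0 < y) (s : ℝ) :
    x * Real.exp ((Real.log y - Real.log x) * s) = x ^ (1 - s) * y ^ s := by
  rw [Real.rpow_def_of_pos hx, Real.rpow_def_of_pos hy, ← Real.exp_add]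
  nth_rewrite 1 [← Real.exp_log hx]
  rw [← Real.exp_add]
  congr 1
  ring

/-- Log-concavity of the volume of `boxSection` in the logarithms of all the parameters. -/
theorem boxSection_logconcave {n : ℕ} {a₀ a₁ : Fin n → ℝ} {b₀ b₁ : ℝ} (ha₀ : ∀ i, 0 < a₀ i)
    (ha₁ : ∀ i, 0 < a₁ i) (hb₀ : 0 < b₀) (hb₁ : 0 < b₁) {lam : ℝ} (h0 : 0 ≤ lam) (h1 : lam ≤ 1) :
    (volume (boxSection a₀ b₀)).toReal ^ (1 - lam) * (volume (boxSection a₁ b₁)).toReal ^ lam
      ≤ (volume (boxSection (fun i => a₀ i ^ (1 - lam) * a₁ i ^ lam)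
          (b₀ ^ (1 - lam) * b₁ ^ lam))).toReal := by
  let a : ℕ → ℝ := fun i => if h : i < n then a₀ ⟨i, h⟩ else 1
  let τ : ℕ → ℝ := fun i => if h : i < n then Real.log (a₁ ⟨i, h⟩) - Real.log (a₀ ⟨i, h⟩) else 0
  have ha : ∀ i, 0 < a i := by
    intro i
    by_cases h : i < n
    · simp only [a, dif_pos h]; exact ha₀ _
    · simp only [a, dif_neg h]; exact one_pos
  have hai : ∀ (i : Fin n) s, a i * Real.exp (τ i * s) = a₀ i ^ (1 - s) * a₁ i ^ s := by
    intro i s
    simp only [a, τ, dif_pos i.2]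
    exact exp_interp (ha₀ i) (ha₁ i) s
  have hb : ∀ s, b₀ * Real.exp ((Real.log b₁ - Real.log b₀) * s) = b₀ ^ (1 - s) * b₁ ^ s :=
    fun s => exp_interp hb₀ hb₁ s
  have key := vol_logconcave_seq n ha τ hb₀ (Real.log b₁ - Real.log b₀) lam h0 h1
  have e0 : box n a ∩ {x | |∑ i, x i| ≤ b₀} = boxSection a₀ b₀ := by
    ext x
    simp only [boxSection, mem_inter_iff, mem_box, Set.mem_ofPred_eq]
    refine and_congr_left fun _ => forall_congr' fun i => ?_
    simp only [a, dif_pos i.2]
  have e1 : box n (fun i => a i * Real.exp (τ i))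
      ∩ {x | |∑ i, x i| ≤ b₀ * Real.exp (Real.log b₁ - Real.log b₀)} = boxSection a₁ b₁ := by
    ext x
    have h3 : b₀ * Real.exp (Real.log b₁ - Real.log b₀) = b₁ := by
      have := hb 1
      simpa using this
    simp only [boxSection, mem_inter_iff, mem_box, Set.mem_ofPred_eq, h3]
    refine and_congr_left fun _ => forall_congr' fun i => ?_
    have := hai i 1
    simp only [mul_one, sub_self, Real.rpow_zero, one_mul, Real.rpow_one] at this
    rw [this]
  have e2 : box n (fun i => a i * Real.exp (τ i * lam))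
      ∩ {x | |∑ i, x i| ≤ b₀ * Real.exp ((Real.log b₁ - Real.log b₀) * lam)}
      = boxSection (fun i => a₀ i ^ (1 - lam) * a₁ i ^ lam) (b₀ ^ (1 - lam) * b₁ ^ lam) := by
    ext x
    simp only [boxSection, mem_inter_iff, mem_box, Set.mem_ofPred_eq, hb lam]
    refine and_congr_left fun _ => forall_congr' fun i => ?_
    rw [hai i lam]
  rw [e0, e1, e2] at key
  exact key

end Vale.Agent.Lib.P227
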