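import Mathlib

/-!
Two-terminal series-parallel networks and the polytopes attached to them: potentials on the
vertices with the differences along the edges bounded by the heights.
-/

namespace Vale.Agent.Lib.P227

/-- Two-terminal series-parallel networks. -/
inductive Net : Type
  | edge : Net
  | series : Net → Net → Net
  | parallel : Net → Net → Net

/-- The edges of a network. -/
def Net.Edge : Net → Type
  | .edge => Unit
  | .series Z₁ Z₂ => Z₁.Edge ⊕ Z₂.Edge
  | .parallel Z₁ Z₂ => Z₁.Edge ⊕ Z₂.Edge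

/-- The inner vertices of a network. -/
def Net.Inner : Net → Type
  | .edge => Empty
  | .series Z₁ Z₂ => Unit ⊕ (Z₁.Inner ⊕ Z₂.Inner)
  | .parallel Z₁ Z₂ => Z₁.Inner ⊕ Z₂.Inner

/-- The set of inner vertices is finite. -/
instance Net.fintypeInner : (Z : Net) → Fintype Z.Inner
  | .edge => inferInstanceAs (Fintype Empty)
  | .series Z₁ Z₂ =>
      letI := Net.fintypeInner Z₁
      letI := Net.fintypeInner Z₂
      inferInstanceAs (Fintype (Unit ⊕ (Z₁.Inner ⊕ Z₂.Inner)))
  | .parallel Z₁ Z₂ =>
      letI := Net.fintypeInner Z₁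
      letI := Net.fintypeInner Z₂
      inferInstanceAs (Fintype (Z₁.Inner ⊕ Z₂.Inner))

/-- The set of edges is finite. -/
instance Net.fintypeEdge : (Z : Net) → Fintype Z.Edge
  | .edge => inferInstanceAs (Fintype Unit)
  | .series Z₁ Z₂ =>
      letI := Net.fintypeEdge Z₁
      letI := Net.fintypeEdge Z₂
      inferInstanceAs (Fintype (Z₁.Edge ⊕ Z₂.Edge))
  | .parallel Z₁ Z₂ =>
      letI := Net.fintypeEdge Z₁
      letI := Net.fintypeEdge Z₂
      inferInstanceAs (Fintype (Z₁.Edge ⊕ Z₂.Edge))

/-- The difference of the potential along an edge, for potentials `u` and `v` at the two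
terminals and `y` at the inner vertices. -/
def Net.diff : (Z : Net) → Z.Edge → ℝ → ℝ → (Z.Inner → ℝ) → ℝ
  | .edge, _, u, v, _ => v - u
  | .series Z₁ _, Sum.inl e, u, _, y =>
      Z₁.diff e u (y (Sum.inl ())) (fun i => y (Sum.inr (Sum.inl i)))
  | .series _ Z₂, Sum.inr e, _, v, y =>
      Z₂.diff e (y (Sum.inl ())) v (fun i => y (Sum.inr (Sum.inr i)))
  | .parallel Z₁ _, Sum.inl e, u, v, y => Z₁.diff e u v (fun i => y (Sum.inl i))
  | .parallel _ Z₂, Sum.inr e, u, v, y => Z₂.diff e u v (fun i => y (Sum.inr i))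

/-- The polytope attached to a network: the first coordinate is the potential at the second
terminal, the first terminal has potential `0`. -/
def Net.body (Z : Net) (h : Z.Edge → ℝ) : Set (ℝ × (Z.Inner → ℝ)) :=
  {x | ∀ e, |Z.diff e 0 x.1 x.2| ≤ h e}

end Vale.Agent.Lib.P227
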