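import Mathlib
import Vale.Agent.Lib.P227.Hard3
import Vale.Agent.Lib.P227.Main
import Vale.Agent.Lib.P227.NetDef

/-!
Two-terminal series-parallel networks, and log-concavity of the iterated pairing.
-/

namespace Vale.Agent.Lib.P227

open Set Filter MeasureTheory

/-- Averaging of a function of one variable: the convolution with the indicator of `[-r, r]`
at the level of the functions `w ↦ ∫ t in -w..w, ψ t`. -/
noncomputable def stepFun (g : ℝ → ℝ) (r w : ℝ) : ℝ := ∫ u in |w - r|..(w + r), g u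

/-- The iterated pairing attached to a network. -/
noncomputable def Net.pair : (Z : Net) → (ℝ → ℝ) → (Z.Edge → ℝ) → ℝ
  | .edge, g, h => g (h ())
  | .series Z₁ Z₂, g, h =>
      Z₂.pair (fun r => Z₁.pair (stepFun g r) (fun e => h (Sum.inl e))) (fun e => h (Sum.inr e))
  | .parallel Z₁ Z₂, g, h =>
      Z₂.pair (fun r => Z₁.pair (fun w => g (min w r)) (fun e => h (Sum.inl e)))
        (fun e => h (Sum.inr e))

/-- A member of the class not depending on the parameter. -/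
def HG₁ (g : ℝ → ℝ) : Prop := HG (fun w _ => g w)

theorem HG.section {g : ℝ → ℝ → ℝ} (hg : HG g) (σ : ℝ) : HG₁ (fun w => g w σ) := by
  have h := hg.reparam σ 0
  simpa [HG₁] using h

theorem HG₁.pos {g : ℝ → ℝ} (hg : HG₁ g) {w : ℝ} (hw : 0 < w) : 0 < g w := HG.pos hg w 0 hw

theorem HG₁.mono {g : ℝ → ℝ} (hg : HG₁ g) {w₁ w₂ : ℝ} (h₁ : 0 < w₁) (h : w₁ ≤ w₂) : g w₁ ≤ g w₂ :=
  HG.mono hg 0 h₁ h

theorem HG₁.sub {g : ℝ → ℝ} (hg : HG₁ g) {w₁ w₂ : ℝ} (h₁ : 0 < w₁) (h : w₁ ≤ w₂) :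
    w₁ * g w₂ ≤ w₂ * g w₁ := HG.sub hg 0 h₁ h

theorem stepFun_eq (g : ℝ → ℝ) (b₀ w θ : ℝ) :
    stepFun g b₀ w = stepOp (fun w _ => g w) b₀ 0 w θ := by
  simp [stepFun, stepOp]

theorem stepFun_comm (g : ℝ → ℝ) (r w : ℝ) : stepFun g r w = stepFun g w r := by
  simp only [stepFun]
  rw [abs_sub_comm, add_comm]

theorem HG₁.stepFun {g : ℝ → ℝ} (hg : HG₁ g) {r : ℝ} (hr : 0 < r) :
    HG₁ (Vale.Agent.Lib.P227.stepFun g r) := by
  have h := stepOp_HG hg hr 0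
  have e : (fun w (_ : ℝ) => Vale.Agent.Lib.P227.stepFun g r w)
      = stepOp (fun w _ => g w) r 0 := by
    funext w θ
    exact stepFun_eq g r w θ
  unfold HG₁
  rw [e]
  exact h

/-- Pointwise monotonicity of the average in the half width. -/
theorem HG₁.stepFun_mono {g : ℝ → ℝ} (hg : HG₁ g) {r₁ r₂ w : ℝ} (h₁ : 0 < r₁) (h : r₁ ≤ r₂)
    (hw : 0 < w) : Vale.Agent.Lib.P227.stepFun g r₁ w ≤ Vale.Agent.Lib.P227.stepFun g r₂ w := by
  rw [stepFun_comm g r₁ w, stepFun_comm g r₂ w]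
  exact (hg.stepFun hw).mono h₁ h

theorem HG₁.stepFun_sub {g : ℝ → ℝ} (hg : HG₁ g) {r₁ r₂ w : ℝ} (h₁ : 0 < r₁) (h : r₁ ≤ r₂)
    (hw : 0 < w) :
    r₁ * Vale.Agent.Lib.P227.stepFun g r₂ w ≤ r₂ * Vale.Agent.Lib.P227.stepFun g r₁ w := by
  rw [stepFun_comm g r₁ w, stepFun_comm g r₂ w]
  exact (hg.stepFun hw).sub h₁ h

theorem HG₁.trunc {g : ℝ → ℝ} (hg : HG₁ g) {r : ℝ} (hr : 0 < r) : HG₁ (fun w => g (min w r)) := by
  have h := truncOp_HG hg hr 0
  have e : (fun w (_ : ℝ) => g (min w r)) = truncOp (fun w _ => g w) r 0 := by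
    funext w θ
    simp [truncOp]
  unfold HG₁
  rw [e]
  exact h

/-- The statement proved by induction on the network. -/
structure NetGood (Z : Net) : Prop where
  pos : ∀ g : ℝ → ℝ, HG₁ g → ∀ h : Z.Edge → ℝ, (∀ e, 0 < h e) → 0 < Z.pair g h
  mono : ∀ g₁ g₂ : ℝ → ℝ, HG₁ g₁ → HG₁ g₂ → (∀ w, 0 < w → g₁ w ≤ g₂ w) →
    ∀ h : Z.Edge → ℝ, (∀ e, 0 < h e) → Z.pair g₁ h ≤ Z.pair g₂ h
  hom : ∀ g : ℝ → ℝ, HG₁ g → ∀ c : ℝ, 0 < c → ∀ h : Z.Edge → ℝ, (∀ e, 0 < h e) →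
    Z.pair (fun w => c * g w) h = c * Z.pair g h
  conc : ∀ g : ℝ → ℝ → ℝ, HG g → ∀ h₀ τ : Z.Edge → ℝ, (∀ e, 0 < h₀ e) →
    ConcaveOn ℝ univ
      (fun σ => Real.log (Z.pair (fun w => g w σ) (fun e => h₀ e * Real.exp (τ e * σ))))

theorem HG₁.const_mul {g : ℝ → ℝ} (hg : HG₁ g) {c : ℝ} (hc : 0 < c) : HG₁ (fun w => c * g w) := by
  refine ⟨fun w _ hw => mul_pos hc (hg.pos hw), ⟨convex_univ, ?_⟩, fun θ h => ?_, fun θ h => ?_⟩
  · intro p _ q _ a b ha hb hab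
    have h := HG.lc hg |>.conc.2 (mem_univ p) (mem_univ q) ha hb hab
    simp only [smul_eq_mul] at h ⊢
    have hp : ∀ ρ, Real.log (c * g (Real.exp ρ)) = Real.log c + Real.log (g (Real.exp ρ)) :=
      fun ρ => Real.log_mul hc.ne' (hg.pos (Real.exp_pos ρ)).ne'
    simp only [hp]
    have hb' : a = 1 - b := by linarith
    have e : Real.log c = a * Real.log c + b * Real.log c := by rw [hb']; ring
    nth_rewrite 3 [e]
    linarith
  · rename_i ρ₁ ρ₂
    have h1 := (HG.lc hg).s0 θ h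
    simp only at h1 ⊢
    rw [Real.log_mul hc.ne' (hg.pos (Real.exp_pos ρ₁)).ne',
      Real.log_mul hc.ne' (hg.pos (Real.exp_pos ρ₂)).ne']
    linarith
  · rename_i ρ₁ ρ₂
    have h1 := (HG.lc hg).s1 θ h
    simp only at h1 ⊢
    rw [Real.log_mul hc.ne' (hg.pos (Real.exp_pos ρ₁)).ne',
      Real.log_mul hc.ne' (hg.pos (Real.exp_pos ρ₂)).ne']
    linarith

theorem HG.of_lines {G : ℝ → ℝ → ℝ} (pos : ∀ w θ, 0 < w → 0 < G w θ)
    (line : ∀ ρ₀ ν θ₀ κ : ℝ, ConcaveOn ℝ univ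
      (fun t => Real.log (G (Real.exp (ρ₀ + ν * t)) (θ₀ + κ * t))))
    (mono : ∀ {r₁ r₂ : ℝ} (θ : ℝ), 0 < r₁ → r₁ ≤ r₂ → G r₁ θ ≤ G r₂ θ)
    (sub : ∀ {r₁ r₂ : ℝ} (θ : ℝ), 0 < r₁ → r₁ ≤ r₂ → r₁ * G r₂ θ ≤ r₂ * G r₁ θ) : HG G := by
  refine ⟨pos, ⟨convex_univ, ?_⟩, fun θ h => ?_, fun θ h => ?_⟩
  · intro p _ q _ a b ha hb hab
    have h := (line p.1 (q.1 - p.1) p.2 (q.2 - p.2)).2 (mem_univ (0 : ℝ)) (mem_univ (1 : ℝ))
      ha hb hab
    simp only [smul_eq_mul, mul_zero, mul_one, add_zero, zero_add] at h ⊢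
    have e1 : p.1 + (q.1 - p.1) = q.1 := by ring
    have e2 : p.2 + (q.2 - p.2) = q.2 := by ring
    have hb' : a = 1 - b := by linarith
    have e3 : p.1 + (q.1 - p.1) * b = (a • p + b • q).1 := by
      simp only [Prod.fst_add, Prod.smul_fst, smul_eq_mul]
      rw [hb']
      ring
    have e4 : p.2 + (q.2 - p.2) * b = (a • p + b • q).2 := by
      simp only [Prod.snd_add, Prod.smul_snd, smul_eq_mul]
      rw [hb']
      ring
    rw [e1, e2, e3, e4] at h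
    exact h
  · rename_i ρ₁ ρ₂
    have hr₁ := Real.exp_pos ρ₁
    exact Real.log_le_log (pos _ θ hr₁) (mono θ hr₁ (Real.exp_le_exp.2 h))
  · rename_i ρ₁ ρ₂
    have hr₁ := Real.exp_pos ρ₁
    have hr₂ := Real.exp_pos ρ₂
    have hs := sub θ hr₁ (Real.exp_le_exp.2 h)
    have p1 := pos _ θ hr₁
    have p2 := pos _ θ hr₂
    have h3 := Real.log_le_log (by positivity) hs
    rw [Real.log_mul hr₁.ne' p2.ne', Real.log_mul hr₂.ne' p1.ne', Real.log_exp, Real.log_exp] at h3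
    linarith

theorem NetGood.congr {Z : Net} (hZ : NetGood Z) {g₁ g₂ : ℝ → ℝ} (h₁ : HG₁ g₁) (h₂ : HG₁ g₂)
    (he : ∀ w, 0 < w → g₁ w = g₂ w) {h : Z.Edge → ℝ} (hh : ∀ e, 0 < h e) :
    Z.pair g₁ h = Z.pair g₂ h :=
  le_antisymm (hZ.mono _ _ h₁ h₂ (fun w hw => (he w hw).le) h hh)
    (hZ.mono _ _ h₂ h₁ (fun w hw => (he w hw).ge) h hh)

/-- The function of the half width is a member of the class (series case). -/
theorem NetGood.keyS {Z : Net} (hZ : NetGood Z) {g : ℝ → ℝ → ℝ} (hg : HG g) {h₀ : Z.Edge → ℝ}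
    (hh : ∀ e, 0 < h₀ e) (τ : Z.Edge → ℝ) :
    HG (fun r σ => Z.pair (stepFun (fun w => g w σ) r) (fun e => h₀ e * Real.exp (τ e * σ))) := by
  have hh' : ∀ σ e, 0 < h₀ e * Real.exp (τ e * σ) := fun σ e => mul_pos (hh e) (Real.exp_pos _)
  refine HG.of_lines (fun r σ hr => hZ.pos _ ((hg.section σ).stepFun hr) _ (hh' σ)) ?_ ?_ ?_
  · intro ρ₀ ν θ₀ κ
    have hg₃ := stepOp_HG (hg.reparam θ₀ κ) (Real.exp_pos ρ₀) ν
    have hc := hZ.conc _ hg₃ (fun e => h₀ e * Real.exp (τ e * θ₀)) (fun e => τ e * κ)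
      (fun e => hh' θ₀ e)
    refine hc.congr ?_
    intro t _
    simp only
    congr 1
    have e1 : ∀ e, h₀ e * Real.exp (τ e * θ₀) * Real.exp (τ e * κ * t)
        = h₀ e * Real.exp (τ e * (θ₀ + κ * t)) := by
      intro e
      rw [mul_assoc, ← Real.exp_add]
      congr 2
      ring
    simp only [e1]
    congr 1
    funext w
    simp only [stepOp, stepFun]
    have e2 : Real.exp ρ₀ * Real.exp (ν * t) = Real.exp (ρ₀ + ν * t) := by
      rw [Real.exp_add]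
    rw [e2]
  · intro r₁ r₂ σ h₁ h
    exact hZ.mono _ _ ((hg.section σ).stepFun h₁) ((hg.section σ).stepFun (lt_of_lt_of_le h₁ h))
      (fun w hw => (hg.section σ).stepFun_mono h₁ h hw) _ (hh' σ)
  · intro r₁ r₂ σ h₁ h
    have h₂ := lt_of_lt_of_le h₁ h
    have hc : 0 < r₂ / r₁ := by positivity
    have hS := (hg.section σ).stepFun h₁
    have h3 := hZ.mono _ _ ((hg.section σ).stepFun h₂) (hS.const_mul hc) (fun w hw => by
      have := (hg.section σ).stepFun_sub h₁ h hw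
      rw [div_mul_eq_mul_div, le_div_iff₀ h₁]
      linarith) _ (hh' σ)
    rw [hZ.hom _ hS _ hc _ (hh' σ)] at h3
    calc r₁ * Z.pair (stepFun (fun w => g w σ) r₂) (fun e => h₀ e * Real.exp (τ e * σ))
        ≤ r₁ * (r₂ / r₁ * Z.pair (stepFun (fun w => g w σ) r₁)
            (fun e => h₀ e * Real.exp (τ e * σ))) := mul_le_mul_of_nonneg_left h3 h₁.le
      _ = r₂ * Z.pair (stepFun (fun w => g w σ) r₁) (fun e => h₀ e * Real.exp (τ e * σ)) := by
          rw [← mul_assoc]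
          congr 1
          field_simp

/-- The function of the truncation level is a member of the class (parallel case). -/
theorem NetGood.keyM {Z : Net} (hZ : NetGood Z) {g : ℝ → ℝ → ℝ} (hg : HG g) {h₀ : Z.Edge → ℝ}
    (hh : ∀ e, 0 < h₀ e) (τ : Z.Edge → ℝ) :
    HG (fun r σ => Z.pair (fun w => g (min w r) σ) (fun e => h₀ e * Real.exp (τ e * σ))) := by
  have hh' : ∀ σ e, 0 < h₀ e * Real.exp (τ e * σ) := fun σ e => mul_pos (hh e) (Real.exp_pos _)
  refine HG.of_lines (fun r σ hr => hZ.pos _ ((hg.section σ).trunc hr) _ (hh' σ)) ?_ ?_ ?_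
  · intro ρ₀ ν θ₀ κ
    have hg₃ := truncOp_HG (hg.reparam θ₀ κ) (Real.exp_pos ρ₀) ν
    have hc := hZ.conc _ hg₃ (fun e => h₀ e * Real.exp (τ e * θ₀)) (fun e => τ e * κ)
      (fun e => hh' θ₀ e)
    refine hc.congr ?_
    intro t _
    simp only
    congr 1
    have e1 : ∀ e, h₀ e * Real.exp (τ e * θ₀) * Real.exp (τ e * κ * t)
        = h₀ e * Real.exp (τ e * (θ₀ + κ * t)) := by
      intro e
      rw [mul_assoc, ← Real.exp_add]
      congr 2
      ring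
    simp only [e1]
    congr 1
    funext w
    simp only [truncOp]
    have e2 : Real.exp ρ₀ * Real.exp (ν * t) = Real.exp (ρ₀ + ν * t) := by
      rw [Real.exp_add]
    rw [e2]
  · intro r₁ r₂ σ h₁ h
    exact hZ.mono _ _ ((hg.section σ).trunc h₁) ((hg.section σ).trunc (lt_of_lt_of_le h₁ h))
      (fun w hw => hg.mono σ (lt_min hw h₁) (min_le_min_left _ h)) _ (hh' σ)
  · intro r₁ r₂ σ h₁ h
    have h₂ := lt_of_lt_of_le h₁ h
    have hc : 0 < r₂ / r₁ := by positivity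
    have hS := (hg.section σ).trunc h₁
    have h3 := hZ.mono _ _ ((hg.section σ).trunc h₂) (hS.const_mul hc) (fun w hw => by
      rw [div_mul_eq_mul_div, le_div_iff₀ h₁]
      have hmpos : 0 < min w r₁ := lt_min hw h₁
      have hmle : min w r₁ ≤ min w r₂ := min_le_min_left _ h
      have hsub := hg.sub σ hmpos hmle
      have hgpos := hg.pos _ σ hmpos
      have hm2 : min w r₂ * r₁ ≤ r₂ * min w r₁ := by
        rcases le_total w r₁ with h4 | h4
        · rw [min_eq_left h4, min_eq_left (h4.trans h)]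
          nlinarith
        · rw [min_eq_right h4]
          have := min_le_right w r₂
          nlinarith
      have hmm : 0 < min w r₁ := hmpos
      have h5 : g (min w r₂) σ * r₁ * min w r₁ ≤ r₂ * g (min w r₁) σ * min w r₁ := by
        have h6 : min w r₁ * g (min w r₂) σ * r₁ ≤ min w r₂ * g (min w r₁) σ * r₁ :=
          mul_le_mul_of_nonneg_right hsub h₁.le
        have h7 : min w r₂ * r₁ * g (min w r₁) σ ≤ r₂ * min w r₁ * g (min w r₁) σ :=
          mul_le_mul_of_nonneg_right hm2 hgpos.le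
        nlinarith
      exact le_of_mul_le_mul_right h5 hmm) _ (hh' σ)
    rw [hZ.hom _ hS _ hc _ (hh' σ)] at h3
    calc r₁ * Z.pair (fun w => g (min w r₂) σ) (fun e => h₀ e * Real.exp (τ e * σ))
        ≤ r₁ * (r₂ / r₁ * Z.pair (fun w => g (min w r₁) σ)
            (fun e => h₀ e * Real.exp (τ e * σ))) := mul_le_mul_of_nonneg_left h3 h₁.le
      _ = r₂ * Z.pair (fun w => g (min w r₁) σ) (fun e => h₀ e * Real.exp (τ e * σ)) := by
          rw [← mul_assoc]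
          congr 1
          field_simp

theorem NetGood.keyS₁ {Z : Net} (hZ : NetGood Z) {g : ℝ → ℝ} (hg : HG₁ g) {h : Z.Edge → ℝ}
    (hh : ∀ e, 0 < h e) : HG₁ (fun r => Z.pair (stepFun g r) h) := by
  have := hZ.keyS hg hh (fun _ => 0)
  simpa [HG₁] using this

theorem NetGood.keyM₁ {Z : Net} (hZ : NetGood Z) {g : ℝ → ℝ} (hg : HG₁ g) {h : Z.Edge → ℝ}
    (hh : ∀ e, 0 < h e) : HG₁ (fun r => Z.pair (fun w => g (min w r)) h) := by
  have := hZ.keyM hg hh (fun _ => 0)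
  simpa [HG₁] using this

theorem stepFun_le_of_HG₁ {g₁ g₂ : ℝ → ℝ} (h₁ : HG₁ g₁) (h₂ : HG₁ g₂) (hle : ∀ w, 0 < w → g₁ w ≤ g₂ w)
    {r w : ℝ} (hr : 0 < r) (hw : 0 < w) : stepFun g₁ r w ≤ stepFun g₂ r w := by
  have hab : |w - r| ≤ w + r := by
    rw [abs_le]; constructor <;> linarith
  have hi₁ : IntervalIntegrable g₁ volume |w - r| (w + r) :=
    HG.intervalIntegrable h₁ 0 (abs_nonneg _) hab
  have hi₂ : IntervalIntegrable g₂ volume |w - r| (w + r) :=
    HG.intervalIntegrable h₂ 0 (abs_nonneg _) hab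
  exact intervalIntegral.integral_mono_on_of_le_Ioo hab hi₁ hi₂ fun x hx =>
    hle x (lt_of_le_of_lt (abs_nonneg _) hx.1)

theorem stepFun_const_mul (g : ℝ → ℝ) (c r w : ℝ) :
    stepFun (fun u => c * g u) r w = c * stepFun g r w := by
  simp [stepFun]

/-- Every network has the good properties. -/
theorem netGood : ∀ Z : Net, NetGood Z
  | .edge => by
    refine ⟨fun g hg h hh => hg.pos (hh ()), fun g₁ g₂ _ _ hle h hh => hle _ (hh ()),
      fun g _ c _ h _ => rfl, fun g hg h₀ τ hh => ?_⟩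
    have h := hg.lc.line (Real.log (h₀ ())) (τ ()) 0 1
    refine h.congr ?_
    intro σ _
    simp only [Net.pair, zero_add, one_mul]
    rw [Real.exp_add, Real.exp_log (hh ())]
  | .series Z₁ Z₂ => by
    have hZ₁ := netGood Z₁
    have hZ₂ := netGood Z₂
    refine ⟨fun g hg h hh => ?_, fun g₁ g₂ h₁ h₂ hle h hh => ?_, fun g hg c hc h hh => ?_,
      fun g hg h₀ τ hh => ?_⟩
    · exact hZ₂.pos _ (hZ₁.keyS₁ hg fun e => hh (Sum.inl e)) _ fun e => hh (Sum.inr e)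
    · refine hZ₂.mono _ _ (hZ₁.keyS₁ h₁ fun e => hh (Sum.inl e))
        (hZ₁.keyS₁ h₂ fun e => hh (Sum.inl e)) (fun r hr => ?_) _ fun e => hh (Sum.inr e)
      exact hZ₁.mono _ _ (h₁.stepFun hr) (h₂.stepFun hr)
        (fun w hw => stepFun_le_of_HG₁ h₁ h₂ hle hr hw) _ fun e => hh (Sum.inl e)
    · have hS := hZ₁.keyS₁ hg (h := fun e => h (Sum.inl e)) fun e => hh (Sum.inl e)
      have hS' := hZ₁.keyS₁ (hg.const_mul hc) (h := fun e => h (Sum.inl e)) fun e => hh (Sum.inl e)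
      show Z₂.pair (fun r => Z₁.pair (stepFun (fun w => c * g w) r) fun e => h (Sum.inl e))
        (fun e => h (Sum.inr e)) = c * Z₂.pair (fun r => Z₁.pair (stepFun g r)
          fun e => h (Sum.inl e)) (fun e => h (Sum.inr e))
      rw [← hZ₂.hom _ hS c hc _ fun e => hh (Sum.inr e)]
      refine hZ₂.congr hS' (hS.const_mul hc) (fun r hr => ?_) fun e => hh (Sum.inr e)
      have e1 : stepFun (fun w => c * g w) r = fun w => c * stepFun g r w :=
        funext fun w => stepFun_const_mul g c r w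
      rw [e1]
      exact hZ₁.hom _ (hg.stepFun hr) c hc _ fun e => hh (Sum.inl e)
    · exact hZ₂.conc _ (hZ₁.keyS hg (fun e => hh (Sum.inl e)) fun e => τ (Sum.inl e))
        (fun e => h₀ (Sum.inr e)) (fun e => τ (Sum.inr e)) fun e => hh (Sum.inr e)
  | .parallel Z₁ Z₂ => by
    have hZ₁ := netGood Z₁
    have hZ₂ := netGood Z₂
    refine ⟨fun g hg h hh => ?_, fun g₁ g₂ h₁ h₂ hle h hh => ?_, fun g hg c hc h hh => ?_,
      fun g hg h₀ τ hh => ?_⟩
    · exact hZ₂.pos _ (hZ₁.keyM₁ hg fun e => hh (Sum.inl e)) _ fun e => hh (Sum.inr e)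
    · refine hZ₂.mono _ _ (hZ₁.keyM₁ h₁ fun e => hh (Sum.inl e))
        (hZ₁.keyM₁ h₂ fun e => hh (Sum.inl e)) (fun r hr => ?_) _ fun e => hh (Sum.inr e)
      exact hZ₁.mono _ _ (h₁.trunc hr) (h₂.trunc hr)
        (fun w hw => hle _ (lt_min hw hr)) _ fun e => hh (Sum.inl e)
    · have hS := hZ₁.keyM₁ hg (h := fun e => h (Sum.inl e)) fun e => hh (Sum.inl e)
      have hS' := hZ₁.keyM₁ (hg.const_mul hc) (h := fun e => h (Sum.inl e)) fun e => hh (Sum.inl e)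
      show Z₂.pair (fun r => Z₁.pair (fun w => c * g (min w r)) fun e => h (Sum.inl e))
        (fun e => h (Sum.inr e)) = c * Z₂.pair (fun r => Z₁.pair (fun w => g (min w r))
          fun e => h (Sum.inl e)) (fun e => h (Sum.inr e))
      rw [← hZ₂.hom _ hS c hc _ fun e => hh (Sum.inr e)]
      refine hZ₂.congr hS' (hS.const_mul hc) (fun r hr => ?_) fun e => hh (Sum.inr e)
      exact hZ₁.hom _ (hg.trunc hr) c hc _ fun e => hh (Sum.inl e)
    · exact hZ₂.conc _ (hZ₁.keyM hg (fun e => hh (Sum.inl e)) fun e => τ (Sum.inl e))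
        (fun e => h₀ (Sum.inr e)) (fun e => τ (Sum.inr e)) fun e => hh (Sum.inr e)

/-- The linear function `2 w` belongs to the class. -/
theorem twoW_HG₁ : HG₁ (fun w => 2 * w) := by
  have hlog : ∀ ρ, Real.log (2 * Real.exp ρ) = Real.log 2 + ρ := fun ρ => by
    rw [Real.log_mul (by norm_num) (Real.exp_pos _).ne', Real.log_exp]
  refine ⟨fun w _ hw => by positivity, ⟨convex_univ, ?_⟩, fun θ h => ?_, fun θ h => ?_⟩
  · intro p _ q _ a b ha hb hab
    simp only [smul_eq_mul, hlog, Prod.fst_add, Prod.smul_fst]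
    have hb' : a = 1 - b := by linarith
    rw [hb']
    apply le_of_eq
    ring
  · simp only [hlog]
    linarith
  · simp only [hlog]
    linarith

/-- Log-concavity of the pairing in the logarithms of the heights. -/
theorem Net.pair_logconcave (Z : Net) {g : ℝ → ℝ} (hg : HG₁ g) {h₀ h₁ : Z.Edge → ℝ}
    (hh₀ : ∀ e, 0 < h₀ e) (hh₁ : ∀ e, 0 < h₁ e) {lam : ℝ} (h0 : 0 ≤ lam) (h1 : lam ≤ 1) :
    Z.pair g h₀ ^ (1 - lam) * Z.pair g h₁ ^ lam
      ≤ Z.pair g (fun e => h₀ e ^ (1 - lam) * h₁ e ^ lam) := by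
  have hZ := netGood Z
  have hc := hZ.conc (fun w _ => g w) hg h₀ (fun e => Real.log (h₁ e) - Real.log (h₀ e)) hh₀
  have h := hc.2 (mem_univ (0 : ℝ)) (mem_univ (1 : ℝ)) (sub_nonneg.2 h1) h0 (by ring)
  simp only [smul_eq_mul, mul_zero, mul_one, zero_add, Real.exp_zero] at h
  have e1 : ∀ e, h₀ e * Real.exp (Real.log (h₁ e) - Real.log (h₀ e)) = h₁ e := by
    intro e
    rw [Real.exp_sub, Real.exp_log (hh₁ e), Real.exp_log (hh₀ e)]
    field_simp [(hh₀ e).ne']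
  have e2 : ∀ e, h₀ e * Real.exp ((Real.log (h₁ e) - Real.log (h₀ e)) * lam)
      = h₀ e ^ (1 - lam) * h₁ e ^ lam := fun e => exp_interp (hh₀ e) (hh₁ e) lam
  simp only [e1, e2] at h
  have hp0 := hZ.pos g hg h₀ hh₀
  have hp1 := hZ.pos g hg h₁ hh₁
  have hp2 := hZ.pos g hg (fun e => h₀ e ^ (1 - lam) * h₁ e ^ lam) fun e =>
    mul_pos (Real.rpow_pos_of_pos (hh₀ e) _) (Real.rpow_pos_of_pos (hh₁ e) _)
  calc Z.pair g h₀ ^ (1 - lam) * Z.pair g h₁ ^ lam
      = Real.exp (Real.log (Z.pair g h₀) * (1 - lam) + Real.log (Z.pair g h₁) * lam) := by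
        rw [Real.rpow_def_of_pos hp0, Real.rpow_def_of_pos hp1, ← Real.exp_add]
    _ ≤ Real.exp (Real.log (Z.pair g fun e => h₀ e ^ (1 - lam) * h₁ e ^ lam)) :=
        Real.exp_le_exp.2 (by linarith)
    _ = _ := Real.exp_log hp2

end Vale.Agent.Lib.P227
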