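import Mathlib
import Vale.Agent.Lib.P227.Net

/-!
The iterated pairing of a network as an integral against the density of the terminal difference.
-/

namespace Vale.Agent.Lib.P227

open Set Filter MeasureTheory

/-- The density of the difference of the potentials at the terminals. -/
noncomputable def Net.den : (Z : Net) → (Z.Edge → ℝ) → ℝ → ℝ
  | .edge, h, t => if |t| ≤ h () then 1 else 0
  | .series Z₁ Z₂, h, t =>
      ∫ s, Z₁.den (fun e => h (Sum.inl e)) s * Z₂.den (fun e => h (Sum.inr e)) (t - s)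
  | .parallel Z₁ Z₂, h, t =>
      Z₁.den (fun e => h (Sum.inl e)) t * Z₂.den (fun e => h (Sum.inr e)) t

/-- Regularity of densities. -/
structure DenOK (f : ℝ → ℝ) : Prop where
  meas : Measurable f
  even : ∀ t, f (-t) = f t
  nonneg : ∀ t, 0 ≤ f t
  bdd : ∃ C, ∀ t, f t ≤ C
  supp : ∃ T, ∀ t, T < |t| → f t = 0

theorem DenOK.integrable {f : ℝ → ℝ} (hf : DenOK f) : Integrable f := by
  obtain ⟨C, hC⟩ := hf.bdd
  obtain ⟨T, hT⟩ := hf.supp
  have h1 : IntegrableOn f (Icc (-T) T) := by
    refine Measure.integrableOn_of_bounded (M := C) (by simp) hf.meas.aestronglyMeasurable ?_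
    exact Eventually.of_forall fun t => by
      rw [Real.norm_of_nonneg (hf.nonneg t)]
      exact hC t
  refine h1.integrable_of_forall_notMem_eq_zero fun t ht => hT t ?_
  by_contra hle
  push Not at hle
  exact ht (abs_le.mp hle)

theorem integrable_mul_of_bdd {f ψ : ℝ → ℝ} (hf : Integrable f) (hψ : Measurable ψ) {C : ℝ}
    (hC : ∀ t, |ψ t| ≤ C) : Integrable (fun t => ψ t * f t) := by
  refine hf.bdd_mul (c := C) hψ.aestronglyMeasurable (Eventually.of_forall fun t => ?_)
  simpa using hC t

theorem DenOK.conv {f g : ℝ → ℝ} (hf : DenOK f) (hg : DenOK g) :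
    DenOK (fun t => ∫ s, f s * g (t - s)) := by
  obtain ⟨Cf, hCf⟩ := hf.bdd
  obtain ⟨Cg, hCg⟩ := hg.bdd
  obtain ⟨Tf, hTf⟩ := hf.supp
  obtain ⟨Tg, hTg⟩ := hg.supp
  have hgm : ∀ t, Measurable (fun s => g (t - s)) := fun t => hg.meas.comp (by fun_prop)
  have hint : ∀ t, Integrable (fun s => f s * g (t - s)) := by
    intro t
    have h := integrable_mul_of_bdd (ψ := fun s => g (t - s)) hf.integrable (hgm t)
      (C := Cg) (fun s => by
        rw [abs_of_nonneg (hg.nonneg _)]
        exact hCg _)
    simpa [mul_comm] using h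
  refine ⟨?_, ?_, ?_, ?_, ?_⟩
  · have hm : Measurable (fun p : ℝ × ℝ => f p.2 * g (p.1 - p.2)) :=
      (hf.meas.comp measurable_snd).mul (hg.meas.comp (by fun_prop))
    exact (hm.stronglyMeasurable.integral_prod_right' (ν := volume)).measurable
  · intro t
    show ∫ s, f s * g (-t - s) = ∫ s, f s * g (t - s)
    rw [← integral_neg_eq_self]
    refine integral_congr_ae (Eventually.of_forall fun s => ?_)
    simp only
    rw [hf.even, ← hg.even (t - s)]
    congr 2
    ring
  · intro t
    exact integral_nonneg fun s => mul_nonneg (hf.nonneg s) (hg.nonneg _)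
  · refine ⟨(∫ s, f s) * Cg, fun t => ?_⟩
    rw [← integral_mul_const]
    refine integral_mono (hint t) (hf.integrable.mul_const _) fun s => ?_
    exact mul_le_mul_of_nonneg_left (hCg _) (hf.nonneg s)
  · refine ⟨|Tf| + |Tg|, fun t ht => ?_⟩
    have h0 : ∀ s, f s * g (t - s) = 0 := by
      intro s
      by_cases hs : Tf < |s|
      · rw [hTf s hs, zero_mul]
      · have : Tg < |t - s| := by
          push Not at hs
          have h1 : |t| ≤ |t - s| + |s| := by
            have := abs_add_le (t - s) s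
            simpa using this
          have h2 := le_abs_self Tf
          have h3 := le_abs_self Tg
          by_contra hcon
          push Not at hcon
          have h4 : |Tg| = |Tg| := rfl
          have h5 : |t - s| ≤ |Tg| := hcon.trans h3
          have h6 : |s| ≤ |Tf| := hs.trans h2
          linarith
        rw [hTg _ this, mul_zero]
    simp [h0]

theorem DenOK.mul {f g : ℝ → ℝ} (hf : DenOK f) (hg : DenOK g) : DenOK (fun t => f t * g t) := by
  obtain ⟨Cf, hCf⟩ := hf.bdd
  obtain ⟨Cg, hCg⟩ := hg.bdd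
  obtain ⟨Tf, hTf⟩ := hf.supp
  refine ⟨hf.meas.mul hg.meas, fun t => by simp only [hf.even, hg.even],
    fun t => mul_nonneg (hf.nonneg t) (hg.nonneg t), ⟨Cf * Cg, fun t => ?_⟩,
    ⟨Tf, fun t ht => by simp [hTf t ht]⟩⟩
  have h1 := hCf t
  have h2 := hCg t
  have h3 := hf.nonneg t
  have h4 := hg.nonneg t
  exact mul_le_mul h1 h2 h4 (h3.trans h1)

theorem Net.den_ok : (Z : Net) → (h : Z.Edge → ℝ) → DenOK (Z.den h)
  | .edge, h => by
      have hm : MeasurableSet {t : ℝ | |t| ≤ h ()} :=
        measurableSet_le (by fun_prop) (by fun_prop)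
      refine ⟨?_, ?_, ?_, ⟨1, ?_⟩, ⟨h (), ?_⟩⟩
      · exact Measurable.ite hm measurable_const measurable_const
      · intro t
        simp [Net.den]
      · intro t
        simp only [Net.den]
        split_ifs <;> norm_num
      · intro t
        simp only [Net.den]
        split_ifs <;> norm_num
      · intro t ht
        simp only [Net.den]
        rw [if_neg (not_le.mpr ht)]
  | .series Z₁ Z₂, h => by
      have h1 := Net.den_ok Z₁ (fun e => h (Sum.inl e))
      have h2 := Net.den_ok Z₂ (fun e => h (Sum.inr e))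
      exact h1.conv h2
  | .parallel Z₁ Z₂, h => by
      have h1 := Net.den_ok Z₁ (fun e => h (Sum.inl e))
      have h2 := Net.den_ok Z₂ (fun e => h (Sum.inr e))
      exact h1.mul h2

/-- The test functions. -/
structure PsiOK (ψ : ℝ → ℝ) : Prop where
  meas : Measurable ψ
  even : ∀ t, ψ (-t) = ψ t
  bdd : ∃ C, ∀ t, |ψ t| ≤ C

/-- Integral over a symmetric interval. -/
noncomputable def gPsi (ψ : ℝ → ℝ) (w : ℝ) : ℝ := ∫ t in -w..w, ψ t

theorem Net.pair_congr : (Z : Net) → {g₁ g₂ : ℝ → ℝ} → (∀ w, 0 < w → g₁ w = g₂ w) →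
    (h : Z.Edge → ℝ) → (∀ e, 0 < h e) → Z.pair g₁ h = Z.pair g₂ h
  | .edge, _, _, hg, h, hh => hg _ (hh ())
  | .series Z₁ Z₂, g₁, g₂, hg, h, hh => by
      simp only [Net.pair]
      refine Net.pair_congr Z₂ (fun r hr => ?_) _ (fun e => hh _)
      refine Net.pair_congr Z₁ (fun w hw => ?_) _ (fun e => hh _)
      simp only [stepFun]
      have hle : |w - r| ≤ w + r := abs_sub_le_iff.mpr ⟨by linarith, by linarith⟩
      rw [intervalIntegral.integral_of_le hle, intervalIntegral.integral_of_le hle]
      refine setIntegral_congr_fun measurableSet_Ioc fun u hu => hg u ?_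
      exact (abs_nonneg _).trans_lt hu.1
  | .parallel Z₁ Z₂, g₁, g₂, hg, h, hh => by
      simp only [Net.pair]
      refine Net.pair_congr Z₂ (fun r hr => ?_) _ (fun e => hh _)
      refine Net.pair_congr Z₁ (fun w hw => ?_) _ (fun e => hh _)
      exact hg _ (lt_min hw hr)

end Vale.Agent.Lib.P227
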