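import Mathlib
import Vale.Agent.Lib.P227.NetInt

/-!
The main identity: the iterated pairing is the integral against the density.
-/

namespace Vale.Agent.Lib.P227

open Set Filter MeasureTheory

theorem PsiOK.ii {ψ : ℝ → ℝ} (hψ : PsiOK ψ) (a b : ℝ) : IntervalIntegrable ψ volume a b := by
  obtain ⟨C, hC⟩ := hψ.bdd
  rw [intervalIntegrable_iff]
  refine Measure.integrableOn_of_bounded (M := C) (by simp) hψ.meas.aestronglyMeasurable ?_
  exact Eventually.of_forall fun t => by simpa using hC t

/-- The primitive of a test function. -/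
noncomputable def primPsi (ψ : ℝ → ℝ) (t : ℝ) : ℝ := ∫ x in (0:ℝ)..t, ψ x

theorem PsiOK.prim_cont {ψ : ℝ → ℝ} (hψ : PsiOK ψ) : Continuous (primPsi ψ) :=
  intervalIntegral.continuous_primitive hψ.ii 0

theorem PsiOK.prim_odd {ψ : ℝ → ℝ} (hψ : PsiOK ψ) (t : ℝ) : primPsi ψ (-t) = - primPsi ψ t := by
  simp only [primPsi]
  have h1 : ∫ x in (0:ℝ)..t, ψ x = ∫ x in (0:ℝ)..t, ψ (-x) :=
    intervalIntegral.integral_congr fun x _ => (hψ.even x).symm
  rw [h1, intervalIntegral.integral_comp_neg, neg_zero,
    intervalIntegral.integral_symm]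

theorem PsiOK.interval_eq {ψ : ℝ → ℝ} (hψ : PsiOK ψ) (a b : ℝ) :
    ∫ x in a..b, ψ x = primPsi ψ b - primPsi ψ a := by
  simp only [primPsi]
  rw [intervalIntegral.integral_interval_sub_left (hψ.ii _ _) (hψ.ii _ _)]

theorem PsiOK.gPsi_eq {ψ : ℝ → ℝ} (hψ : PsiOK ψ) (u : ℝ) : gPsi ψ u = 2 * primPsi ψ u := by
  simp only [gPsi]
  rw [hψ.interval_eq, hψ.prim_odd]
  ring

/-- Sliding averages of a test function. -/
noncomputable def slide (ψ : ℝ → ℝ) (r s : ℝ) : ℝ := ∫ x in -r..r, ψ (x + s)

theorem PsiOK.slide_eq {ψ : ℝ → ℝ} (hψ : PsiOK ψ) (r s : ℝ) :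
    slide ψ r s = primPsi ψ (s + r) - primPsi ψ (s - r) := by
  simp only [slide]
  rw [intervalIntegral.integral_comp_add_right (fun x => ψ x), hψ.interval_eq]
  congr 2 <;> ring

theorem PsiOK.slide_ok {ψ : ℝ → ℝ} (hψ : PsiOK ψ) (r : ℝ) : PsiOK (slide ψ r) := by
  obtain ⟨C, hC⟩ := hψ.bdd
  refine ⟨?_, ?_, ⟨C * |r - (-r)|, fun s => ?_⟩⟩
  · have : slide ψ r = fun s => primPsi ψ (s + r) - primPsi ψ (s - r) := by
      funext s
      exact hψ.slide_eq r s
    rw [this]
    have hc := hψ.prim_cont
    exact (by fun_prop : Continuous fun s => primPsi ψ (s + r) - primPsi ψ (s - r)).measurable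
  · intro s
    rw [hψ.slide_eq, hψ.slide_eq]
    have h1 : -s + r = -(s - r) := by ring
    have h2 : -s - r = -(s + r) := by ring
    rw [h1, h2, hψ.prim_odd, hψ.prim_odd]
    ring
  · simp only [slide]
    have := intervalIntegral.norm_integral_le_of_norm_le_const (a := -r) (b := r)
      (f := fun x => ψ (x + s)) (C := C) (fun x _ => by simpa using hC (x + s))
    simpa using this

theorem PsiOK.integral_prim_symm {ψ : ℝ → ℝ} (hψ : PsiOK ψ) (a : ℝ) :
    ∫ u in -a..a, primPsi ψ u = 0 := by
  have h1 : ∫ u in -a..a, primPsi ψ u = ∫ u in -a..a, - primPsi ψ (-u) := by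
    refine intervalIntegral.integral_congr fun u _ => ?_
    show primPsi ψ u = - primPsi ψ (-u)
    rw [hψ.prim_odd, neg_neg]
  have h2 : ∫ u in -a..a, primPsi ψ (-u) = ∫ u in -a..a, primPsi ψ u := by
    rw [intervalIntegral.integral_comp_neg, neg_neg]
  rw [intervalIntegral.integral_neg, h2] at h1
  linarith

theorem PsiOK.step_gPsi {ψ : ℝ → ℝ} (hψ : PsiOK ψ) (r w : ℝ) :
    stepFun (gPsi ψ) r w = gPsi (slide ψ r) w := by
  have hc := hψ.prim_cont
  have hii : ∀ a b, IntervalIntegrable (primPsi ψ) volume a b := fun a b =>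
    hc.intervalIntegrable a b
  have e1 : gPsi (slide ψ r) w = 2 * ∫ u in (r - w)..(w + r), primPsi ψ u := by
    simp only [gPsi]
    have : ∀ s ∈ uIcc (-w) w, slide ψ r s = primPsi ψ (s + r) - primPsi ψ (s - r) :=
      fun s _ => hψ.slide_eq r s
    have hA : IntervalIntegrable (fun x => primPsi ψ (x + r)) volume (-w) w :=
      (hc.comp (continuous_id.add continuous_const)).intervalIntegrable _ _
    have hB : IntervalIntegrable (fun x => primPsi ψ (x - r)) volume (-w) w :=
      (hc.comp (continuous_id.sub continuous_const)).intervalIntegrable _ _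
    rw [intervalIntegral.integral_congr this,
      intervalIntegral.integral_sub hA hB,
      intervalIntegral.integral_comp_add_right (primPsi ψ),
      intervalIntegral.integral_comp_sub_right (primPsi ψ)]
    have h1 : ∫ u in (-w - r)..(w - r), primPsi ψ u
        = ∫ u in (-w - r)..(w - r), - primPsi ψ (-u) := by
      refine intervalIntegral.integral_congr fun u _ => ?_
      show primPsi ψ u = - primPsi ψ (-u)
      rw [hψ.prim_odd, neg_neg]
    rw [h1, intervalIntegral.integral_neg, intervalIntegral.integral_comp_neg]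
    have h2 : -(w - r) = r - w := by ring
    have h3 : -(-w - r) = w + r := by ring
    have h4 : -w + r = r - w := by ring
    rw [h2, h3, h4]
    ring
  have e2 : stepFun (gPsi ψ) r w = 2 * ∫ u in |w - r|..(w + r), primPsi ψ u := by
    simp only [stepFun]
    rw [← intervalIntegral.integral_const_mul]
    exact intervalIntegral.integral_congr fun u _ => hψ.gPsi_eq u
  rw [e1, e2]
  congr 1
  by_cases hwr : w - r ≤ 0
  · rw [abs_of_nonpos hwr]
    congr 1
    ring
  · push Not at hwr
    rw [abs_of_pos hwr]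
    have h0 := hψ.integral_prim_symm (w - r)
    have h2 := intervalIntegral.integral_add_adjacent_intervals (hii (-(w - r)) (w - r))
      (hii (w - r) (w + r))
    have h3 : -(w - r) = r - w := by ring
    rw [h3] at h2 h0
    rw [← h2, h0, zero_add]

/-- Averaging a test function against a density. -/
noncomputable def against (ψ f : ℝ → ℝ) (x : ℝ) : ℝ := ∫ s, ψ (x + s) * f s

theorem PsiOK.against_ok {ψ f : ℝ → ℝ} (hψ : PsiOK ψ) (hf : DenOK f) : PsiOK (against ψ f) := by
  obtain ⟨C, hC⟩ := hψ.bdd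
  refine ⟨?_, ?_, ⟨C * ∫ s, f s, fun x => ?_⟩⟩
  · have hm : Measurable (fun p : ℝ × ℝ => ψ (p.1 + p.2) * f p.2) :=
      (hψ.meas.comp (by fun_prop)).mul (hf.meas.comp measurable_snd)
    exact (hm.stronglyMeasurable.integral_prod_right' (ν := volume)).measurable
  · intro x
    simp only [against]
    rw [← integral_neg_eq_self]
    refine integral_congr_ae (Eventually.of_forall fun s => ?_)
    simp only
    rw [hf.even, ← hψ.even (x + s)]
    congr 2
    ring
  · simp only [against]
    have hb : ∀ s, ‖ψ (x + s) * f s‖ ≤ C * f s := by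
      intro s
      rw [Real.norm_eq_abs, abs_mul, abs_of_nonneg (hf.nonneg s)]
      exact mul_le_mul_of_nonneg_right (hC _) (hf.nonneg s)
    have := norm_integral_le_of_norm_le (hf.integrable.const_mul C)
      (Eventually.of_forall hb)
    rw [integral_const_mul] at this
    simpa using this

theorem PsiOK.mul_den_ok {ψ f : ℝ → ℝ} (hψ : PsiOK ψ) (hf : DenOK f) :
    PsiOK (fun t => ψ t * f t) := by
  obtain ⟨C, hC⟩ := hψ.bdd
  obtain ⟨C', hC'⟩ := hf.bdd
  refine ⟨hψ.meas.mul hf.meas, fun t => by simp only [hψ.even, hf.even], ⟨C * C', fun t => ?_⟩⟩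
  rw [abs_mul, abs_of_nonneg (hf.nonneg t)]
  exact mul_le_mul (hC t) (hC' t) (hf.nonneg t) ((abs_nonneg _).trans (hC t))

theorem PsiOK.trunc_ok {ψ : ℝ → ℝ} (hψ : PsiOK ψ) (r : ℝ) :
    PsiOK ((Icc (-r) r).indicator ψ) := by
  obtain ⟨C, hC⟩ := hψ.bdd
  have hC0 : 0 ≤ C := (abs_nonneg _).trans (hC 0)
  refine ⟨hψ.meas.indicator measurableSet_Icc, fun t => ?_, ⟨C, fun t => ?_⟩⟩
  · by_cases ht : t ∈ Icc (-r) r
    · have ht' : -t ∈ Icc (-r) r := ⟨by linarith [ht.2], by linarith [ht.1]⟩
      rw [indicator_of_mem ht, indicator_of_mem ht', hψ.even]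
    · have ht' : -t ∉ Icc (-r) r := fun h => ht ⟨by linarith [h.2], by linarith [h.1]⟩
      rw [indicator_of_notMem ht, indicator_of_notMem ht']
  · by_cases ht : t ∈ Icc (-r) r
    · rw [indicator_of_mem ht]
      exact hC t
    · rw [indicator_of_notMem ht]
      simpa using hC0

theorem PsiOK.gPsi_trunc {ψ : ℝ → ℝ} {r w : ℝ} (hr : 0 < r) (hw : 0 < w) :
    gPsi ((Icc (-r) r).indicator ψ) w = gPsi ψ (min w r) := by
  simp only [gPsi]
  rw [intervalIntegral.integral_of_le (by linarith),
    intervalIntegral.integral_of_le (by have := lt_min hw hr; linarith),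
    setIntegral_indicator measurableSet_Icc]
  rcases le_or_gt w r with hwr | hwr
  · rw [min_eq_left hwr]
    congr 2
    ext t
    constructor
    · exact fun h => h.1
    · exact fun h => ⟨h, by linarith [h.1], by linarith [h.2]⟩
  · rw [min_eq_right hwr.le, ← integral_Icc_eq_integral_Ioc]
    congr 2
    ext t
    constructor
    · exact fun h => h.2
    · exact fun h => ⟨⟨by linarith [h.1], by linarith [h.2]⟩, h⟩

theorem slide_swap {ψ f : ℝ → ℝ} (hψ : PsiOK ψ) (hf : DenOK f) {r : ℝ} (hr : 0 ≤ r) :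
    ∫ s, slide ψ r s * f s = gPsi (against ψ f) r := by
  obtain ⟨C, hC⟩ := hψ.bdd
  have hle : -r ≤ r := by linarith
  simp only [slide, gPsi, against]
  rw [intervalIntegral.integral_of_le hle]
  have e : ∀ s, (∫ x in -r..r, ψ (x + s)) * f s = ∫ x in Ioc (-r) r, ψ (x + s) * f s := by
    intro s
    rw [intervalIntegral.integral_of_le hle, integral_mul_const]
  simp_rw [e]
  refine integral_integral_swap (f := fun s x => ψ (x + s) * f s) ?_
  have hb : Integrable (fun z : ℝ × ℝ => f z.1 * C)
      ((volume : Measure ℝ).prod (volume.restrict (Ioc (-r) r))) :=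
    hf.integrable.mul_prod (integrable_const C)
  refine hb.mono' ?_ (Eventually.of_forall fun z => ?_)
  · exact ((hψ.meas.comp (by fun_prop)).mul (hf.meas.comp measurable_fst)).aestronglyMeasurable
  · simp only [Function.uncurry]
    rw [Real.norm_eq_abs, abs_mul, abs_of_nonneg (hf.nonneg _), mul_comm]
    exact mul_le_mul_of_nonneg_left (hC _) (hf.nonneg _)

theorem against_den {ψ f g : ℝ → ℝ} (hψ : PsiOK ψ) (hf : DenOK f) (hg : DenOK g) :
    ∫ x, against ψ f x * g x = ∫ t, ψ t * ∫ s, f s * g (t - s) := by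
  obtain ⟨C, hC⟩ := hψ.bdd
  simp only [against]
  have e1 : ∀ x, (∫ s, ψ (x + s) * f s) * g x = ∫ s, ψ (x + s) * f s * g x := fun x =>
    (integral_mul_const _ _).symm
  simp_rw [e1]
  have s1 : Integrable (Function.uncurry fun x s => ψ (x + s) * f s * g x)
      ((volume : Measure ℝ).prod (volume : Measure ℝ)) := by
    have hb : Integrable (fun z : ℝ × ℝ => (C * g z.1) * f z.2)
        ((volume : Measure ℝ).prod (volume : Measure ℝ)) :=
      (hg.integrable.const_mul C).mul_prod hf.integrable
    refine hb.mono' ?_ (Eventually.of_forall fun z => ?_)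
    · exact (((hψ.meas.comp (by fun_prop)).mul (hf.meas.comp measurable_snd)).mul
        (hg.meas.comp measurable_fst)).aestronglyMeasurable
    · simp only [Function.uncurry]
      rw [Real.norm_eq_abs, abs_mul, abs_mul, abs_of_nonneg (hf.nonneg _),
        abs_of_nonneg (hg.nonneg _)]
      have h1 := hC (z.1 + z.2)
      have h2 := hf.nonneg z.2
      have h3 := hg.nonneg z.1
      nlinarith [mul_nonneg h2 h3, mul_le_mul_of_nonneg_right h1 (mul_nonneg h2 h3)]
  rw [integral_integral_swap s1]
  have e2 : ∀ s, ∫ x, ψ (x + s) * f s * g x = ∫ t, ψ t * (f s * g (t - s)) := by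
    intro s
    rw [← integral_sub_right_eq_self (fun x => ψ (x + s) * f s * g x) s]
    refine integral_congr_ae (Eventually.of_forall fun t => ?_)
    simp only [sub_add_cancel]
    ring
  simp_rw [e2]
  have s2 : Integrable (Function.uncurry fun s t => ψ t * (f s * g (t - s)))
      ((volume : Measure ℝ).prod (volume : Measure ℝ)) := by
    have hconv : Integrable (fun p : ℝ × ℝ => f p.2 * g (p.1 - p.2))
        ((volume : Measure ℝ).prod (volume : Measure ℝ)) :=
      hf.integrable.convolution_integrand (ContinuousLinearMap.mul ℝ ℝ) hg.integrable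
    have hsw := hconv.swap
    refine (hsw.const_mul C).mono' ?_ (Eventually.of_forall fun z => ?_)
    · exact ((hψ.meas.comp measurable_snd).mul ((hf.meas.comp measurable_fst).mul
        (hg.meas.comp (by fun_prop)))).aestronglyMeasurable
    · simp only [Function.uncurry, Function.comp, Prod.fst_swap, Prod.snd_swap]
      rw [Real.norm_eq_abs, abs_mul, abs_mul, abs_of_nonneg (hf.nonneg _),
        abs_of_nonneg (hg.nonneg _)]
      exact mul_le_mul_of_nonneg_right (hC _) (mul_nonneg (hf.nonneg _) (hg.nonneg _))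
  rw [integral_integral_swap s2]
  refine integral_congr_ae (Eventually.of_forall fun t => ?_)
  simp only
  rw [integral_const_mul]

/-- The main identity. -/
theorem Net.pair_eq_integral : (Z : Net) → (ψ : ℝ → ℝ) → PsiOK ψ → (h : Z.Edge → ℝ) →
    (∀ e, 0 < h e) → Z.pair (gPsi ψ) h = ∫ t, ψ t * Z.den h t
  | .edge, ψ, hψ, h, hh => by
      have h0 := hh ()
      simp only [Net.pair, Net.den, gPsi]
      have e : ∀ t, ψ t * (if |t| ≤ h () then 1 else 0) = (Icc (-h ()) (h ())).indicator ψ t := by
        intro t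
        by_cases ht : |t| ≤ h ()
        · have hm : t ∈ Icc (-h ()) (h ()) := abs_le.mp ht
          rw [if_pos ht, indicator_of_mem hm, mul_one]
        · have hm : t ∉ Icc (-h ()) (h ()) := fun hm => ht (abs_le.mpr hm)
          rw [if_neg ht, indicator_of_notMem hm, mul_zero]
      simp_rw [e]
      rw [integral_indicator measurableSet_Icc, integral_Icc_eq_integral_Ioc,
        intervalIntegral.integral_of_le (by linarith)]
  | .parallel Z₁ Z₂, ψ, hψ, h, hh => by
      have hf₁ := Z₁.den_ok (fun e => h (Sum.inl e))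
      have hf₂ := Z₂.den_ok (fun e => h (Sum.inr e))
      simp only [Net.pair, Net.den]
      have key : ∀ r, 0 < r → Z₁.pair (fun w => gPsi ψ (min w r)) (fun e => h (Sum.inl e))
          = gPsi (fun t => ψ t * Z₁.den (fun e => h (Sum.inl e)) t) r := by
        intro r hr
        have e1 : Z₁.pair (fun w => gPsi ψ (min w r)) (fun e => h (Sum.inl e))
            = Z₁.pair (gPsi ((Icc (-r) r).indicator ψ)) (fun e => h (Sum.inl e)) :=
          Z₁.pair_congr (fun w hw => (PsiOK.gPsi_trunc hr hw).symm) _ (fun e => hh _)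
        rw [e1, Net.pair_eq_integral Z₁ _ (hψ.trunc_ok r) (fun e => h (Sum.inl e)) (fun e => hh _)]
        simp only [gPsi]
        rw [intervalIntegral.integral_of_le (by linarith), ← integral_Icc_eq_integral_Ioc,
          ← integral_indicator measurableSet_Icc]
        refine integral_congr_ae (Eventually.of_forall fun t => ?_)
        by_cases ht : t ∈ Icc (-r) r
        · simp [indicator_of_mem ht]
        · simp [indicator_of_notMem ht]
      rw [Z₂.pair_congr key (fun e => h (Sum.inr e)) (fun e => hh _),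
        Net.pair_eq_integral Z₂ _ (hψ.mul_den_ok hf₁) (fun e => h (Sum.inr e)) (fun e => hh _)]
      refine integral_congr_ae (Eventually.of_forall fun t => ?_)
      simp only
      ring
  | .series Z₁ Z₂, ψ, hψ, h, hh => by
      have hf₁ := Z₁.den_ok (fun e => h (Sum.inl e))
      have hf₂ := Z₂.den_ok (fun e => h (Sum.inr e))
      simp only [Net.pair, Net.den]
      have key : ∀ r, 0 < r → Z₁.pair (stepFun (gPsi ψ) r) (fun e => h (Sum.inl e))
          = gPsi (against ψ (Z₁.den (fun e => h (Sum.inl e)))) r := by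
        intro r hr
        have e1 : Z₁.pair (stepFun (gPsi ψ) r) (fun e => h (Sum.inl e))
            = Z₁.pair (gPsi (slide ψ r)) (fun e => h (Sum.inl e)) :=
          Z₁.pair_congr (fun w _ => hψ.step_gPsi r w) _ (fun e => hh _)
        rw [e1, Net.pair_eq_integral Z₁ _ (hψ.slide_ok r) (fun e => h (Sum.inl e)) (fun e => hh _)]
        exact slide_swap hψ hf₁ hr.le
      rw [Z₂.pair_congr key (fun e => h (Sum.inr e)) (fun e => hh _),
        Net.pair_eq_integral Z₂ _ (hψ.against_ok hf₁) (fun e => h (Sum.inr e)) (fun e => hh _)]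
      exact against_den hψ hf₁ hf₂

theorem psiOK_one : PsiOK (fun _ => (1:ℝ)) :=
  ⟨measurable_const, fun _ => rfl, ⟨1, fun _ => by simp⟩⟩

theorem gPsi_one (w : ℝ) : gPsi (fun _ => (1:ℝ)) w = 2 * w := by
  simp [gPsi]
  ring

/-- The total mass of the density is the iterated pairing of `2 w`. -/
theorem Net.pair_two (Z : Net) (h : Z.Edge → ℝ) (hh : ∀ e, 0 < h e) :
    Z.pair (fun w => 2 * w) h = ∫ t, Z.den h t := by
  have e : (fun w : ℝ => 2 * w) = gPsi (fun _ => (1:ℝ)) := by
    funext w
    exact (gPsi_one w).symm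
  rw [e, Z.pair_eq_integral _ psiOK_one h hh]
  simp

end Vale.Agent.Lib.P227
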