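import Mathlib
import Vale.Agent.Lib.P227.NetInt2

/-!
The polytopes attached to series-parallel networks: potentials on the vertices with the
differences along the edges bounded by the heights.
-/

namespace Vale.Agent.Lib.P227

open Set Filter MeasureTheory

/-- Section of the polytope at prescribed potentials of the terminals. -/
def Net.sec (Z : Net) (h : Z.Edge → ℝ) (u v : ℝ) : Set (Z.Inner → ℝ) :=
  {y | ∀ e, |Z.diff e u v y| ≤ h e}

theorem Net.diff_add : (Z : Net) → (e : Z.Edge) → (u v c : ℝ) → (y : Z.Inner → ℝ) →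
    Z.diff e (u + c) (v + c) (fun i => y i + c) = Z.diff e u v y
  | .edge, _, u, v, c, _ => by simp [Net.diff]
  | .series Z₁ _, Sum.inl e, u, v, c, y => by
      simp only [Net.diff]
      exact Net.diff_add Z₁ e u _ c _
  | .series _ Z₂, Sum.inr e, u, v, c, y => by
      simp only [Net.diff]
      exact Net.diff_add Z₂ e _ v c _
  | .parallel Z₁ _, Sum.inl e, u, v, c, y => by
      simp only [Net.diff]
      exact Net.diff_add Z₁ e u v c _
  | .parallel _ Z₂, Sum.inr e, u, v, c, y => by
      simp only [Net.diff]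
      exact Net.diff_add Z₂ e u v c _

theorem Net.diff_neg : (Z : Net) → (e : Z.Edge) → (u v : ℝ) → (y : Z.Inner → ℝ) →
    Z.diff e (-u) (-v) (fun i => - y i) = - Z.diff e u v y
  | .edge, _, u, v, _ => by
      simp only [Net.diff]
      ring
  | .series Z₁ _, Sum.inl e, u, v, y => by
      simp only [Net.diff]
      exact Net.diff_neg Z₁ e u _ _
  | .series _ Z₂, Sum.inr e, u, v, y => by
      simp only [Net.diff]
      exact Net.diff_neg Z₂ e _ v _
  | .parallel Z₁ _, Sum.inl e, u, v, y => by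
      simp only [Net.diff]
      exact Net.diff_neg Z₁ e u v _
  | .parallel _ Z₂, Sum.inr e, u, v, y => by
      simp only [Net.diff]
      exact Net.diff_neg Z₂ e u v _

theorem Net.diff_continuous : (Z : Net) → (e : Z.Edge) →
    Continuous (fun q : ℝ × ℝ × (Z.Inner → ℝ) => Z.diff e q.1 q.2.1 q.2.2)
  | .edge, _ => by
      simp only [Net.diff]
      fun_prop
  | .series Z₁ _, Sum.inl e => by
      simp only [Net.diff]
      have h := Net.diff_continuous Z₁ e
      refine h.comp (f := fun q : ℝ × ℝ × ((Unit ⊕ (_ ⊕ _)) → ℝ) =>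
        (q.1, q.2.2 (Sum.inl ()), fun i => q.2.2 (Sum.inr (Sum.inl i)))) ?_
      fun_prop
  | .series _ Z₂, Sum.inr e => by
      simp only [Net.diff]
      have h := Net.diff_continuous Z₂ e
      refine h.comp (f := fun q : ℝ × ℝ × ((Unit ⊕ (_ ⊕ _)) → ℝ) =>
        (q.2.2 (Sum.inl ()), q.2.1, fun i => q.2.2 (Sum.inr (Sum.inr i)))) ?_
      fun_prop
  | .parallel Z₁ _, Sum.inl e => by
      simp only [Net.diff]
      have h := Net.diff_continuous Z₁ e
      refine h.comp (f := fun q : ℝ × ℝ × ((_ ⊕ _) → ℝ) =>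
        (q.1, q.2.1, fun i => q.2.2 (Sum.inl i))) ?_
      fun_prop
  | .parallel _ Z₂, Sum.inr e => by
      simp only [Net.diff]
      have h := Net.diff_continuous Z₂ e
      refine h.comp (f := fun q : ℝ × ℝ × ((_ ⊕ _) → ℝ) =>
        (q.1, q.2.1, fun i => q.2.2 (Sum.inr i))) ?_
      fun_prop

theorem Net.sec_closed (Z : Net) (h : Z.Edge → ℝ) (u v : ℝ) : IsClosed (Z.sec h u v) := by
  have : Z.sec h u v = ⋂ e, {y | |Z.diff e u v y| ≤ h e} := by
    ext y
    simp [Net.sec]
  rw [this]
  refine isClosed_iInter fun e => isClosed_le ?_ continuous_const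
  have hc := Net.diff_continuous Z e
  exact (hc.comp (by fun_prop : Continuous fun y : Z.Inner → ℝ => (u, v, y))).abs

theorem Net.body_closed (Z : Net) (h : Z.Edge → ℝ) : IsClosed (Z.body h) := by
  have : Z.body h = ⋂ e, {x | |Z.diff e 0 x.1 x.2| ≤ h e} := by
    ext y
    simp [Net.body]
  rw [this]
  refine isClosed_iInter fun e => isClosed_le ?_ continuous_const
  have hc := Net.diff_continuous Z e
  exact (hc.comp (by fun_prop : Continuous fun x : ℝ × (Z.Inner → ℝ) => ((0:ℝ), x.1, x.2))).abs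

/-- The volume of a product of sets over a disjoint sum of index sets. -/
theorem vol_sum {α β : Type} [Fintype α] [Fintype β] {A : Set (α → ℝ)} {B : Set (β → ℝ)}
    (hA : MeasurableSet A) (hB : MeasurableSet B) :
    volume {y : α ⊕ β → ℝ | (fun i => y (Sum.inl i)) ∈ A ∧ (fun i => y (Sum.inr i)) ∈ B}
      = volume A * volume B := by
  have hp := volume_measurePreserving_sumPiEquivProdPi (ι := α) (ι' := β) (fun _ => ℝ)
  have hm : MeasurableSet (A ×ˢ B) := hA.prod hB
  have e : {y : α ⊕ β → ℝ | (fun i => y (Sum.inl i)) ∈ A ∧ (fun i => y (Sum.inr i)) ∈ B}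
      = (MeasurableEquiv.sumPiEquivProdPi (fun _ : α ⊕ β => ℝ)) ⁻¹' (A ×ˢ B) := by
    ext y
    rfl
  rw [e, hp.measure_preimage hm.nullMeasurableSet, Measure.volume_eq_prod, Measure.prod_prod]

/-- The volume of a set fibred over one extra coordinate. -/
theorem vol_fibred {α β : Type} [Fintype α] [Fintype β] {T : ℝ → Set (α → ℝ)}
    {U : ℝ → Set (β → ℝ)}
    (hS : MeasurableSet {p : ℝ × ((α → ℝ) × (β → ℝ)) | p.2.1 ∈ T p.1 ∧ p.2.2 ∈ U p.1}) :
    volume {y : Unit ⊕ (α ⊕ β) → ℝ | (fun i => y (Sum.inr (Sum.inl i))) ∈ T (y (Sum.inl ())) ∧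
        (fun i => y (Sum.inr (Sum.inr i))) ∈ U (y (Sum.inl ()))}
      = ∫⁻ m, volume (T m) * volume (U m) := by
  have hp1 := volume_measurePreserving_sumPiEquivProdPi (ι := Unit) (ι' := α ⊕ β) (fun _ => ℝ)
  have hp2 := volume_measurePreserving_sumPiEquivProdPi (ι := α) (ι' := β) (fun _ => ℝ)
  have hp3 := volume_preserving_funUnique Unit ℝ
  have hp := (hp3.prod hp2).comp hp1
  set S' : Set (ℝ × ((α → ℝ) × (β → ℝ))) :=
    {p | p.2.1 ∈ T p.1 ∧ p.2.2 ∈ U p.1} with hS'
  have e : {y : Unit ⊕ (α ⊕ β) → ℝ | (fun i => y (Sum.inr (Sum.inl i))) ∈ T (y (Sum.inl ())) ∧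
        (fun i => y (Sum.inr (Sum.inr i))) ∈ U (y (Sum.inl ()))}
      = (Prod.map (MeasurableEquiv.funUnique Unit ℝ)
          (MeasurableEquiv.sumPiEquivProdPi (fun _ : α ⊕ β => ℝ)) ∘
            (MeasurableEquiv.sumPiEquivProdPi (fun _ : Unit ⊕ (α ⊕ β) => ℝ))) ⁻¹' S' := by
    ext y
    rfl
  rw [e, hp.measure_preimage hS.nullMeasurableSet]
  rw [Measure.volume_eq_prod, Measure.prod_apply hS]
  refine lintegral_congr fun m => ?_
  have e2 : Prod.mk m ⁻¹' S' = T m ×ˢ U m := by
    ext p
    rfl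
  rw [e2, Measure.prod_prod]

theorem Net.vol_sec : (Z : Net) → (h : Z.Edge → ℝ) → (u v : ℝ) →
    volume (Z.sec h u v) = ENNReal.ofReal (Z.den h (v - u))
  | .edge, h, u, v => by
      have : IsEmpty Net.edge.Inner := inferInstanceAs (IsEmpty Empty)
      simp only [Net.den]
      by_cases hh : |v - u| ≤ h ()
      · have : Net.edge.sec h u v = univ := by
          ext y
          simp only [Net.sec, mem_ofPred_eq, mem_univ, iff_true]
          intro e
          exact hh
        rw [this, if_pos hh, volume_pi, Measure.pi_of_empty]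
        simp
      · have : Net.edge.sec h u v = ∅ := by
          ext y
          simp only [Net.sec, mem_ofPred_eq, mem_empty_iff_false, iff_false]
          intro hy
          exact hh (hy ())
        rw [this, if_neg hh]
        simp
  | .parallel Z₁ Z₂, h, u, v => by
      have h1 := Z₁.den_ok (fun e => h (Sum.inl e))
      have e : (Net.parallel Z₁ Z₂).sec h u v = {y : Z₁.Inner ⊕ Z₂.Inner → ℝ |
          (fun i => y (Sum.inl i)) ∈ Z₁.sec (fun e => h (Sum.inl e)) u v ∧
          (fun i => y (Sum.inr i)) ∈ Z₂.sec (fun e => h (Sum.inr e)) u v} := by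
        ext y
        simp only [Net.sec, mem_ofPred_eq]
        constructor
        · exact fun hy => ⟨fun e => hy (Sum.inl e), fun e => hy (Sum.inr e)⟩
        · rintro ⟨hy1, hy2⟩ (e | e)
          · exact hy1 e
          · exact hy2 e
      have hv := vol_sum (Z₁.sec_closed (fun e => h (Sum.inl e)) u v).measurableSet
        (Z₂.sec_closed (fun e => h (Sum.inr e)) u v).measurableSet
      rw [e]
      refine hv.trans ?_
      rw [Net.vol_sec Z₁, Net.vol_sec Z₂]
      simp only [Net.den]
      rw [ENNReal.ofReal_mul (h1.nonneg _)]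
  | .series Z₁ Z₂, h, u, v => by
      have h1 := Z₁.den_ok (fun e => h (Sum.inl e))
      have h2 := Z₂.den_ok (fun e => h (Sum.inr e))
      have e : (Net.series Z₁ Z₂).sec h u v = {y : Unit ⊕ (Z₁.Inner ⊕ Z₂.Inner) → ℝ |
          (fun i => y (Sum.inr (Sum.inl i))) ∈ Z₁.sec (fun e => h (Sum.inl e)) u (y (Sum.inl ())) ∧
          (fun i => y (Sum.inr (Sum.inr i))) ∈ Z₂.sec (fun e => h (Sum.inr e)) (y (Sum.inl ())) v} := by
        ext y
        simp only [Net.sec, mem_ofPred_eq]
        constructor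
        · exact fun hy => ⟨fun e => hy (Sum.inl e), fun e => hy (Sum.inr e)⟩
        · rintro ⟨hy1, hy2⟩ (e | e)
          · exact hy1 e
          · exact hy2 e
      have hS : MeasurableSet {p : ℝ × ((Z₁.Inner → ℝ) × (Z₂.Inner → ℝ)) |
          p.2.1 ∈ Z₁.sec (fun e => h (Sum.inl e)) u p.1 ∧
          p.2.2 ∈ Z₂.sec (fun e => h (Sum.inr e)) p.1 v} := by
        have hA : IsClosed {p : ℝ × ((Z₁.Inner → ℝ) × (Z₂.Inner → ℝ)) |
              p.2.1 ∈ Z₁.sec (fun e => h (Sum.inl e)) u p.1} := by
          have : {p : ℝ × ((Z₁.Inner → ℝ) × (Z₂.Inner → ℝ)) |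
              p.2.1 ∈ Z₁.sec (fun e => h (Sum.inl e)) u p.1}
              = ⋂ e, {p | |Z₁.diff e u p.1 p.2.1| ≤ h (Sum.inl e)} := by
            ext p
            simp [Net.sec]
          rw [this]
          refine isClosed_iInter fun e => isClosed_le ?_ continuous_const
          have hc := Net.diff_continuous Z₁ e
          exact (hc.comp (by fun_prop : Continuous
            fun p : ℝ × ((Z₁.Inner → ℝ) × (Z₂.Inner → ℝ)) => (u, p.1, p.2.1))).abs
        have hB : IsClosed {p : ℝ × ((Z₁.Inner → ℝ) × (Z₂.Inner → ℝ)) |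
              p.2.2 ∈ Z₂.sec (fun e => h (Sum.inr e)) p.1 v} := by
          have : {p : ℝ × ((Z₁.Inner → ℝ) × (Z₂.Inner → ℝ)) |
              p.2.2 ∈ Z₂.sec (fun e => h (Sum.inr e)) p.1 v}
              = ⋂ e, {p | |Z₂.diff e p.1 v p.2.2| ≤ h (Sum.inr e)} := by
            ext p
            simp [Net.sec]
          rw [this]
          refine isClosed_iInter fun e => isClosed_le ?_ continuous_const
          have hc := Net.diff_continuous Z₂ e
          exact (hc.comp (by fun_prop : Continuous
            fun p : ℝ × ((Z₁.Inner → ℝ) × (Z₂.Inner → ℝ)) => (p.1, v, p.2.2))).abs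
        exact (hA.inter hB).measurableSet
      have hv := vol_fibred (T := fun m => Z₁.sec (fun e => h (Sum.inl e)) u m)
        (U := fun m => Z₂.sec (fun e => h (Sum.inr e)) m v) hS
      rw [e]
      refine hv.trans ?_
      simp only [Net.den]
      have e2 : ∀ m, volume (Z₁.sec (fun e => h (Sum.inl e)) u m)
          * volume (Z₂.sec (fun e => h (Sum.inr e)) m v)
          = ENNReal.ofReal (Z₁.den (fun e => h (Sum.inl e)) (m - u)
              * Z₂.den (fun e => h (Sum.inr e)) (v - m)) := by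
        intro m
        rw [Net.vol_sec Z₁, Net.vol_sec Z₂, ENNReal.ofReal_mul (h1.nonneg _)]
      simp_rw [e2]
      have hint : Integrable (fun m => Z₁.den (fun e => h (Sum.inl e)) (m - u)
              * Z₂.den (fun e => h (Sum.inr e)) (v - m)) := by
        obtain ⟨C, hC⟩ := h2.bdd
        have hi : Integrable (fun m => Z₁.den (fun e => h (Sum.inl e)) (m - u)) :=
          h1.integrable.comp_sub_right u
        have := integrable_mul_of_bdd (ψ := fun m => Z₂.den (fun e => h (Sum.inr e)) (v - m))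
          hi (h2.meas.comp (by fun_prop)) (C := C) (fun m => by
            rw [abs_of_nonneg (h2.nonneg _)]
            exact hC _)
        simpa [mul_comm] using this
      rw [← ofReal_integral_eq_lintegral_ofReal hint
        (Eventually.of_forall fun m => mul_nonneg (h1.nonneg _) (h2.nonneg _))]
      congr 1
      rw [← integral_sub_right_eq_self (fun s => Z₁.den (fun e => h (Sum.inl e)) s
        * Z₂.den (fun e => h (Sum.inr e)) (v - u - s)) u]
      refine integral_congr_ae (Eventually.of_forall fun m => ?_)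
      simp only
      congr 2
      ring

theorem Net.vol_body (Z : Net) (h : Z.Edge → ℝ) :
    volume (Z.body h) = ENNReal.ofReal (∫ t, Z.den h t) := by
  have hok := Z.den_ok h
  rw [Measure.volume_eq_prod, Measure.prod_apply (Z.body_closed h).measurableSet]
  have e : ∀ t, Prod.mk t ⁻¹' Z.body h = Z.sec h 0 t := fun t => rfl
  simp_rw [e, Net.vol_sec, sub_zero]
  rw [ofReal_integral_eq_lintegral_ofReal hok.integrable (Eventually.of_forall hok.nonneg)]

/-- The volume of the polytope of a network is the iterated pairing of `2 w`. -/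
theorem Net.vol_body_eq (Z : Net) {h : Z.Edge → ℝ} (hh : ∀ e, 0 < h e) :
    (volume (Z.body h)).toReal = Z.pair (fun w => 2 * w) h := by
  rw [Z.vol_body h, Z.pair_two h hh, ENNReal.toReal_ofReal]
  exact integral_nonneg (Z.den_ok h).nonneg

theorem Net.vol_body_pos (Z : Net) {h : Z.Edge → ℝ} (hh : ∀ e, 0 < h e) :
    0 < (volume (Z.body h)).toReal := by
  rw [Z.vol_body_eq hh]
  exact (netGood Z).pos _ twoW_HG₁ h hh

/-- Log-concavity of the volume in the logarithms of the heights. -/
theorem Net.vol_logconcave (Z : Net) {h₀ h₁ : Z.Edge → ℝ} (hh₀ : ∀ e, 0 < h₀ e)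
    (hh₁ : ∀ e, 0 < h₁ e) {lam : ℝ} (h0 : 0 ≤ lam) (h1 : lam ≤ 1) :
    (volume (Z.body h₀)).toReal ^ (1 - lam) * (volume (Z.body h₁)).toReal ^ lam
      ≤ (volume (Z.body (fun e => h₀ e ^ (1 - lam) * h₁ e ^ lam))).toReal := by
  have hpos : ∀ e, 0 < h₀ e ^ (1 - lam) * h₁ e ^ lam := fun e =>
    mul_pos (Real.rpow_pos_of_pos (hh₀ e) _) (Real.rpow_pos_of_pos (hh₁ e) _)
  rw [Z.vol_body_eq hh₀, Z.vol_body_eq hh₁, Z.vol_body_eq hpos]
  exact Z.pair_logconcave twoW_HG₁ hh₀ hh₁ h0 h1

end Vale.Agent.Lib.P227
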