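import Mathlib
import Vale.Agent.Lib.P227.NetDef

/-!
The Euclidean structure on the coordinate space of the network polytopes, support functions and
the logarithmic combination.
-/

namespace Vale.Agent.Lib.P227

/-- The Euclidean inner product on the coordinate space of the polytope of a network. -/
noncomputable def Net.dot (Z : Net) (x u : ℝ × (Z.Inner → ℝ)) : ℝ :=
  x.1 * u.1 + ∑ i, x.2 i * u.2 i

/-- The support function of a set. -/
noncomputable def Net.supp (Z : Net) (K : Set (ℝ × (Z.Inner → ℝ))) (u : ℝ × (Z.Inner → ℝ)) : ℝ :=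
  sSup ((fun x => Z.dot x u) '' K)

/-- The logarithmic combination: the Wulff body of the geometric mean of the support functions. -/
def Net.logComb (Z : Net) (K L : Set (ℝ × (Z.Inner → ℝ))) (lam : ℝ) :
    Set (ℝ × (Z.Inner → ℝ)) :=
  {x | ∀ u, Z.dot u u = 1 → Z.dot x u ≤ Z.supp K u ^ (1 - lam) * Z.supp L u ^ lam}

/-- In every direction `u` the two polytopes have maximizers at which the same constraints are
active, with the same signs. This holds when the two polytopes have the same normal fan and all
their constraints define facets. -/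
def Net.SameActive (Z : Net) (h h' : Z.Edge → ℝ) : Prop :=
  ∀ u, Z.dot u u = 1 → ∃ p ∈ Z.body h, ∃ p' ∈ Z.body h',
    (∀ x ∈ Z.body h, Z.dot x u ≤ Z.dot p u) ∧ (∀ x ∈ Z.body h', Z.dot x u ≤ Z.dot p' u) ∧
    (∀ e, Z.diff e 0 p.1 p.2 = h e ↔ Z.diff e 0 p'.1 p'.2 = h' e) ∧
    (∀ e, Z.diff e 0 p.1 p.2 = - h e ↔ Z.diff e 0 p'.1 p'.2 = - h' e)

end Vale.Agent.Lib.P227
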