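import Mathlib
import Vale.Agent.Lib.P227.NetGeom
import Vale.Agent.Lib.P227.NetQ1Def

/-!
From the inequality in the heights to the inequality for the logarithmic combination, for pairs
with the same active constraints.
-/

namespace Vale.Agent.Lib.P227

open Set Filter MeasureTheory Topology

/-- Farkas alternative for finitely many linear functionals on a real vector space. -/
theorem farkas_functionals {X ι : Type*} [AddCommGroup X] [Module ℝ X] [DecidableEq ι]
    (s : Finset ι) : ∀ (a : ι → X →ₗ[ℝ] ℝ) (u : X →ₗ[ℝ] ℝ),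
    (∃ β : ι → ℝ, (∀ i, 0 ≤ β i) ∧ u = ∑ i ∈ s, β i • a i) ∨
      (∃ d, (∀ i ∈ s, a i d ≤ 0) ∧ 0 < u d) := by
  induction s using Finset.induction_on with
  | empty =>
      intro a u
      by_cases hu : u = 0
      · left
        exact ⟨fun _ => 0, fun _ => le_rfl, by simpa using hu⟩
      · right
        obtain ⟨d, hd⟩ : ∃ d, u d ≠ 0 := by
          by_contra hcon
          push Not at hcon
          exact hu (LinearMap.ext fun d => by simpa using hcon d)
        rcases lt_or_gt_of_ne hd with h | h
        · exact ⟨-d, by simp, by simpa using h⟩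
        · exact ⟨d, by simp, h⟩
  | insert j s hj ih =>
      intro a u
      rcases ih a u with ⟨β, hβ, hu⟩ | ⟨d, hd, hud⟩
      · left
        refine ⟨fun i => if i = j then 0 else β i, fun i => ?_, ?_⟩
        · by_cases hi : i = j
          · simp [hi]
          · simp [hi, hβ i]
        · rw [Finset.sum_insert hj, hu]
          simp only [if_true, zero_smul, zero_add]
          refine Finset.sum_congr rfl fun i hi => ?_
          have : i ≠ j := fun h => hj (h ▸ hi)
          simp [this]
      · by_cases hjd : a j d ≤ 0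
        · right
          refine ⟨d, fun i hi => ?_, hud⟩
          rcases Finset.mem_insert.mp hi with rfl | hi
          · exact hjd
          · exact hd i hi
        · push Not at hjd
          set t := a j d with ht
          rcases ih (fun i => a i - (a i d / t) • a j) (u - (u d / t) • a j) with
            ⟨β, hβ, hu'⟩ | ⟨d', hd', hud'⟩
          · left
            refine ⟨fun i => if i = j then (u d - ∑ i ∈ s, β i * a i d) / t else β i,
              fun i => ?_, ?_⟩
            · by_cases hi : i = j
              · simp only [hi, if_true]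
                refine div_nonneg ?_ hjd.le
                have : ∑ i ∈ s, β i * a i d ≤ 0 :=
                  Finset.sum_nonpos fun i hi => mul_nonpos_of_nonneg_of_nonpos (hβ i) (hd i hi)
                linarith
              · simp [hi, hβ i]
            · rw [Finset.sum_insert hj]
              simp only [if_true]
              have e1 : ∑ i ∈ s, (if i = j then (u d - ∑ i ∈ s, β i * a i d) / t else β i) • a i
                  = ∑ i ∈ s, β i • a i := by
                refine Finset.sum_congr rfl fun i hi => ?_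
                have : i ≠ j := fun h => hj (h ▸ hi)
                simp [this]
              rw [e1]
              have e2 : u = (u d / t) • a j + ∑ i ∈ s, β i • (a i - (a i d / t) • a j) := by
                rw [← hu']
                abel
              have e3 : ∑ i ∈ s, β i • (a i - (a i d / t) • a j)
                  = ∑ i ∈ s, β i • a i - ((∑ i ∈ s, β i * a i d) / t) • a j := by
                rw [Finset.sum_div, Finset.sum_smul, ← Finset.sum_sub_distrib]
                refine Finset.sum_congr rfl fun i _ => ?_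
                rw [smul_sub, smul_smul]
                congr 2
                ring
              rw [e3] at e2
              nth_rewrite 1 [e2]
              ext x
              simp only [LinearMap.add_apply, LinearMap.sub_apply, LinearMap.smul_apply,
                smul_eq_mul]
              ring
          · right
            refine ⟨d' - (a j d' / t) • d, fun i hi => ?_, ?_⟩
            · rcases Finset.mem_insert.mp hi with rfl | hi
              · have ht0 : t ≠ 0 := hjd.ne'
                simp only [map_sub, map_smul, smul_eq_mul]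
                rw [← ht]
                field_simp
                simp
              · have := hd' i hi
                simp only [LinearMap.sub_apply, LinearMap.smul_apply, smul_eq_mul] at this
                simp only [map_sub, map_smul, smul_eq_mul]
                have e : a i d' - a j d' / t * a i d = a i d' - a i d / t * a j d' := by ring
                rw [e]
                exact this
            · simp only [LinearMap.sub_apply, LinearMap.smul_apply, smul_eq_mul] at hud'
              simp only [map_sub, map_smul, smul_eq_mul]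
              have e : u d' - a j d' / t * u d = u d' - u d / t * a j d' := by ring
              rw [e]
              exact hud'

theorem Net.diff_add₂ : (Z : Net) → (e : Z.Edge) → (u v u' v' : ℝ) → (y y' : Z.Inner → ℝ) →
    Z.diff e (u + u') (v + v') (fun i => y i + y' i) = Z.diff e u v y + Z.diff e u' v' y'
  | .edge, _, u, v, u', v', _, _ => by
      simp only [Net.diff]
      ring
  | .series Z₁ _, Sum.inl e, u, v, u', v', y, y' => by
      simp only [Net.diff]
      exact Net.diff_add₂ Z₁ e u _ u' _ _ _
  | .series _ Z₂, Sum.inr e, u, v, u', v', y, y' => by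
      simp only [Net.diff]
      exact Net.diff_add₂ Z₂ e _ v _ v' _ _
  | .parallel Z₁ _, Sum.inl e, u, v, u', v', y, y' => by
      simp only [Net.diff]
      exact Net.diff_add₂ Z₁ e u v u' v' _ _
  | .parallel _ Z₂, Sum.inr e, u, v, u', v', y, y' => by
      simp only [Net.diff]
      exact Net.diff_add₂ Z₂ e u v u' v' _ _

theorem Net.diff_smul₂ : (Z : Net) → (e : Z.Edge) → (c u v : ℝ) → (y : Z.Inner → ℝ) →
    Z.diff e (c * u) (c * v) (fun i => c * y i) = c * Z.diff e u v y
  | .edge, _, c, u, v, _ => by
      simp only [Net.diff]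
      ring
  | .series Z₁ _, Sum.inl e, c, u, v, y => by
      simp only [Net.diff]
      exact Net.diff_smul₂ Z₁ e c u _ _
  | .series _ Z₂, Sum.inr e, c, u, v, y => by
      simp only [Net.diff]
      exact Net.diff_smul₂ Z₂ e c _ v _
  | .parallel Z₁ _, Sum.inl e, c, u, v, y => by
      simp only [Net.diff]
      exact Net.diff_smul₂ Z₁ e c u v _
  | .parallel _ Z₂, Sum.inr e, c, u, v, y => by
      simp only [Net.diff]
      exact Net.diff_smul₂ Z₂ e c u v _

/-- The difference along an edge as a linear functional. -/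
noncomputable def Net.diffL (Z : Net) (e : Z.Edge) : (ℝ × (Z.Inner → ℝ)) →ₗ[ℝ] ℝ where
  toFun x := Z.diff e 0 x.1 x.2
  map_add' x y := by
    have := Z.diff_add₂ e 0 x.1 0 y.1 x.2 y.2
    rw [add_zero] at this
    exact this
  map_smul' c x := by
    have := Z.diff_smul₂ e c 0 x.1 x.2
    rw [mul_zero] at this
    exact this

/-- The inner product with a fixed vector as a linear functional. -/
noncomputable def Net.dotL (Z : Net) (u : ℝ × (Z.Inner → ℝ)) : (ℝ × (Z.Inner → ℝ)) →ₗ[ℝ] ℝ where
  toFun x := Z.dot x u
  map_add' x y := by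
    simp only [Net.dot, Prod.fst_add, Prod.snd_add, Pi.add_apply, add_mul, Finset.sum_add_distrib]
    ring
  map_smul' c x := by
    simp only [Net.dot, Prod.smul_fst, Prod.smul_snd, Pi.smul_apply, smul_eq_mul, RingHom.id_apply,
      mul_add, Finset.mul_sum, mul_assoc]

theorem weighted_holder {ι : Type*} (s : Finset ι) (β a b : ι → ℝ) (hβ : ∀ i, 0 ≤ β i)
    (ha : ∀ i, 0 < a i) (hb : ∀ i, 0 < b i) {lam : ℝ} (h0 : 0 ≤ lam) (h1 : lam ≤ 1) :
    ∑ i ∈ s, β i * (a i ^ (1 - lam) * b i ^ lam)
      ≤ (∑ i ∈ s, β i * a i) ^ (1 - lam) * (∑ i ∈ s, β i * b i) ^ lam := by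
  set A := ∑ i ∈ s, β i * a i with hA
  set B := ∑ i ∈ s, β i * b i with hB
  have hA0 : 0 ≤ A := Finset.sum_nonneg fun i _ => mul_nonneg (hβ i) (ha i).le
  have hB0 : 0 ≤ B := Finset.sum_nonneg fun i _ => mul_nonneg (hβ i) (hb i).le
  by_cases hz : A = 0 ∨ B = 0
  · -- all weights vanish
    have hall : ∀ i ∈ s, β i = 0 := by
      intro i hi
      rcases hz with hz | hz
      · have := (Finset.sum_eq_zero_iff_of_nonneg
          (fun i _ => mul_nonneg (hβ i) (ha i).le)).mp hz i hi
        exact (mul_eq_zero.mp this).resolve_right (ha i).ne'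
      · have := (Finset.sum_eq_zero_iff_of_nonneg
          (fun i _ => mul_nonneg (hβ i) (hb i).le)).mp hz i hi
        exact (mul_eq_zero.mp this).resolve_right (hb i).ne'
    have e : ∑ i ∈ s, β i * (a i ^ (1 - lam) * b i ^ lam) = 0 :=
      Finset.sum_eq_zero fun i hi => by rw [hall i hi, zero_mul]
    rw [e]
    exact mul_nonneg (Real.rpow_nonneg hA0 _) (Real.rpow_nonneg hB0 _)
  · push Not at hz
    have hAp : 0 < A := lt_of_le_of_ne hA0 (Ne.symm hz.1)
    have hBp : 0 < B := lt_of_le_of_ne hB0 (Ne.symm hz.2)
    have key : ∀ i, a i ^ (1 - lam) * b i ^ lam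
        ≤ A ^ (1 - lam) * B ^ lam * ((1 - lam) * (a i / A) + lam * (b i / B)) := by
      intro i
      have hg := Real.geom_mean_le_arith_mean2_weighted (sub_nonneg.2 h1) h0
        (div_pos (ha i) hAp).le (div_pos (hb i) hBp).le (by ring)
      have e : a i ^ (1 - lam) * b i ^ lam
          = A ^ (1 - lam) * B ^ lam * ((a i / A) ^ (1 - lam) * (b i / B) ^ lam) := by
        rw [Real.div_rpow (ha i).le hA0, Real.div_rpow (hb i).le hB0]
        have h3 := Real.rpow_pos_of_pos hAp (1 - lam)
        have h4 := Real.rpow_pos_of_pos hBp lam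
        field_simp
      rw [e]
      exact mul_le_mul_of_nonneg_left hg
        (mul_nonneg (Real.rpow_nonneg hA0 _) (Real.rpow_nonneg hB0 _))
    calc ∑ i ∈ s, β i * (a i ^ (1 - lam) * b i ^ lam)
        ≤ ∑ i ∈ s, β i * (A ^ (1 - lam) * B ^ lam * ((1 - lam) * (a i / A) + lam * (b i / B))) :=
          Finset.sum_le_sum fun i _ => mul_le_mul_of_nonneg_left (key i) (hβ i)
      _ = A ^ (1 - lam) * B ^ lam * ((1 - lam) * ((∑ i ∈ s, β i * a i) / A)
            + lam * ((∑ i ∈ s, β i * b i) / B)) := by
          rw [Finset.sum_div, Finset.sum_div, Finset.mul_sum, Finset.mul_sum, ← Finset.sum_add_distrib,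
            Finset.mul_sum]
          refine Finset.sum_congr rfl fun i _ => ?_
          ring
      _ = A ^ (1 - lam) * B ^ lam := by
          rw [← hA, ← hB, div_self hAp.ne', div_self hBp.ne']
          ring

open scoped Classical in
/-- At a maximizer of a linear functional on the polytope the functional is a nonnegative
combination of the active constraints. -/
theorem Net.kkt (Z : Net) {h : Z.Edge → ℝ} (hh : ∀ e, 0 < h e) (u : ℝ × (Z.Inner → ℝ))
    {p : ℝ × (Z.Inner → ℝ)} (hp : p ∈ Z.body h) (hmax : ∀ x ∈ Z.body h, Z.dot x u ≤ Z.dot p u) :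
    ∃ β : Z.Edge ⊕ Z.Edge → ℝ, (∀ i, 0 ≤ β i) ∧
      Z.dotL u = ∑ i ∈ Finset.univ.filter (fun i : Z.Edge ⊕ Z.Edge =>
          Sum.elim (fun e => Z.diffL e p = h e) (fun e => Z.diffL e p = - h e) i),
        β i • Sum.elim (fun e => Z.diffL e) (fun e => - Z.diffL e) i := by
  classical
  rcases farkas_functionals (Finset.univ.filter (fun i : Z.Edge ⊕ Z.Edge =>
      Sum.elim (fun e => Z.diffL e p = h e) (fun e => Z.diffL e p = - h e) i))
      (Sum.elim (fun e => Z.diffL e) (fun e => - Z.diffL e)) (Z.dotL u) with h1 | ⟨d, hd, hud⟩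
  · exact h1
  · exfalso
    have hev : ∀ᶠ ε in 𝓝[>] (0:ℝ), ∀ e, |Z.diffL e p + ε * Z.diffL e d| ≤ h e := by
      refine eventually_all.2 fun e => ?_
      have hpe : |Z.diffL e p| ≤ h e := hp e
      have hcont : Continuous fun ε : ℝ => Z.diffL e p + ε * Z.diffL e d := by fun_prop
      by_cases h1 : Z.diffL e p = h e
      · have hde : Z.diffL e d ≤ 0 := by
          have := hd (Sum.inl e) (by simp [h1])
          simpa using this
        have hlow : ∀ᶠ ε in 𝓝 (0:ℝ), - h e < Z.diffL e p + ε * Z.diffL e d := by
          refine hcont.continuousAt.eventually (lt_mem_nhds ?_)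
          simp only [zero_mul, add_zero]
          linarith [hh e]
        filter_upwards [hlow.filter_mono nhdsWithin_le_nhds, self_mem_nhdsWithin] with ε h2 h3
        refine abs_le.mpr ⟨h2.le, ?_⟩
        have : ε * Z.diffL e d ≤ 0 := mul_nonpos_of_nonneg_of_nonpos (le_of_lt h3) hde
        linarith
      by_cases h2 : Z.diffL e p = - h e
      · have hde : 0 ≤ Z.diffL e d := by
          have := hd (Sum.inr e) (by simp [h2])
          simpa using this
        have hup : ∀ᶠ ε in 𝓝 (0:ℝ), Z.diffL e p + ε * Z.diffL e d < h e := by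
          refine hcont.continuousAt.eventually (gt_mem_nhds ?_)
          simp only [zero_mul, add_zero]
          linarith [hh e]
        filter_upwards [hup.filter_mono nhdsWithin_le_nhds, self_mem_nhdsWithin] with ε h3 h4
        refine abs_le.mpr ⟨?_, h3.le⟩
        have : 0 ≤ ε * Z.diffL e d := mul_nonneg (le_of_lt h4) hde
        linarith
      · have hlt : |Z.diffL e p| < h e := by
          refine lt_of_le_of_ne hpe fun heq => ?_
          rcases abs_eq (hh e).le |>.mp heq with h3 | h3
          · exact h1 h3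
          · exact h2 h3
        have hab : ∀ᶠ ε in 𝓝 (0:ℝ), |Z.diffL e p + ε * Z.diffL e d| < h e := by
          refine hcont.abs.continuousAt.eventually (gt_mem_nhds ?_)
          simpa using hlt
        filter_upwards [hab.filter_mono nhdsWithin_le_nhds] with ε h3
        exact h3.le
    obtain ⟨ε, hε, hεpos⟩ := (hev.and self_mem_nhdsWithin).exists
    have hmem : p + ε • d ∈ Z.body h := by
      intro e
      have : Z.diff e 0 (p + ε • d).1 (p + ε • d).2 = Z.diffL e p + ε * Z.diffL e d := by
        have := (Z.diffL e).map_add p (ε • d)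
        rw [(Z.diffL e).map_smul, smul_eq_mul] at this
        exact this
      rw [this]
      exact hε e
    have hle := hmax _ hmem
    have e1 : Z.dot (p + ε • d) u = Z.dot p u + ε * Z.dot d u := by
      have := (Z.dotL u).map_add p (ε • d)
      rw [(Z.dotL u).map_smul, smul_eq_mul] at this
      exact this
    rw [e1] at hle
    have hud' : 0 < Z.dot d u := hud
    have : 0 < ε * Z.dot d u := mul_pos hεpos hud'
    linarith

theorem Net.supp_eq (Z : Net) {K : Set (ℝ × (Z.Inner → ℝ))} {u p : ℝ × (Z.Inner → ℝ)} (hp : p ∈ K)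
    (hmax : ∀ x ∈ K, Z.dot x u ≤ Z.dot p u) : Z.supp K u = Z.dot p u := by
  have : IsGreatest ((fun x => Z.dot x u) '' K) (Z.dot p u) := by
    refine ⟨⟨p, hp, rfl⟩, ?_⟩
    rintro _ ⟨x, hx, rfl⟩
    exact hmax x hx
  exact this.csSup_eq

/-- The polytope with the geometric-mean heights lies in the logarithmic combination. -/
theorem Net.body_subset_logComb (Z : Net) {h h' : Z.Edge → ℝ} (hh : ∀ e, 0 < h e)
    (hh' : ∀ e, 0 < h' e) (hs : Z.SameActive h h') {lam : ℝ} (h0 : 0 ≤ lam) (h1 : lam ≤ 1) :
    Z.body (fun e => h e ^ (1 - lam) * h' e ^ lam) ⊆ Z.logComb (Z.body h) (Z.body h') lam := by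
  classical
  intro x hx u hu
  obtain ⟨p, hp, p', hp', hmax, hmax', hsame, hsame'⟩ := hs u hu
  rw [Z.supp_eq hp hmax, Z.supp_eq hp' hmax']
  obtain ⟨β, hβ, hu'⟩ := Z.kkt hh u hp hmax
  set s := Finset.univ.filter (fun i : Z.Edge ⊕ Z.Edge =>
          Sum.elim (fun e => Z.diffL e p = h e) (fun e => Z.diffL e p = - h e) i) with hs'
  set a : Z.Edge ⊕ Z.Edge → (ℝ × (Z.Inner → ℝ)) →ₗ[ℝ] ℝ :=
    Sum.elim (fun e => Z.diffL e) (fun e => - Z.diffL e) with ha
  set hh₀ : Z.Edge ⊕ Z.Edge → ℝ := Sum.elim h h with hhh₀
  set hh₁ : Z.Edge ⊕ Z.Edge → ℝ := Sum.elim h' h' with hhh₁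
  have hval : ∀ y, Z.dot y u = ∑ i ∈ s, β i * a i y := by
    intro y
    have : Z.dotL u y = (∑ i ∈ s, β i • a i) y := by rw [← hu']
    rw [LinearMap.sum_apply] at this
    simp only [LinearMap.smul_apply, smul_eq_mul] at this
    exact this
  have h₀ : ∀ i ∈ s, a i p = hh₀ i := by
    rintro (e | e) hi
    · simpa [hs', ha, hhh₀] using hi
    · have : Z.diffL e p = - h e := by simpa [hs'] using hi
      simp [ha, hhh₀, this]
  have h₁ : ∀ i ∈ s, a i p' = hh₁ i := by
    rintro (e | e) hi
    · have : Z.diffL e p = h e := by simpa [hs'] using hi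
      have h2 : Z.diff e 0 p'.1 p'.2 = h' e := (hsame e).mp this
      have h3 : Z.diffL e p' = h' e := h2
      simp [ha, hhh₁, h3]
    · have : Z.diffL e p = - h e := by simpa [hs'] using hi
      have h2 : Z.diff e 0 p'.1 p'.2 = - h' e := (hsame' e).mp this
      have h3 : Z.diffL e p' = - h' e := h2
      simp [ha, hhh₁, h3]
  have hxle : ∀ i, a i x ≤ hh₀ i ^ (1 - lam) * hh₁ i ^ lam := by
    rintro (e | e)
    · exact (le_abs_self _).trans (hx e)
    · exact (neg_le_abs _).trans (hx e)
  have hposa : ∀ i, 0 < hh₀ i := by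
    rintro (e | e)
    · exact hh e
    · exact hh e
  have hposb : ∀ i, 0 < hh₁ i := by
    rintro (e | e)
    · exact hh' e
    · exact hh' e
  calc Z.dot x u = ∑ i ∈ s, β i * a i x := hval x
    _ ≤ ∑ i ∈ s, β i * (hh₀ i ^ (1 - lam) * hh₁ i ^ lam) :=
        Finset.sum_le_sum fun i _ => mul_le_mul_of_nonneg_left (hxle i) (hβ i)
    _ ≤ (∑ i ∈ s, β i * hh₀ i) ^ (1 - lam) * (∑ i ∈ s, β i * hh₁ i) ^ lam :=
        weighted_holder s β hh₀ hh₁ hβ hposa hposb h0 h1
    _ = Z.dot p u ^ (1 - lam) * Z.dot p' u ^ lam := by
        rw [hval p, hval p']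
        congr 2
        · exact Finset.sum_congr rfl fun i hi => by rw [h₀ i hi]
        · exact Finset.sum_congr rfl fun i hi => by rw [h₁ i hi]

/-- The inequality for the logarithmic combination, for pairs with the same active constraints. -/
theorem Net.logComb_ineq (Z : Net) {h h' : Z.Edge → ℝ} (hh : ∀ e, 0 < h e)
    (hh' : ∀ e, 0 < h' e) (hs : Z.SameActive h h') {lam : ℝ} (h0 : 0 ≤ lam) (h1 : lam ≤ 1) :
    volume (Z.body h) ^ (1 - lam) * volume (Z.body h') ^ lam
      ≤ volume (Z.logComb (Z.body h) (Z.body h') lam) := by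
  have hfin : ∀ k : Z.Edge → ℝ, volume (Z.body k) ≠ ⊤ := fun k => by
    rw [Z.vol_body k]
    exact ENNReal.ofReal_ne_top
  have hc := Z.vol_logconcave hh hh' h0 h1
  refine le_trans ?_ (measure_mono (Z.body_subset_logComb hh hh' hs h0 h1))
  have hp₀ := Z.vol_body_pos hh
  have hp₁ := Z.vol_body_pos hh'
  rw [← ENNReal.ofReal_toReal (hfin h), ← ENNReal.ofReal_toReal (hfin h'),
    ← ENNReal.ofReal_toReal (hfin (fun e => h e ^ (1 - lam) * h' e ^ lam)),
    ENNReal.ofReal_rpow_of_pos hp₀, ENNReal.ofReal_rpow_of_pos hp₁,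
    ← ENNReal.ofReal_mul (Real.rpow_nonneg hp₀.le _)]
  exact ENNReal.ofReal_le_ofReal hc

end Vale.Agent.Lib.P227
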